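import Vale.Agent.H11.TS.A1

namespace Vale.Agent.H11.TS

open Filter Topology
open scoped RealInnerProductSpace

variable {E : Type*} [NormedAddCommGroup E] [InnerProductSpace ℝ E]
variable {F : E → ℝ} {n : E → E} {A : E → E →L[ℝ] E} {K : E →L[ℝ] E →L[ℝ] E}

/-! ## Row A2: the monotonicity device -/

theorem A2.lim {G : Type*} [NormedAddCommGroup G] [NormedSpace ℝ G] {f : E → G} {f' : E →L[ℝ] G}
    {x : E} (hf : HasFDerivAt f f' x) {u : ℕ → E} {Y : E} (hu : Tendsto u atTop (𝓝 x))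
    (hY : Tendsto (fun j => ‖u j - x‖⁻¹ • (u j - x)) atTop (𝓝 Y)) :
    Tendsto (fun j => ‖u j - x‖⁻¹ • (f (u j) - f x)) atTop (𝓝 (f' Y)) := by
  have h1 : Tendsto (fun j => u j - x) atTop (𝓝 0) := by
    have := hu.sub_const x
    simpa using this
  have h3 := hf.hasFDerivWithinAt.lim (s := Set.univ) (c := fun j => ‖u j - x‖⁻¹)
    (d := fun j => u j - x) (v := Y) h1 (Eventually.of_forall fun _ => Set.mem_univ _) hY
  refine h3.congr fun j => ?_
  simp

theorem A2.lower [FiniteDimensional ℝ E] (h : NormData F n A) :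
    ∃ m : ℝ, 0 < m ∧ ∀ z, m * ‖z‖ ≤ F z := by
  by_cases hne : (Metric.sphere (0 : E) 1).Nonempty
  · obtain ⟨z0, hz0, hmin⟩ := (isCompact_sphere (0 : E) 1).exists_isMinOn hne h.cont.continuousOn
    have hz1 : ‖z0‖ = 1 := by simpa using hz0
    refine ⟨F z0, h.pos z0 (by intro h0; rw [h0] at hz1; simp at hz1), fun z => ?_⟩
    by_cases hz : z = 0
    · rw [hz, h.F_zero]; simp
    · have hzn : 0 < ‖z‖ := norm_pos_iff.2 hz
      have h1 : ‖z‖⁻¹ • z ∈ Metric.sphere (0 : E) 1 := by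
        simp [norm_smul, hzn.ne']
      have h2 : F z0 ≤ F (‖z‖⁻¹ • z) := hmin h1
      rw [h.smul, abs_of_pos (inv_pos.2 hzn)] at h2
      calc F z0 * ‖z‖ ≤ (‖z‖⁻¹ * F z) * ‖z‖ := mul_le_mul_of_nonneg_right h2 hzn.le
        _ = F z := by field_simp
  · refine ⟨1, one_pos, fun z => ?_⟩
    by_cases hz : z = 0
    · rw [hz, h.F_zero]; simp
    · exfalso
      apply hne
      have hzn : 0 < ‖z‖ := norm_pos_iff.2 hz
      exact ⟨‖z‖⁻¹ • z, by simp [norm_smul, hzn.ne']⟩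

theorem NormData.monotone_seq [FiniteDimensional ℝ E] (h : NormData F n A) (V W : E)
    (hV : F V = 1) (hW : W ≠ 0) (hWV : ⟪W, V⟫ = 0) :
    ∃ (s : ℕ → ℝ) (Vj : ℕ → E) (c : ℕ → ℝ) (Y : E),
      (∀ j, 0 < s j) ∧ Tendsto s atTop (𝓝 0) ∧ (∀ j, 0 < c j) ∧ (∀ j, Vj j ≠ 0) ∧
      (∀ j, n (Vj j) = c j • (n V + s j • W)) ∧ Tendsto Vj atTop (𝓝 V) ∧ (∀ j, Vj j ≠ V) ∧
      Tendsto (fun j => ‖Vj j - V‖⁻¹ • (Vj j - V)) atTop (𝓝 Y) ∧ ‖Y‖ = 1 ∧ 0 < ⟪W, Y⟫ := by
  have hV0 : V ≠ 0 := by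
    intro h0
    rw [h0, h.F_zero] at hV
    exact zero_ne_one hV
  have hnV : ⟪n V, V⟫ = 1 := by rw [h.n_self hV0, hV]
  obtain ⟨m, hm, hlow⟩ := A2.lower h
  set s0 : ℕ → ℝ := fun j => 1 / ((j : ℝ) + 1) with hs0
  have hs0pos : ∀ j, 0 < s0 j := fun j => by rw [hs0]; positivity
  have hs0lim : Tendsto s0 atTop (𝓝 0) := tendsto_one_div_add_atTop_nhds_zero_nat
  have hν : ∀ j, ⟪n V + s0 j • W, V⟫ = 1 := by
    intro j
    rw [inner_add_left, real_inner_smul_left, hWV, hnV]; simp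
  have hν0 : ∀ j, n V + s0 j • W ≠ 0 := by
    intro j h0
    have := hν j
    rw [h0, inner_zero_left] at this
    exact zero_ne_one this
  choose U M hM hFU hU0 hnU hle hUM using fun j => h.exists_max (n V + s0 j • W) (hν0 j)
  have hM1 : ∀ j, 1 ≤ M j := by
    intro j
    have := hle j V
    rw [hν j, hV, mul_one] at this
    exact this
  have hUb : ∀ j, ‖U j‖ ≤ m⁻¹ := by
    intro j
    have := hlow (U j)
    rw [hFU j] at this
    rw [← one_div, le_div_iff₀ hm]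
    linarith
  have hWU : ∀ j, |⟪W, U j⟫| ≤ ‖W‖ * m⁻¹ := by
    intro j
    exact (abs_real_inner_le_norm _ _).trans (mul_le_mul_of_nonneg_left (hUb j) (norm_nonneg _))
  have hnU1 : ∀ j, ⟪n V, U j⟫ = M j - s0 j * ⟪W, U j⟫ := by
    intro j
    have := hUM j
    rw [inner_add_left, real_inner_smul_left] at this
    linarith
  have hnUlow : ∀ j, 1 - s0 j * (‖W‖ * m⁻¹) ≤ ⟪n V, U j⟫ := by
    intro j
    rw [hnU1 j]
    have h1 := mul_le_mul_of_nonneg_left ((le_abs_self _).trans (hWU j)) (hs0pos j).le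
    have h2 := hM1 j
    linarith
  have hnUup : ∀ j, ⟪n V, U j⟫ ≤ 1 := by
    intro j
    have := h.n_le hV0 (U j)
    rw [hFU j] at this
    exact this
  have hnUlim : Tendsto (fun j => ⟪n V, U j⟫) atTop (𝓝 1) := by
    have h1 : Tendsto (fun j => 1 - s0 j * (‖W‖ * m⁻¹)) atTop (𝓝 1) := by
      have := (hs0lim.mul_const (‖W‖ * m⁻¹)).const_sub 1
      simpa using this
    exact tendsto_of_tendsto_of_tendsto_of_le_of_le h1 tendsto_const_nhds hnUlow hnUup
  have hUlim : Tendsto U atTop (𝓝 V) := by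
    apply tendsto_of_subseq_tendsto
    intro ns hns
    obtain ⟨Z, -, φ, hφ, hZ⟩ := (isCompact_closedBall (0 : E) m⁻¹).tendsto_subseq
      (x := fun j => U (ns j)) (fun j => by simpa using hUb (ns j))
    refine ⟨φ, ?_⟩
    have hFZ : F Z = 1 := by
      have h1 := (h.cont.tendsto Z).comp hZ
      have h2 : Tendsto (F ∘ ((fun j => U (ns j)) ∘ φ)) atTop (𝓝 1) := by
        refine tendsto_const_nhds.congr fun j => ?_
        simp [hFU]
      exact tendsto_nhds_unique h1 h2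
    have hnZ : ⟪n V, Z⟫ = 1 := by
      have h1 : Tendsto (fun j => ⟪n V, U (ns (φ j))⟫) atTop (𝓝 ⟪n V, Z⟫) :=
        tendsto_const_nhds.inner hZ
      have h2 := hnUlim.comp (hns.comp hφ.tendsto_atTop)
      exact tendsto_nhds_unique h1 h2
    have hVZ : F ((1 / 2 : ℝ) • (V + Z)) = 1 := by
      apply le_antisymm
      · rw [h.smul, abs_of_pos (by norm_num)]
        have := h.add_le V Z
        linarith
      · have := h.n_le hV0 ((1 / 2 : ℝ) • (V + Z))
        rw [real_inner_smul_right, inner_add_right, hnV, hnZ] at this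
        linarith
    have := h.strict V Z hV hFZ hVZ
    rw [this]
    exact hZ
  have hUV : ∀ j, U j ≠ V := by
    intro j hj
    have h1 := hUM j
    rw [hj, hν j] at h1
    have h2 := hnU j
    rw [hj, ← h1, inv_one, one_smul] at h2
    have h3 : s0 j • W = 0 := by
      have h5 : n V + s0 j • W = n V + 0 := by rw [add_zero]; exact h2.symm
      exact add_left_cancel h5
    rcases smul_eq_zero.1 h3 with h4 | h4
    · exact (hs0pos j).ne' h4
    · exact hW h4
  -- subsequence of the directions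
  obtain ⟨Y, hY, φ, hφ, hYlim⟩ := (isCompact_sphere (0 : E) 1).tendsto_subseq
    (x := fun j => ‖U j - V‖⁻¹ • (U j - V)) (fun j => by
      have : 0 < ‖U j - V‖ := norm_pos_iff.2 (sub_ne_zero.2 (hUV j))
      simp [norm_smul, this.ne'])
  have hY1 : ‖Y‖ = 1 := by simpa using hY
  have hφt := hφ.tendsto_atTop
  have hlim' : Tendsto (fun j => U (φ j)) atTop (𝓝 V) := hUlim.comp hφt
  have hYlim' : Tendsto (fun j => ‖U (φ j) - V‖⁻¹ • (U (φ j) - V)) atTop (𝓝 Y) := hYlim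
  refine ⟨fun j => s0 (φ j), fun j => U (φ j), fun j => (M (φ j))⁻¹, Y, fun j => hs0pos _,
    hs0lim.comp hφt, fun j => inv_pos.2 (hM _), fun j => hU0 _, fun j => hnU _, hlim',
    fun j => hUV _, hYlim', hY1, ?_⟩
  -- `Y` is not proportional to `V`
  have hnY : ⟪n V, Y⟫ = 0 := by
    have h1 := A2.lim (h.grad V hV0) hlim' hYlim'
    have h2 : Tendsto (fun j => ‖U (φ j) - V‖⁻¹ • (F (U (φ j)) - F V)) atTop (𝓝 0) := by
      refine tendsto_const_nhds.congr fun j => ?_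
      rw [hFU, hV]; simp
    exact tendsto_nhds_unique h1 h2
  have hYs : Y ∉ Submodule.span ℝ {V} := by
    intro hs
    obtain ⟨a, ha⟩ := Submodule.mem_span_singleton.1 hs
    rw [← ha, real_inner_smul_right, hnV, mul_one] at hnY
    rw [← ha, hnY, zero_smul, norm_zero] at hY1
    exact zero_ne_one hY1
  have hpos := h.hpos V hV0 Y hYs
  -- the limit of the difference quotients of `n`
  have hD := A2.lim (h.hess V hV0) hlim' hYlim'
  have hDV : Tendsto (fun j => ⟪‖U (φ j) - V‖⁻¹ • (n (U (φ j)) - n V), V⟫) atTop (𝓝 0) := by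
    have h1 : Tendsto (fun j => ⟪‖U (φ j) - V‖⁻¹ • (n (U (φ j)) - n V), V⟫) atTop
      (𝓝 ⟪A V Y, V⟫) := hD.inner tendsto_const_nhds
    have h2 : ⟪A V Y, V⟫ = 0 := by rw [h.symm V hV0, h.A_self hV0, inner_zero_right]
    rw [h2] at h1
    exact h1
  have hdiff : ∀ j, n (U (φ j)) - n V =
      ((M (φ j))⁻¹ - 1) • n V + ((M (φ j))⁻¹ * s0 (φ j)) • W := by
    intro j
    rw [hnU, smul_add, smul_smul, sub_smul, one_smul]
    abel
  have hDV' : Tendsto (fun j => ‖U (φ j) - V‖⁻¹ * ((M (φ j))⁻¹ - 1)) atTop (𝓝 0) := by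
    refine hDV.congr fun j => ?_
    rw [hdiff, real_inner_smul_left, inner_add_left, real_inner_smul_left, real_inner_smul_left,
      hnV, hWV]
    ring
  have hlimW : Tendsto (fun j => (‖U (φ j) - V‖⁻¹ * ((M (φ j))⁻¹ * s0 (φ j))) * ⟪W, Y⟫) atTop
      (𝓝 ⟪A V Y, Y⟫) := by
    have h1 : Tendsto (fun j => ⟪‖U (φ j) - V‖⁻¹ • (n (U (φ j)) - n V), Y⟫) atTop
      (𝓝 ⟪A V Y, Y⟫) := hD.inner tendsto_const_nhds
    refine h1.congr fun j => ?_
    rw [hdiff, real_inner_smul_left, inner_add_left, real_inner_smul_left, real_inner_smul_left,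
      hnY]
    ring
  by_contra hcon
  push Not at hcon
  have : ⟪A V Y, Y⟫ ≤ 0 := by
    refine le_of_tendsto' hlimW fun j => ?_
    apply mul_nonpos_of_nonneg_of_nonpos _ hcon
    have h1 := hM (φ j)
    have h2 := hs0pos (φ j)
    positivity
  linarith

end Vale.Agent.H11.TS
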