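import Vale.Agent.H11.TS.Defs

/-! Row A3: maximum of the cubic form. -/

namespace Vale.Agent.H11.TS

open Filter Topology
open scoped RealInnerProductSpace

variable {E : Type*} [NormedAddCommGroup E] [InnerProductSpace ℝ E]
variable {F : E → ℝ} {n : E → E} {A : E → E →L[ℝ] E} {K : E →L[ℝ] E →L[ℝ] E}

lemma a3_real {a b c p q : ℝ} (h : ∀ t : ℝ, 3 * t * a + 3 * t ^ 2 * b + t ^ 3 * c
    ≤ p * t ^ 2 + q * t ^ 4) : a = 0 ∧ 3 * b ≤ p := by
  have hφ : Tendsto (fun t : ℝ => (p - 3 * b) * t - c * t ^ 2 + q * t ^ 3) (𝓝 0) (𝓝 0) := by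
    have : Continuous (fun t : ℝ => (p - 3 * b) * t - c * t ^ 2 + q * t ^ 3) := by fun_prop
    simpa using this.tendsto 0
  have h1 : 3 * a ≤ 0 := by
    refine ge_of_tendsto (hφ.mono_left (nhdsWithin_le_nhds (s := Set.Ioi (0 : ℝ)))) ?_
    filter_upwards [self_mem_nhdsWithin] with t ht
    have ht' : (0 : ℝ) < t := ht
    have h2 := h t
    have h3 : t * (3 * a) ≤ t * ((p - 3 * b) * t - c * t ^ 2 + q * t ^ 3) := by nlinarith
    exact le_of_mul_le_mul_left h3 ht'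
  have h2 : 0 ≤ 3 * a := by
    refine le_of_tendsto (hφ.mono_left (nhdsWithin_le_nhds (s := Set.Iio (0 : ℝ)))) ?_
    filter_upwards [self_mem_nhdsWithin] with t ht
    have ht' : t < 0 := ht
    have h2 := h t
    have h3 : t * (3 * a) ≤ t * ((p - 3 * b) * t - c * t ^ 2 + q * t ^ 3) := by nlinarith
    nlinarith
  have ha : a = 0 := by linarith
  refine ⟨ha, ?_⟩
  have hψ : Tendsto (fun t : ℝ => 3 * b + t * c - q * t ^ 2) (𝓝 0) (𝓝 (3 * b)) := by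
    have : Continuous (fun t : ℝ => 3 * b + t * c - q * t ^ 2) := by fun_prop
    simpa using this.tendsto 0
  refine le_of_tendsto (hψ.mono_left (nhdsWithin_le_nhds (s := Set.Ioi (0 : ℝ)))) ?_
  filter_upwards [self_mem_nhdsWithin] with t ht
  have ht' : (0 : ℝ) < t := ht
  have h2 := h t
  rw [ha] at h2
  have h3 : t ^ 2 * (3 * b + t * c - q * t ^ 2) ≤ t ^ 2 * p := by nlinarith
  exact le_of_mul_le_mul_left h3 (by positivity)

lemma CubicData.a3_s12 (hK : CubicData n K) (u v w : E) : ⟪K u v, w⟫ = ⟪K v u, w⟫ := by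
  rw [hK.symm]

lemma CubicData.a3_s23 (hK : CubicData n K) (u v w : E) : ⟪K u v, w⟫ = ⟪K u w, v⟫ := by
  rw [hK.self, real_inner_comm]

lemma CubicData.a3_s13 (hK : CubicData n K) (u v w : E) : ⟪K u v, w⟫ = ⟪K w v, u⟫ := by
  rw [hK.a3_s12 u v w, hK.a3_s23 v u w, hK.a3_s12 v w u]

lemma CubicData.a3_expand (hK : CubicData n K) (u v : E) (t : ℝ) :
    ⟪K (u + t • v) (u + t • v), u + t • v⟫ =
      ⟪K u u, u⟫ + 3 * t * ⟪K u u, v⟫ + 3 * t ^ 2 * ⟪K u v, v⟫ + t ^ 3 * ⟪K v v, v⟫ := by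
  simp only [map_add, map_smul, ContinuousLinearMap.add_apply, ContinuousLinearMap.smul_apply,
    inner_add_left, inner_add_right, inner_smul_left, inner_smul_right, conj_trivial, smul_add]
  have e1 : ⟪K u v, u⟫ = ⟪K u u, v⟫ := hK.a3_s23 u v u
  have e2 : ⟪K v u, u⟫ = ⟪K u u, v⟫ := by rw [hK.a3_s12 v u u, e1]
  have e3 : ⟪K v u, v⟫ = ⟪K u v, v⟫ := hK.a3_s12 v u v
  have e4 : ⟪K v v, u⟫ = ⟪K u v, v⟫ := by rw [hK.a3_s13 v v u]
  rw [e1, e2, e3, e4]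
  ring

theorem CubicData.exists_top [FiniteDimensional ℝ E] (hK : CubicData n K) (h0 : K ≠ 0) :
    ∃ (V0 : E) (κ : ℝ), ‖V0‖ = 1 ∧ 0 < κ ∧ K V0 V0 = κ • V0 ∧
      ∀ U, ⟪U, V0⟫ = 0 → ⟪K V0 U, U⟫ ≤ κ / 2 * ‖U‖ ^ 2 := by
  -- the cubic form is not identically zero
  have hex : ∃ v, ⟪K v v, v⟫ ≠ 0 := by
    by_contra hcon
    push Not at hcon
    apply h0
    have h1 : ∀ u v, ⟪K u u, v⟫ = 0 := by
      intro u v
      have e1 := hK.a3_expand u v 1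
      have e2 := hK.a3_expand u v (-1)
      rw [hcon, hcon u, hcon v] at e1 e2
      linarith
    ext u w
    simp only [ContinuousLinearMap.zero_apply]
    apply ext_inner_right ℝ
    intro v
    have e := h1 (u + w) v
    simp only [map_add, ContinuousLinearMap.add_apply, inner_add_left, h1, zero_add,
      add_zero] at e
    rw [hK.symm w u] at e
    rw [inner_zero_left]
    linarith
  have hneg : ∀ v, ⟪K (-v) (-v), -v⟫ = -⟪K v v, v⟫ := by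
    intro v
    simp
  have hexp : ∃ v, 0 < ⟪K v v, v⟫ := by
    obtain ⟨v, hv⟩ := hex
    rcases lt_or_gt_of_ne hv with h | h
    · exact ⟨-v, by rw [hneg]; linarith⟩
    · exact ⟨v, h⟩
  obtain ⟨v1, hv1⟩ := hexp
  have hv10 : v1 ≠ 0 := by
    rintro rfl
    simp at hv1
  have : Nontrivial E := ⟨⟨v1, 0, hv10⟩⟩
  have hc : IsCompact (Metric.sphere (0 : E) 1) := isCompact_sphere 0 1
  have hne : (Metric.sphere (0 : E) 1).Nonempty := NormedSpace.sphere_nonempty.2 zero_le_one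
  have hcont : Continuous (fun v => ⟪K v v, v⟫) := by fun_prop
  obtain ⟨V0, hV0, hmax⟩ := hc.exists_isMaxOn hne hcont.continuousOn
  have hV1 : ‖V0‖ = 1 := by simpa using hV0
  set κ := ⟪K V0 V0, V0⟫ with hκ
  have hhom : ∀ (t : ℝ) (v : E), ⟪K (t • v) (t • v), t • v⟫ = t ^ 3 * ⟪K v v, v⟫ := by
    intro t v
    simp only [map_smul, ContinuousLinearMap.smul_apply, inner_smul_left, inner_smul_right,
      conj_trivial]
    ring
  have hle : ∀ z, ⟪K z z, z⟫ ≤ κ * ‖z‖ ^ 3 := by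
    intro z
    by_cases hz : z = 0
    · rw [hz]; simp
    · have hz' : 0 < ‖z‖ := norm_pos_iff.2 hz
      have h1 : ‖z‖⁻¹ • z ∈ Metric.sphere (0 : E) 1 := by
        rw [mem_sphere_zero_iff_norm, norm_smul, norm_inv, norm_norm, inv_mul_cancel₀ hz'.ne']
      have h2 : ⟪K (‖z‖⁻¹ • z) (‖z‖⁻¹ • z), ‖z‖⁻¹ • z⟫ ≤ κ := hmax h1
      rw [hhom] at h2
      have h3 : ‖z‖ ^ 3 * (‖z‖⁻¹ ^ 3 * ⟪K z z, z⟫) ≤ ‖z‖ ^ 3 * κ :=
        mul_le_mul_of_nonneg_left h2 (by positivity)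
      rw [← mul_assoc, ← mul_pow, mul_inv_cancel₀ hz'.ne', one_pow, one_mul] at h3
      linarith
  have hκ0 : 0 < κ := by
    have h1 := hle v1
    have h2 : 0 < ‖v1‖ ^ 3 := by
      have := norm_pos_iff.2 hv10
      positivity
    by_contra hcon
    push Not at hcon
    have : κ * ‖v1‖ ^ 3 ≤ 0 := mul_nonpos_of_nonpos_of_nonneg hcon h2.le
    linarith
  have hmain : ∀ W, ⟪W, V0⟫ = 0 → ⟪K V0 V0, W⟫ = 0 ∧ 3 * ⟪K V0 W, W⟫ ≤ 3 / 2 * κ * ‖W‖ ^ 2 := by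
    intro W hW
    apply a3_real (c := ⟪K W W, W⟫) (q := κ / 2 * ‖W‖ ^ 4)
    intro t
    have h1 := hle (V0 + t • W)
    rw [hK.a3_expand] at h1
    have h2 : ‖V0 + t • W‖ ^ 2 = 1 + t ^ 2 * ‖W‖ ^ 2 := by
      rw [norm_add_sq_real, hV1, inner_smul_right, real_inner_comm, hW, norm_smul, mul_pow,
        Real.norm_eq_abs, sq_abs]
      ring
    set s := ‖V0 + t • W‖ with hs
    have hs0 : 0 ≤ s := norm_nonneg _
    have hs1 : 1 ≤ s := by
      have : 1 ≤ s ^ 2 := by rw [h2]; nlinarith [sq_nonneg t, sq_nonneg ‖W‖, mul_nonneg (sq_nonneg t) (sq_nonneg ‖W‖)]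
      nlinarith
    -- s ≤ (1 + s^2)/2
    have h3 : s ^ 3 ≤ s ^ 2 * ((1 + s ^ 2) / 2) := by
      have : s ≤ (1 + s ^ 2) / 2 := by nlinarith [sq_nonneg (s - 1)]
      nlinarith [sq_nonneg s]
    have h4 : κ * s ^ 3 ≤ κ * (s ^ 2 * ((1 + s ^ 2) / 2)) := mul_le_mul_of_nonneg_left h3 hκ0.le
    rw [h2] at h4
    nlinarith
  refine ⟨V0, κ, hV1, hκ0, ?_, ?_⟩
  · apply ext_inner_right ℝ
    intro w
    have hdec : w = ⟪V0, w⟫ • V0 + (w - ⟪V0, w⟫ • V0) := by abel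
    have horth : ⟪w - ⟪V0, w⟫ • V0, V0⟫ = 0 := by
      rw [inner_sub_left, inner_smul_left, real_inner_self_eq_norm_sq, hV1, real_inner_comm]
      simp
    have h1 := (hmain _ horth).1
    calc ⟪K V0 V0, w⟫ = ⟪K V0 V0, ⟪V0, w⟫ • V0⟫ + ⟪K V0 V0, w - ⟪V0, w⟫ • V0⟫ := by
          rw [← inner_add_right, ← hdec]
      _ = ⟪V0, w⟫ * κ := by rw [h1, inner_smul_right, add_zero]
      _ = ⟪κ • V0, w⟫ := by rw [inner_smul_left]; simp [mul_comm]
  · intro U hU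
    have := (hmain U hU).2
    linarith

end Vale.Agent.H11.TS
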