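import Vale.Agent.H11.TS.A1

/-! Row A4: the gradient of `F` at the top direction. -/

namespace Vale.Agent.H11.TS

open Filter Topology
open scoped RealInnerProductSpace

variable {E : Type*} [NormedAddCommGroup E] [InnerProductSpace ℝ E]
variable {F : E → ℝ} {n : E → E} {A : E → E →L[ℝ] E} {K : E →L[ℝ] E →L[ℝ] E}

theorem n_top [FiniteDimensional ℝ E] (h : NormData F n A) (hK : CubicData n K) {V0 : E} {κ : ℝ}
    (h1 : ‖V0‖ = 1) (hκ : 0 < κ) (h2 : K V0 V0 = κ • V0)
    (h3 : ∀ U, ⟪U, V0⟫ = 0 → ⟪K V0 U, U⟫ ≤ κ / 2 * ‖U‖ ^ 2) :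
    ∃ c : ℝ, 0 < c ∧ n V0 = c • V0 := by
  have hV0 : V0 ≠ 0 := by
    rintro rfl
    simp at h1
  obtain ⟨v, M, hM, _, hv0, hnv, _, hin⟩ := h.exists_max V0 hV0
  obtain ⟨μ, hμ⟩ := hK.eig v hv0
  rw [hnv, map_smul, ContinuousLinearMap.smul_apply] at hμ
  have hμ' : K V0 v = (M * μ) • v := by
    rw [mul_smul, ← hμ, smul_smul, mul_inv_cancel₀ hM.ne', one_smul]
  set U := v - M • V0 with hU
  have hvU : v = M • V0 + U := by rw [hU]; abel
  have hUV : ⟪U, V0⟫ = 0 := by
    rw [hU, inner_sub_left, inner_smul_left, real_inner_self_eq_norm_sq, h1, real_inner_comm, hin]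
    simp
  have hKV : K V0 v = (M * κ) • V0 + K V0 U := by
    conv_lhs => rw [hvU]
    rw [map_add, map_smul, h2, smul_smul]
  have hKU : ⟪K V0 U, V0⟫ = 0 := by
    rw [hK.self, h2, inner_smul_right, hUV, mul_zero]
  have e1 : M * κ = M * μ * M := by
    have e := congrArg (fun z => ⟪z, V0⟫) (hKV.symm.trans hμ')
    simp only [inner_add_left, inner_smul_left, real_inner_self_eq_norm_sq, h1, hKU,
      conj_trivial] at e
    rw [real_inner_comm, hin] at e
    linarith
  have e2 : M * μ = κ := by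
    have : M * κ = M * (M * μ) := by rw [e1]; ring
    exact (mul_left_cancel₀ hM.ne' this).symm
  have e3 : ⟪K V0 U, U⟫ = κ * ‖U‖ ^ 2 := by
    have e := congrArg (fun z => ⟪z, U⟫) (hKV.symm.trans hμ')
    simp only [inner_add_left, inner_smul_left, conj_trivial] at e
    have hVU : ⟪V0, U⟫ = 0 := by rw [real_inner_comm]; exact hUV
    have hvU' : ⟪v, U⟫ = ‖U‖ ^ 2 := by
      conv_lhs => rw [hvU]
      rw [inner_add_left, inner_smul_left, hVU, real_inner_self_eq_norm_sq]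
      simp
    rw [hVU, hvU', e2] at e
    linarith
  have e4 := h3 U hUV
  rw [e3] at e4
  have hU0 : U = 0 := by
    by_contra hne
    have : 0 < ‖U‖ ^ 2 := by
      have := norm_pos_iff.2 hne
      positivity
    nlinarith
  have hv : v = M • V0 := by rw [hvU, hU0, add_zero]
  refine ⟨M⁻¹, inv_pos.2 hM, ?_⟩
  rw [← hnv, hv, h.n_smul hM hV0]

end Vale.Agent.H11.TS
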