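import Vale.Agent.H11.TS.A2

namespace Vale.Agent.H11.TS

open Filter Topology
open scoped RealInnerProductSpace

variable {E : Type*} [NormedAddCommGroup E] [InnerProductSpace ℝ E]
variable {F : E → ℝ} {n : E → E} {A : E → E →L[ℝ] E} {K : E →L[ℝ] E →L[ℝ] E}

/-! ## Row A5: positivity of `K V0` -/

theorem A5.quad {α β : ℝ} (h : ∀ t : ℝ, 0 ≤ 2 * t * α + t ^ 2 * β) : α = 0 := by
  by_contra hα
  have hb : 0 < |β| + 1 := by positivity
  have h1 := h (-α / (|β| + 1))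
  have h2 : 2 * (-α / (|β| + 1)) * α + (-α / (|β| + 1)) ^ 2 * β
      = α ^ 2 / (|β| + 1) ^ 2 * (β - 2 * (|β| + 1)) := by
    field_simp
    ring
  rw [h2] at h1
  have h3 : 0 < α ^ 2 / (|β| + 1) ^ 2 := by positivity
  have h4 : β - 2 * (|β| + 1) < 0 := by
    have := le_abs_self β
    have := abs_nonneg β
    linarith
  have := mul_neg_of_pos_of_neg h3 h4
  linarith

/-- first order condition for a minimiser of a quadratic form -/
theorem A5.crit (T : E →L[ℝ] E) (hT : ∀ u w, ⟪T u, w⟫ = ⟪u, T w⟫) {U Z : E} {b : ℝ}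
    (hU : ⟪T U, U⟫ = b * ‖U‖ ^ 2)
    (hge : ∀ t : ℝ, b * ‖U + t • Z‖ ^ 2 ≤ ⟪T (U + t • Z), U + t • Z⟫) :
    ⟪T U, Z⟫ = b * ⟪U, Z⟫ := by
  have h0 : ⟪T U, Z⟫ - b * ⟪U, Z⟫ = 0 := by
    apply A5.quad (β := ⟪T Z, Z⟫ - b * ‖Z‖ ^ 2)
    intro t
    have h1 := hge t
    rw [map_add, map_smul, ← real_inner_self_eq_norm_sq] at h1
    simp only [inner_add_left, inner_add_right, real_inner_smul_left, real_inner_smul_right] at h1
    rw [real_inner_self_eq_norm_sq, real_inner_self_eq_norm_sq, hU] at h1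
    have h2 : ⟪T Z, U⟫ = ⟪T U, Z⟫ := by rw [hT Z U, real_inner_comm]
    have h3 : ⟪Z, U⟫ = ⟪U, Z⟫ := real_inner_comm _ _
    rw [h2, h3] at h1
    nlinarith
  linarith

/-- convergence of eigenvalues -/
theorem A5.mu_lim (K : E →L[ℝ] E →L[ℝ] E) {a : ℕ → E} {a0 V : E} {Vj : ℕ → E} {μ : ℕ → ℝ}
    {μ0 : ℝ} (ha : Tendsto a atTop (𝓝 a0)) (hV : Tendsto Vj atTop (𝓝 V)) (hV0 : V ≠ 0)
    (hj0 : ∀ j, Vj j ≠ 0) (h0 : K a0 V = μ0 • V) (hj : ∀ j, K (a j) (Vj j) = μ j • Vj j) :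
    Tendsto μ atTop (𝓝 μ0) := by
  have hμeq : ∀ j, μ j = ⟪K (a j) (Vj j), Vj j⟫ / ‖Vj j‖ ^ 2 := by
    intro j
    have : 0 < ‖Vj j‖ ^ 2 := by
      have := norm_pos_iff.2 (hj0 j)
      positivity
    rw [hj j, real_inner_smul_left, real_inner_self_eq_norm_sq, eq_div_iff this.ne']
  have hVn : 0 < ‖V‖ ^ 2 := by
    have := norm_pos_iff.2 hV0
    positivity
  have l1 : Tendsto (fun j => K (a j) (Vj j)) atTop (𝓝 (K a0 V)) :=
    (K.continuous₂.tendsto (a0, V)).comp (ha.prodMk_nhds hV)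
  have l3 : Tendsto (fun j => ⟪K (a j) (Vj j), Vj j⟫ / ‖Vj j‖ ^ 2) atTop
      (𝓝 (⟪K a0 V, V⟫ / ‖V‖ ^ 2)) :=
    (l1.inner hV).div (hV.norm.pow 2) hVn.ne'
  have e1 : ⟪K a0 V, V⟫ / ‖V‖ ^ 2 = μ0 := by
    rw [h0, real_inner_smul_left, real_inner_self_eq_norm_sq]
    field_simp
  rw [e1] at l3
  exact l3.congr fun j => (hμeq j).symm

theorem K_top_pos [FiniteDimensional ℝ E] (h : NormData F n A) (hK : CubicData n K) {V0 : E}
    {κ : ℝ} (h1 : ‖V0‖ = 1) (hκ : 0 < κ) (h2 : K V0 V0 = κ • V0)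
    (_h3 : ∀ U, ⟪U, V0⟫ = 0 → ⟪K V0 U, U⟫ ≤ κ / 2 * ‖U‖ ^ 2)
    {c : ℝ} (hc : 0 < c) (hn : n V0 = c • V0) :
    ∀ U, U ≠ 0 → 0 < ⟪K V0 U, U⟫ := by
  have hV0 : V0 ≠ 0 := by
    intro h0
    rw [h0, norm_zero] at h1
    exact zero_ne_one h1
  have hVV : ⟪V0, V0⟫ = 1 := by rw [real_inner_self_eq_norm_sq, h1]; norm_num
  -- the main step: positivity on the orthogonal complement
  have main : ∀ U, U ≠ 0 → ⟪U, V0⟫ = 0 → 0 < ⟪K V0 U, U⟫ := by
    intro U' hU'0 hU'V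
    by_contra hneg
    push Not at hneg
    -- minimiser
    have hcomp : IsCompact (Metric.sphere (0 : E) 1 ∩ {U | ⟪U, V0⟫ = 0}) := by
      apply (isCompact_sphere (0 : E) 1).inter_right
      exact isClosed_eq (by fun_prop) continuous_const
    have hU'n : 0 < ‖U'‖ := norm_pos_iff.2 hU'0
    have hmem : ‖U'‖⁻¹ • U' ∈ Metric.sphere (0 : E) 1 ∩ {U | ⟪U, V0⟫ = 0} := by
      refine ⟨by simp [norm_smul, hU'n.ne'], ?_⟩
      simp only [Set.mem_ofPred_eq]
      rw [real_inner_smul_left, hU'V, mul_zero]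
    have hcont : Continuous fun U : E => ⟪K V0 U, U⟫ := by fun_prop
    obtain ⟨U, hU, hmin⟩ := hcomp.exists_isMinOn ⟨_, hmem⟩ hcont.continuousOn
    have hU1 : ‖U‖ = 1 := by simpa using hU.1
    have hUV : ⟪U, V0⟫ = 0 := hU.2
    set b : ℝ := ⟪K V0 U, U⟫ with hb
    have hb0 : b ≤ 0 := by
      have h4 : b ≤ ⟪K V0 (‖U'‖⁻¹ • U'), ‖U'‖⁻¹ • U'⟫ := hmin hmem
      rw [map_smul, real_inner_smul_left, real_inner_smul_right] at h4
      have h5 : ‖U'‖⁻¹ * (‖U'‖⁻¹ * ⟪K V0 U', U'⟫) ≤ 0 := by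
        apply mul_nonpos_of_nonneg_of_nonpos (by positivity)
        exact mul_nonpos_of_nonneg_of_nonpos (by positivity) hneg
      linarith
    have hge : ∀ Z : E, ⟪Z, V0⟫ = 0 → b * ‖Z‖ ^ 2 ≤ ⟪K V0 Z, Z⟫ := by
      intro Z hZ
      by_cases hZ0 : Z = 0
      · rw [hZ0]; simp
      · have hZn : 0 < ‖Z‖ := norm_pos_iff.2 hZ0
        have hmemZ : ‖Z‖⁻¹ • Z ∈ Metric.sphere (0 : E) 1 ∩ {U | ⟪U, V0⟫ = 0} := by
          refine ⟨by simp [norm_smul, hZn.ne'], ?_⟩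
          simp only [Set.mem_ofPred_eq]
          rw [real_inner_smul_left, hZ, mul_zero]
        have h4 : b ≤ ⟪K V0 (‖Z‖⁻¹ • Z), ‖Z‖⁻¹ • Z⟫ := hmin hmemZ
        rw [map_smul, real_inner_smul_left, real_inner_smul_right] at h4
        calc b * ‖Z‖ ^ 2 ≤ (‖Z‖⁻¹ * (‖Z‖⁻¹ * ⟪K V0 Z, Z⟫)) * ‖Z‖ ^ 2 :=
              mul_le_mul_of_nonneg_right h4 (by positivity)
          _ = ⟪K V0 Z, Z⟫ := by field_simp
    have heig : K V0 U = b • U := by
      have h4 : ∀ Z : E, ⟪K V0 U - b • U, Z⟫ = 0 := by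
        intro Z
        set a : ℝ := ⟪Z, V0⟫ with ha
        have hZ' : ⟪Z - a • V0, V0⟫ = 0 := by
          rw [inner_sub_left, real_inner_smul_left, hVV, ha]; ring
        have h5 := A5.crit (K V0) (hK.self V0) (U := U) (Z := Z - a • V0) (b := b)
          (by rw [hU1]; simp [hb]) (fun t => hge _ (by
            rw [inner_add_left, real_inner_smul_left, hUV, hZ']; ring))
        have h6 : ⟪K V0 U, V0⟫ = 0 := by
          rw [hK.self, h2, real_inner_smul_right, hUV, mul_zero]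
        rw [inner_sub_right, inner_sub_right, real_inner_smul_right, real_inner_smul_right,
          h6, hUV] at h5
        rw [inner_sub_left, real_inner_smul_left]
        linarith
      exact sub_eq_zero.1 (inner_self_eq_zero.1 (h4 _) : K V0 U - b • U = 0)
    have hU0 : U ≠ 0 := by
      intro h0
      rw [h0, norm_zero] at hU1
      exact zero_ne_one hU1
    -- the sequence
    have hF0 := h.pos V0 hV0
    obtain ⟨V, hVdef⟩ : ∃ V : E, V = (F V0)⁻¹ • V0 := ⟨_, rfl⟩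
    have hFV : F V = 1 := by
      rw [hVdef, h.smul, abs_of_pos (inv_pos.2 hF0), inv_mul_cancel₀ hF0.ne']
    have hnV : n V = c • V0 := by rw [hVdef, h.n_smul (inv_pos.2 hF0) hV0, hn]
    have hUV' : ⟪U, V⟫ = 0 := by rw [hVdef, real_inner_smul_right, hUV, mul_zero]
    obtain ⟨s, Vj, cj, Y, hs, hs0, hcj, hVj0, hnVj, hVjlim, hVjV, hYlim, hY1, hUY⟩ :=
      h.monotone_seq V U hFV hU0 hUV'
    have hV0' : V ≠ 0 := by
      rw [hVdef]
      exact smul_ne_zero (inv_pos.2 hF0).ne' hV0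
    have hμ : ∀ j, ∃ μ : ℝ, K (c • V0 + s j • U) (Vj j) = μ • Vj j := by
      intro j
      obtain ⟨μ, hμ⟩ := hK.eig (Vj j) (hVj0 j)
      rw [hnVj, hnV, map_smul, _root_.smul_apply] at hμ
      refine ⟨(cj j)⁻¹ * μ, ?_⟩
      rw [mul_smul, ← hμ, smul_smul, inv_mul_cancel₀ (hcj j).ne', one_smul]
    choose μ hμ using hμ
    have hμlim : Tendsto μ atTop (𝓝 (c * κ)) := by
      have hKV : K (c • V0) V = (c * κ) • V := by
        rw [map_smul, _root_.smul_apply, hVdef, map_smul, h2, smul_smul, smul_smul, smul_smul]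
        ring_nf
      have ha : Tendsto (fun j => c • V0 + s j • U) atTop (𝓝 (c • V0)) := by
        have := (hs0.smul_const U).const_add (c • V0)
        simpa using this
      exact A5.mu_lim K ha hVjlim hV0' hVj0 hKV hμ
    have hineq : ∀ j, (μ j - c * b) * ⟪‖Vj j - V‖⁻¹ • (Vj j - V), U⟫ ≤
        s j * ⟪‖Vj j - V‖⁻¹ • (Vj j - V), K U U⟫ := by
      intro j
      have i1 : ⟪K (c • V0 + s j • U) (Vj j), U⟫ = μ j * ⟪Vj j, U⟫ := by
        rw [hμ j, real_inner_smul_left]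
      rw [hK.self, map_add, map_smul, map_smul, _root_.add_apply,
        _root_.smul_apply, _root_.smul_apply, heig, inner_add_right,
        real_inner_smul_right, real_inner_smul_right, real_inner_smul_right] at i1
      have i2 : ⟪V, U⟫ = 0 := by rw [real_inner_comm]; exact hUV'
      have i3 : ⟪V, K U U⟫ = (F V0)⁻¹ * b := by
        rw [hVdef, real_inner_smul_left, ← hK.self, hK.symm, heig, real_inner_smul_left,
          real_inner_self_eq_norm_sq, hU1]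
        ring
      have i4 : (F V0)⁻¹ * b ≤ 0 :=
        mul_nonpos_of_nonneg_of_nonpos (inv_pos.2 hF0).le hb0
      have i5 : (μ j - c * b) * ⟪Vj j - V, U⟫ ≤ s j * ⟪Vj j - V, K U U⟫ := by
        rw [inner_sub_left, inner_sub_left, i2, i3]
        have := mul_nonpos_of_nonneg_of_nonpos (hs j).le i4
        linarith
      rw [real_inner_smul_left, real_inner_smul_left]
      have i6 : 0 ≤ ‖Vj j - V‖⁻¹ := by positivity
      have := mul_le_mul_of_nonneg_left i5 i6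
      linarith
    have hl1 : Tendsto (fun j => (μ j - c * b) * ⟪‖Vj j - V‖⁻¹ • (Vj j - V), U⟫) atTop
        (𝓝 ((c * κ - c * b) * ⟪Y, U⟫)) :=
      (hμlim.sub_const _).mul (hYlim.inner tendsto_const_nhds)
    have hl2 : Tendsto (fun j => s j * ⟪‖Vj j - V‖⁻¹ • (Vj j - V), K U U⟫) atTop
        (𝓝 (0 * ⟪Y, K U U⟫)) :=
      hs0.mul (hYlim.inner tendsto_const_nhds)
    have hl3 := le_of_tendsto_of_tendsto' hl1 hl2 hineq
    rw [zero_mul, real_inner_comm] at hl3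
    have hpos : 0 < (c * κ - c * b) * ⟪U, Y⟫ := by
      apply mul_pos _ hUY
      have : c * b ≤ 0 := mul_nonpos_of_nonneg_of_nonpos hc.le hb0
      have := mul_pos hc hκ
      linarith
    linarith
  -- general vectors
  intro U hU
  set a : ℝ := ⟪U, V0⟫ with ha
  have hU' : ⟪U - a • V0, V0⟫ = 0 := by
    rw [inner_sub_left, real_inner_smul_left, hVV, ha]; ring
  set U' : E := U - a • V0 with hU'def
  have hUeq : U = a • V0 + U' := by rw [hU'def]; abel
  have e1 : ⟪K V0 U, U⟫ = a ^ 2 * κ + ⟪K V0 U', U'⟫ := by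
    have e2 : ⟪K V0 U', V0⟫ = 0 := by
      rw [hK.self, h2, real_inner_smul_right, hU', mul_zero]
    have e3 : ⟪V0, U'⟫ = 0 := by rw [real_inner_comm]; exact hU'
    rw [hUeq, map_add, map_smul, h2]
    simp only [inner_add_left, inner_add_right, real_inner_smul_left, real_inner_smul_right]
    rw [e2, e3, hVV]
    ring
  rw [e1]
  by_cases hU'0 : U' = 0
  · have ha0 : a ≠ 0 := by
      intro h0
      apply hU
      rw [hUeq, h0, hU'0]; simp
    rw [hU'0]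
    have : 0 < a ^ 2 * κ := by positivity
    simpa using this
  · have := main U' hU'0 hU'
    have h5 : 0 ≤ a ^ 2 * κ := by positivity
    linarith

end Vale.Agent.H11.TS
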