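import Vale.Agent.H11.TS.Defs

namespace Vale.Agent.H11.TS

open Filter Topology
open scoped RealInnerProductSpace

variable {E : Type*} [NormedAddCommGroup E] [InnerProductSpace ℝ E]
variable {F : E → ℝ} {n : E → E} {A : E → E →L[ℝ] E} {K : E →L[ℝ] E →L[ℝ] E}

/-! ## Row A6 -/

theorem A6.n_self (h : NormData F n A) {v : E} (hv : v ≠ 0) : ⟪n v, v⟫ = F v := by
  have h1 : HasDerivAt (fun t : ℝ => v + t • v) v 0 := by
    simpa using ((hasDerivAt_id (0 : ℝ)).smul_const v).const_add v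
  have h2 : HasFDerivAt F (innerSL ℝ (n v)) (v + (0 : ℝ) • v) := by simpa using h.grad v hv
  have h3' : HasDerivAt (F ∘ fun t : ℝ => v + t • v) (innerSL ℝ (n v) v) 0 :=
    h2.comp_hasDerivAt (0 : ℝ) h1
  have h3 : HasDerivAt (fun t : ℝ => F (v + t • v)) ⟪n v, v⟫ 0 := h3'
  have h4 : HasDerivAt (fun t : ℝ => F (v + t • v)) (F v) 0 := by
    have h5 : HasDerivAt (fun t : ℝ => (1 + t) * F v) (F v) 0 := by
      simpa using ((hasDerivAt_id (0 : ℝ)).const_add 1).mul_const (F v)
    refine h5.congr_of_eventuallyEq ?_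
    filter_upwards [Ioo_mem_nhds (show (-1 : ℝ) < 0 by norm_num) (show (0 : ℝ) < 1 by norm_num)]
      with t ht
    have : v + t • v = (1 + t) • v := by rw [add_smul, one_smul]
    rw [this, h.smul, abs_of_pos (by linarith [ht.1])]
  exact h3.unique h4

theorem K_eq_zero_of_eig (h : NormData F n A) (hK : CubicData n K) {V W : E} {μ : ℝ} (hV : V ≠ 0)
    (hμ : K (n V) V = μ • V) (hW : K (n V) W = μ • W) (hWV : ⟪W, V⟫ = 0) : K V W = 0 := by
  have hVW : ⟪V, W⟫ = 0 := by rw [real_inner_comm]; exact hWV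
  have hVV : 0 < ⟪V, V⟫ := real_inner_self_pos.2 hV
  have key : ∀ U : E, ⟪K (A V U) V, W⟫ = 0 := by
    intro U
    have h1 : HasDerivAt (fun t : ℝ => V + t • U) U 0 := by
      simpa using ((hasDerivAt_id (0 : ℝ)).smul_const U).const_add V
    have h2 : HasFDerivAt n (A V) (V + (0 : ℝ) • U) := by simpa using h.hess V hV
    have h3 : HasDerivAt (fun t : ℝ => n (V + t • U)) (A V U) 0 := h2.comp_hasDerivAt (0 : ℝ) h1
    have h4 : HasDerivAt (fun t : ℝ => K (n (V + t • U))) (K (A V U)) 0 :=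
      K.hasFDerivAt.comp_hasDerivAt (0 : ℝ) h3
    have h5 : HasDerivAt (fun t : ℝ => K (n (V + t • U)) (V + t • U))
        (K (A V U) (V + (0 : ℝ) • U) + K (n (V + (0 : ℝ) • U)) U) 0 := h4.clm_apply h1
    have hW' : HasDerivAt (fun _ : ℝ => W) 0 (0 : ℝ) := hasDerivAt_const _ _
    have h6 := (h5.inner ℝ hW').mul (h1.inner ℝ h1)
    have h7 := (h5.inner ℝ h1).mul (h1.inner ℝ hW')
    have h8 := h6.sub h7
    have h9 : HasDerivAt (fun _ : ℝ => (0 : ℝ)) 0 (0 : ℝ) := hasDerivAt_const _ _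
    have hne : ∀ᶠ t : ℝ in 𝓝 0, V + t • U ≠ 0 := by
      have hc : ContinuousAt (fun t : ℝ => V + t • U) 0 := h1.continuousAt
      have : V + (0 : ℝ) • U ≠ 0 := by simpa using hV
      exact hc.eventually_ne this
    have h10 := h8.unique (h9.congr_of_eventuallyEq (by
      filter_upwards [hne] with t ht
      obtain ⟨ν, hν⟩ := hK.eig _ ht
      simp only [Pi.mul_apply, Pi.sub_apply]
      rw [hν, inner_smul_left, inner_smul_left]
      simp
      ring))
    simp only [zero_smul, add_zero, inner_zero_right, zero_add, inner_add_left] at h10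
    rw [hμ, inner_smul_left, inner_smul_left] at h10
    have e1 : ⟪K (n V) U, W⟫ = μ * ⟪U, W⟫ := by
      rw [hK.self, hW, inner_smul_right]
    rw [e1, hVW] at h10
    simp at h10
    have e2 : ⟪μ • V, V⟫ = μ * ‖V‖ ^ 2 := by
      rw [real_inner_smul_left, real_inner_self_eq_norm_sq]
    have : ⟪K (A V U) V, W⟫ * ⟪V, V⟫ = 0 := by
      rw [e2] at h10
      rw [real_inner_self_eq_norm_sq]
      linarith
    rcases mul_eq_zero.1 this with h11 | h11
    · exact h11
    · exact absurd h11 hVV.ne'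
  have key2 : ⟪A V (K V W), K V W⟫ = 0 := by
    have := key (K V W)
    rw [hK.symm, hK.self] at this
    exact this
  by_cases hs : K V W ∈ Submodule.span ℝ {V}
  · obtain ⟨c, hc⟩ := Submodule.mem_span_singleton.1 hs
    have h1 : ⟪K V W, n V⟫ = 0 := by
      rw [hK.self, hK.symm, hμ, inner_smul_right, hWV, mul_zero]
    rw [← hc, inner_smul_left, real_inner_comm, A6.n_self h hV] at h1
    have hF := h.pos V hV
    simp at h1
    rcases h1 with h1 | h1
    · rw [← hc, h1, zero_smul]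
    · exact absurd h1 hF.ne'
  · exact absurd key2 (h.hpos V hV _ hs).ne'

end Vale.Agent.H11.TS
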