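import Vale.Agent.H11.TS.A5
import Vale.Agent.H11.TS.A6

namespace Vale.Agent.H11.TS

open Filter Topology
open scoped RealInnerProductSpace

variable {E : Type*} [NormedAddCommGroup E] [InnerProductSpace ℝ E]
variable {F : E → ℝ} {n : E → E} {A : E → E →L[ℝ] E} {K : E →L[ℝ] E →L[ℝ] E}

/-! ## Row A7 -/

/-- a null vector of a positive semidefinite form is in the kernel -/
theorem A7.ker {D : E →L[ℝ] E} (hD : ∀ u w, ⟪D u, w⟫ = ⟪u, D w⟫) (hD0 : ∀ u, 0 ≤ ⟪D u, u⟫)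
    {x : E} (hx : ⟪D x, x⟫ = 0) : D x = 0 := by
  have h : ∀ Z, ⟪D x, Z⟫ = 0 := by
    intro Z
    have := A5.crit D hD (U := x) (Z := Z) (b := 0) (by rw [hx]; ring)
      (fun t => by rw [zero_mul]; exact hD0 _)
    rw [zero_mul] at this
    exact this
  exact inner_self_eq_zero.1 (h (D x))

/-- a singular symmetric pencil `D - s B` with `D ≥ 0` -/
theorem A7.pencil [FiniteDimensional ℝ E] {D B : E →L[ℝ] E}
    (hD : ∀ u w, ⟪D u, w⟫ = ⟪u, D w⟫) (hD0 : ∀ u, 0 ≤ ⟪D u, u⟫)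
    (hB : ∀ u w, ⟪B u, w⟫ = ⟪u, B w⟫) {s : ℕ → ℝ} (hs : ∀ j, 0 < s j)
    (hs0 : Tendsto s atTop (𝓝 0)) {x : ℕ → E} {Y : E} (hx : Tendsto x atTop (𝓝 Y))
    (hDx : ∀ᶠ j in atTop, D (x j) = s j • B (x j)) : D Y = 0 ∧ B Y = 0 := by
  constructor
  · have h1 : Tendsto (fun j => D (x j)) atTop (𝓝 (D Y)) := (D.continuous.tendsto Y).comp hx
    have h2 : Tendsto (fun j => s j • B (x j)) atTop (𝓝 ((0 : ℝ) • B Y)) :=
      hs0.smul ((B.continuous.tendsto Y).comp hx)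
    rw [zero_smul] at h2
    exact tendsto_nhds_unique_of_eventuallyEq h1 h2 hDx
  · have hfreq : ∃ᶠ j in atTop, D (x j) = 0 := by
      intro hev
      obtain ⟨N, hN⟩ := eventually_atTop.1 (hev.and hDx)
      have hinv : Tendsto (fun j => (s (N + j))⁻¹) atTop atTop := by
        have h1 : Tendsto s atTop (𝓝[>] 0) :=
          tendsto_nhdsWithin_iff.2 ⟨hs0, Eventually.of_forall fun j => hs j⟩
        have h2 : Tendsto (fun j : ℕ => N + j) atTop atTop := tendsto_add_atTop_nat N |>.congr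
          fun j => Nat.add_comm _ _
        exact (tendsto_inv_nhdsGT_zero.comp h1).comp h2
      obtain ⟨φ, -, hφ⟩ := strictMono_subseq_of_tendsto_atTop hinv
      have hne : ∀ i k, i ≠ k → s (N + φ i) ≠ s (N + φ k) := by
        intro i k hik heq
        apply hik
        apply hφ.injective
        simp only [Function.comp_apply]
        rw [heq]
      have horth : ∀ i k, i ≠ k → ⟪D (x (N + φ i)), x (N + φ k)⟫ = 0 := by
        intro i k hik
        have e1 := (hN (N + φ i) (Nat.le_add_right _ _)).2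
        have e2 := (hN (N + φ k) (Nat.le_add_right _ _)).2
        have e3 : ⟪D (x (N + φ i)), x (N + φ k)⟫ = s (N + φ i) * ⟪B (x (N + φ i)), x (N + φ k)⟫ := by
          rw [e1, real_inner_smul_left]
        have e4 : ⟪D (x (N + φ i)), x (N + φ k)⟫ = s (N + φ k) * ⟪B (x (N + φ i)), x (N + φ k)⟫ := by
          rw [hD, e2, real_inner_smul_right, hB]
        have e5 : (s (N + φ i) - s (N + φ k)) * ⟪B (x (N + φ i)), x (N + φ k)⟫ = 0 := by
          rw [sub_mul]; linarith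
        rcases mul_eq_zero.1 e5 with e6 | e6
        · exact absurd (sub_eq_zero.1 e6) (hne i k hik)
        · rw [e3, e6, mul_zero]
      have hlin : LinearIndependent ℝ (fun i : ℕ => x (N + φ i)) := by
        rw [linearIndependent_iff']
        intro t g hg i hi
        have h1 : ⟪D (x (N + φ i)), ∑ k ∈ t, g k • x (N + φ k)⟫ = 0 := by
          rw [hg, inner_zero_right]
        rw [inner_sum, Finset.sum_eq_single i] at h1
        · rw [real_inner_smul_right] at h1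
          rcases mul_eq_zero.1 h1 with h2 | h2
          · exact h2
          · exact absurd (A7.ker hD hD0 h2) (hN _ (Nat.le_add_right _ _)).1
        · intro k _ hk
          rw [real_inner_smul_right, horth i k hk.symm, mul_zero]
        · intro h
          exact absurd hi h
      have := hlin.finite
      exact not_finite ℕ
    have hfreqB : ∃ᶠ j in atTop, B (x j) = 0 := by
      refine (hfreq.and_eventually hDx).mono fun j hj => ?_
      have h1 := hj.2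
      rw [hj.1] at h1
      rcases smul_eq_zero.1 h1.symm with h2 | h2
      · exact absurd h2 (hs j).ne'
      · exact h2
    have hBlim : Tendsto (fun j => B (x j)) atTop (𝓝 (B Y)) := (B.continuous.tendsto Y).comp hx
    by_contra hne
    have := hBlim.eventually_ne hne
    obtain ⟨j, h1, h2⟩ := (hfreqB.and_eventually this).exists
    exact h2 h1

/-- the choice of the direction `W` -/
theorem A7.choose [FiniteDimensional ℝ E] (T L : E →L[ℝ] E) (hL : ∀ u w, ⟪L u, w⟫ = ⟪u, L w⟫)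
    {V W : E} {μ : ℝ} (hW0 : W ≠ 0) (hW : T W = μ • W) (hWV : ⟪W, V⟫ = 0)
    (hpos : ∀ U, U ≠ 0 → 0 < ⟪L U, U⟫) :
    ∃ (W1 : E) (β : ℝ), 0 < β ∧ W1 ≠ 0 ∧ T W1 = μ • W1 ∧ ⟪W1, V⟫ = 0 ∧
      ∀ Z, T Z = μ • Z → ⟪Z, V⟫ = 0 → ⟪L W1, Z⟫ = β * ⟪W1, Z⟫ := by
  have hcomp : IsCompact (Metric.sphere (0 : E) 1 ∩ {U | T U = μ • U ∧ ⟪U, V⟫ = 0}) := by
    apply (isCompact_sphere (0 : E) 1).inter_right
    apply IsClosed.and
    · exact isClosed_eq (by fun_prop) (by fun_prop)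
    · exact isClosed_eq (by fun_prop) continuous_const
  have hscale : ∀ Z : E, Z ≠ 0 → T Z = μ • Z → ⟪Z, V⟫ = 0 →
      ‖Z‖⁻¹ • Z ∈ Metric.sphere (0 : E) 1 ∩ {U | T U = μ • U ∧ ⟪U, V⟫ = 0} := by
    intro Z hZ0 hZ hZV
    have hZn : 0 < ‖Z‖ := norm_pos_iff.2 hZ0
    refine ⟨by simp [norm_smul, hZn.ne'], ?_, ?_⟩
    · show T (‖Z‖⁻¹ • Z) = μ • (‖Z‖⁻¹ • Z)
      rw [map_smul, hZ, smul_comm]
    · show ⟪‖Z‖⁻¹ • Z, V⟫ = 0
      rw [real_inner_smul_left, hZV, mul_zero]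
  have hcont : Continuous fun U : E => ⟪L U, U⟫ := by fun_prop
  obtain ⟨U, hU, hmin⟩ := hcomp.exists_isMinOn ⟨_, hscale W hW0 hW hWV⟩ hcont.continuousOn
  have hU1 : ‖U‖ = 1 := by simpa using hU.1
  have hU0 : U ≠ 0 := by
    intro h0
    rw [h0, norm_zero] at hU1
    exact zero_ne_one hU1
  have hge : ∀ Z : E, T Z = μ • Z → ⟪Z, V⟫ = 0 → ⟪L U, U⟫ * ‖Z‖ ^ 2 ≤ ⟪L Z, Z⟫ := by
    intro Z hZ hZV
    by_cases hZ0 : Z = 0
    · rw [hZ0]; simp
    · have hZn : 0 < ‖Z‖ := norm_pos_iff.2 hZ0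
      have h4 : ⟪L U, U⟫ ≤ ⟪L (‖Z‖⁻¹ • Z), ‖Z‖⁻¹ • Z⟫ := hmin (hscale Z hZ0 hZ hZV)
      rw [map_smul, real_inner_smul_left, real_inner_smul_right] at h4
      calc ⟪L U, U⟫ * ‖Z‖ ^ 2 ≤ (‖Z‖⁻¹ * (‖Z‖⁻¹ * ⟪L Z, Z⟫)) * ‖Z‖ ^ 2 :=
            mul_le_mul_of_nonneg_right h4 (by positivity)
        _ = ⟪L Z, Z⟫ := by field_simp
  refine ⟨U, ⟪L U, U⟫, hpos U hU0, hU0, hU.2.1, hU.2.2, fun Z hZ hZV => ?_⟩
  apply A5.crit L hL (by rw [hU1]; ring)
  intro t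
  apply hge
  · rw [map_add, map_smul, hZ, hU.2.1, smul_add, smul_comm]
  · rw [inner_add_left, real_inner_smul_left, hZV]
    have : ⟪U, V⟫ = 0 := hU.2.2
    rw [this]; ring

theorem no_double [FiniteDimensional ℝ E] (h : NormData F n A) (hK : CubicData n K)
    {V W : E} {μ : ℝ} (hV : V ≠ 0) (hμ : K (n V) V = μ • V)
    (htop : ∀ w, ⟪K (n V) w, w⟫ ≤ μ * ‖w‖ ^ 2)
    (hW0 : W ≠ 0) (hW : K (n V) W = μ • W) (hWV : ⟪W, V⟫ = 0)
    {V0 : E} (hpos : ∀ U, U ≠ 0 → 0 < ⟪K V0 U, U⟫) : False := by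
  obtain ⟨W1, β, hβ, hW10, hW1, hW1V, hcrit⟩ :=
    A7.choose (K (n V)) (K V0) (hK.self V0) hW0 hW hWV hpos
  have hKVW : K V W1 = 0 := K_eq_zero_of_eig h hK hV hμ hW1 hW1V
  have hF := h.pos V hV
  obtain ⟨Vh, hVh⟩ : ∃ Vh : E, Vh = (F V)⁻¹ • V := ⟨_, rfl⟩
  have hVh0 : Vh ≠ 0 := by
    rw [hVh]
    exact smul_ne_zero (inv_pos.2 hF).ne' hV
  have hFVh : F Vh = 1 := by
    rw [hVh, h.smul, abs_of_pos (inv_pos.2 hF), inv_mul_cancel₀ hF.ne']
  have hnVh : n Vh = n V := by rw [hVh, h.n_smul (inv_pos.2 hF) hV]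
  have hW1Vh : ⟪W1, Vh⟫ = 0 := by rw [hVh, real_inner_smul_right, hW1V, mul_zero]
  have hKW1Vh : K W1 Vh = 0 := by rw [hK.symm, hVh, map_smul, _root_.smul_apply, hKVW, smul_zero]
  have hμh : K (n V) Vh = μ • Vh := by rw [hVh, map_smul, hμ, smul_comm]
  obtain ⟨s, Vj, cj, Y, hs, hs0, hcj, hVj0, hnVj, hVjlim, hVjV, hYlim, hY1, hWY⟩ :=
    h.monotone_seq Vh W1 hFVh hW10 hW1Vh
  have hμj : ∀ j, ∃ ν : ℝ, K (n V + s j • W1) (Vj j) = ν • Vj j := by
    intro j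
    obtain ⟨ν, hν⟩ := hK.eig (Vj j) (hVj0 j)
    rw [hnVj, hnVh, map_smul, _root_.smul_apply] at hν
    refine ⟨(cj j)⁻¹ * ν, ?_⟩
    rw [mul_smul, ← hν, smul_smul, inv_mul_cancel₀ (hcj j).ne', one_smul]
  choose ν hν using hμj
  have hVVh : 0 < ⟪Vh, Vh⟫ := real_inner_self_pos.2 hVh0
  have hne : ∀ᶠ j in atTop, ⟪Vj j, Vh⟫ ≠ 0 := by
    have h1 : Tendsto (fun j => ⟪Vj j, Vh⟫) atTop (𝓝 ⟪Vh, Vh⟫) :=
      hVjlim.inner tendsto_const_nhds
    exact h1.eventually_ne hVVh.ne'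
  have hkey : ∀ j, K (n V + s j • W1) Vh = μ • Vh := by
    intro j
    rw [map_add, map_smul, _root_.add_apply, _root_.smul_apply, hKW1Vh, smul_zero, add_zero, hμh]
  have hνμ : ∀ᶠ j in atTop, ν j = μ := by
    filter_upwards [hne] with j hj
    have h1 : ⟪K (n V + s j • W1) (Vj j), Vh⟫ = ν j * ⟪Vj j, Vh⟫ := by
      rw [hν, real_inner_smul_left]
    rw [hK.self, hkey, real_inner_smul_right] at h1
    exact (mul_right_cancel₀ hj h1).symm
  -- the pencil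
  set D : E →L[ℝ] E := μ • ContinuousLinearMap.id ℝ E - K (n V) with hDdef
  have hDapp : ∀ u, D u = μ • u - K (n V) u := fun u => by rw [hDdef]; simp
  have hDs : ∀ u w, ⟪D u, w⟫ = ⟪u, D w⟫ := by
    intro u w
    rw [hDapp, hDapp, inner_sub_left, inner_sub_right, real_inner_smul_left,
      real_inner_smul_right, hK.self]
  have hD0 : ∀ u, 0 ≤ ⟪D u, u⟫ := by
    intro u
    rw [hDapp, inner_sub_left, real_inner_smul_left, real_inner_self_eq_norm_sq]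
    have := htop u
    linarith
  have hDx : ∀ᶠ j in atTop, D (‖Vj j - Vh‖⁻¹ • (Vj j - Vh)) =
      s j • K W1 (‖Vj j - Vh‖⁻¹ • (Vj j - Vh)) := by
    filter_upwards [hνμ] with j hj
    have h1 : K (n V + s j • W1) (Vj j - Vh) = μ • (Vj j - Vh) := by
      rw [map_sub, hν, hkey, hj, smul_sub]
    rw [map_add, map_smul, _root_.add_apply, _root_.smul_apply] at h1
    have h2 : D (Vj j - Vh) = s j • K W1 (Vj j - Vh) := by
      rw [hDapp, ← h1]
      abel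
    rw [map_smul, map_smul, h2, smul_comm]
  obtain ⟨hDY, hBY⟩ := A7.pencil hDs hD0 (hK.self W1) hs hs0 hYlim hDx
  rw [hDapp] at hDY
  have hY' : K (n V) (Y - (⟪Y, Vh⟫ / ⟪Vh, Vh⟫) • Vh) = μ • (Y - (⟪Y, Vh⟫ / ⟪Vh, Vh⟫) • Vh) := by
    rw [map_sub, map_smul, hμh, ← sub_eq_zero.1 hDY, smul_sub, smul_comm]
  have hY'Vh : ⟪Y - (⟪Y, Vh⟫ / ⟪Vh, Vh⟫) • Vh, Vh⟫ = 0 := by
    rw [inner_sub_left, real_inner_smul_left]
    field_simp
    ring
  have hY'V : ⟪Y - (⟪Y, Vh⟫ / ⟪Vh, Vh⟫) • Vh, V⟫ = 0 := by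
    have hVV : V = F V • Vh := by
      rw [hVh, smul_smul, mul_inv_cancel₀ hF.ne', one_smul]
    rw [hVV, real_inner_smul_right, hY'Vh, mul_zero]
  have h1 := hcrit _ hY' hY'V
  have h2 : ⟪K V0 W1, Y - (⟪Y, Vh⟫ / ⟪Vh, Vh⟫) • Vh⟫ = 0 := by
    rw [hK.symm, hK.self, map_sub, map_smul, hBY, hKW1Vh]
    simp
  rw [h2, inner_sub_right, real_inner_smul_right, hW1Vh, mul_zero, sub_zero] at h1
  have := mul_pos hβ hWY
  linarith

end Vale.Agent.H11.TS
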