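import Vale.Agent.H11.TS.A0
import Vale.Agent.H11.TS.A3
import Vale.Agent.H11.TS.A4

/-! # Row A8 (the statements of rows A5 and A7 enter as hypotheses; see `A8Final.lean`) -/

namespace Vale.Agent.H11.TS.A8

open Filter Topology
open scoped RealInnerProductSpace
open Vale.Agent.H11.TS

variable {E : Type*} [NormedAddCommGroup E] [InnerProductSpace ℝ E]
variable {F : E → ℝ} {n : E → E} {A : E → E →L[ℝ] E} {K : E →L[ℝ] E →L[ℝ] E}

/-- a positive semidefinite symmetric operator vanishes where its form vanishes -/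
lemma eq_zero_of_form_zero (B : E →L[ℝ] E) (hs : ∀ u v, ⟪B u, v⟫ = ⟪u, B v⟫)
    (hp : ∀ u, 0 ≤ ⟪B u, u⟫) {w : E} (hw : ⟪B w, w⟫ = 0) : B w = 0 := by
  have key : ∀ u, ⟪B w, u⟫ = 0 := by
    intro u
    have h1 : ∀ t : ℝ, 0 ≤ 2 * t * ⟪B w, u⟫ + t ^ 2 * ⟪B u, u⟫ := by
      intro t
      have h2 := hp (w + t • u)
      have h3 : ⟪B (w + t • u), w + t • u⟫
          = ⟪B w, w⟫ + t * ⟪B w, u⟫ + t * ⟪B u, w⟫ + t ^ 2 * ⟪B u, u⟫ := by
        rw [map_add, map_smul, inner_add_left, inner_add_right, inner_add_right,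
          inner_smul_left, inner_smul_left, inner_smul_right, inner_smul_right]
        simp only [conj_trivial]
        ring
      have h4 : ⟪B u, w⟫ = ⟪B w, u⟫ := by rw [hs u w, real_inner_comm]
      rw [h3, hw, h4] at h2
      linarith
    by_contra hne
    set a := ⟪B w, u⟫ with ha
    set b := ⟪B u, u⟫ with hb
    have hb0 : 0 ≤ b := hp u
    have h5 := h1 (-(a / (b + 1)))
    have hb1 : 0 < b + 1 := by linarith
    have h6 : 2 * (-(a / (b + 1))) * a + (-(a / (b + 1))) ^ 2 * b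
        = -(a ^ 2 * (b + 2) / (b + 1) ^ 2) := by
      field_simp
      ring
    rw [h6] at h5
    have h7 : 0 < a ^ 2 * (b + 2) / (b + 1) ^ 2 := by
      have : 0 < a ^ 2 := by positivity
      positivity
    linarith
  have := key (B w)
  exact inner_self_eq_zero.1 this

/-- the eigenvalue function -/
noncomputable def mu (n : E → E) (K : E →L[ℝ] E →L[ℝ] E) (v : E) : ℝ :=
  ⟪K (n v) v, v⟫ / ‖v‖ ^ 2

lemma eig_mu (hK : CubicData n K) {v : E} (hv : v ≠ 0) : K (n v) v = mu n K v • v := by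
  obtain ⟨μ, hμ⟩ := hK.eig v hv
  have : mu n K v = μ := by
    unfold mu
    rw [hμ, inner_smul_left, real_inner_self_eq_norm_sq]
    have : ‖v‖ ^ 2 ≠ 0 := by positivity
    simp only [conj_trivial]
    field_simp
  rw [this, hμ]

theorem cubic_eq_zero_of [FiniteDimensional ℝ E] (h : NormData F n A) (hK : CubicData n K)
    (hdim : 2 ≤ Module.finrank ℝ E)
    (hA5 : ∀ {V0 : E} {κ : ℝ}, ‖V0‖ = 1 → 0 < κ → K V0 V0 = κ • V0 →
      (∀ U, ⟪U, V0⟫ = 0 → ⟪K V0 U, U⟫ ≤ κ / 2 * ‖U‖ ^ 2) →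
      ∀ {c : ℝ}, 0 < c → n V0 = c • V0 → ∀ U, U ≠ 0 → 0 < ⟪K V0 U, U⟫)
    (hA7 : ∀ {V W : E} {μ : ℝ}, V ≠ 0 → K (n V) V = μ • V →
      (∀ w, ⟪K (n V) w, w⟫ ≤ μ * ‖w‖ ^ 2) → W ≠ 0 → K (n V) W = μ • W → ⟪W, V⟫ = 0 →
      ∀ {V0 : E}, (∀ U, U ≠ 0 → 0 < ⟪K V0 U, U⟫) → False) : K = 0 := by
  by_contra h0
  obtain ⟨V0, κ, h1, hκ, h2, h3⟩ := CubicData.exists_top hK h0
  obtain ⟨c, hc, hn⟩ := n_top h hK h1 hκ h2 h3
  have hpos := hA5 h1 hκ h2 h3 hc hn
  have hV0 : V0 ≠ 0 := by
    intro h; rw [h, norm_zero] at h1; exact zero_ne_one h1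
  have hncont : ∀ v : {v : E // v ≠ 0}, ContinuousAt n v.1 := fun v =>
    (h.hess v.1 v.2).continuousAt
  have hnc : Continuous fun v : {v : E // v ≠ 0} => n v.1 := by
    rw [continuous_iff_continuousAt]
    intro v
    exact (hncont v).comp continuous_subtype_val.continuousAt
  have hKc : ∀ w : E, Continuous fun v : {v : E // v ≠ 0} => K (n v.1) w := by
    intro w
    exact (K.continuous.comp hnc).clm_apply continuous_const
  have hKv : Continuous fun v : {v : E // v ≠ 0} => K (n v.1) v.1 :=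
    (K.continuous.comp hnc).clm_apply continuous_subtype_val
  have hmuc : Continuous fun v : {v : E // v ≠ 0} => mu n K v.1 := by
    unfold mu
    apply Continuous.div
    · exact hKv.inner continuous_subtype_val
    · exact (continuous_subtype_val.norm).pow 2
    · intro v
      have := norm_pos_iff.2 v.2
      positivity
  set T : Set {v : E // v ≠ 0} := {v | ∀ w, ⟪K (n v.1) w, w⟫ ≤ mu n K v.1 * ‖w‖ ^ 2} with hT
  have hTclosed : IsClosed T := by
    have : T = ⋂ w : E, {v | ⟪K (n v.1) w, w⟫ ≤ mu n K v.1 * ‖w‖ ^ 2} := by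
      ext v; simp [hT]
    rw [this]
    apply isClosed_iInter
    intro w
    exact isClosed_le ((hKc w).inner continuous_const) (hmuc.mul continuous_const)
  -- not in `T`: a unit vector orthogonal to `v` with large form
  have hnotT : ∀ v : {v : E // v ≠ 0}, v ∉ T →
      ∃ w : E, ‖w‖ = 1 ∧ ⟪w, v.1⟫ = 0 ∧ mu n K v.1 ≤ ⟪K (n v.1) w, w⟫ := by
    intro v hv
    rw [hT, Set.mem_ofPred_eq] at hv
    push Not at hv
    obtain ⟨w, hw⟩ := hv
    have hvn : ‖v.1‖ ^ 2 ≠ 0 := by
      have := norm_pos_iff.2 v.2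
      positivity
    set a := ⟪w, v.1⟫ / ‖v.1‖ ^ 2 with ha
    set u := w - a • v.1 with hu
    have huv : ⟪u, v.1⟫ = 0 := by
      rw [hu, inner_sub_left, inner_smul_left, real_inner_self_eq_norm_sq, ha]
      simp only [conj_trivial]
      rw [div_mul_cancel₀ _ hvn, sub_self]
    have hwu : w = a • v.1 + u := by rw [hu]; abel
    have hvu : ⟪v.1, u⟫ = 0 := by rw [real_inner_comm]; exact huv
    have hKv' := eig_mu hK v.2
    have hKuv : ⟪K (n v.1) u, v.1⟫ = 0 := by
      rw [hK.self, hKv', inner_smul_right, huv, mul_zero]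
    have hform : ⟪K (n v.1) w, w⟫ = a ^ 2 * mu n K v.1 * ‖v.1‖ ^ 2 + ⟪K (n v.1) u, u⟫ := by
      rw [hwu, map_add, map_smul, hKv']
      simp only [inner_add_left, inner_add_right, inner_smul_left, inner_smul_right, conj_trivial,
        hvu, hKuv, real_inner_self_eq_norm_sq]
      ring
    have hnorm : ‖w‖ ^ 2 = a ^ 2 * ‖v.1‖ ^ 2 + ‖u‖ ^ 2 := by
      rw [← real_inner_self_eq_norm_sq w, hwu]
      simp only [inner_add_left, inner_add_right, inner_smul_left, inner_smul_right, conj_trivial,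
        hvu, huv, real_inner_self_eq_norm_sq]
      ring
    rw [hform, hnorm] at hw
    have hlt : mu n K v.1 * ‖u‖ ^ 2 < ⟪K (n v.1) u, u⟫ := by nlinarith
    have hu0 : u ≠ 0 := by
      intro h
      rw [h] at hlt
      simp at hlt
    have hun : 0 < ‖u‖ := norm_pos_iff.2 hu0
    refine ⟨‖u‖⁻¹ • u, ?_, ?_, ?_⟩
    · rw [norm_smul, norm_inv, norm_norm, inv_mul_cancel₀ hun.ne']
    · rw [inner_smul_left, huv]; simp
    · rw [map_smul, inner_smul_left, inner_smul_right]
      simp only [conj_trivial]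
      rw [← mul_assoc, ← mul_inv, ← sq, ← div_eq_inv_mul, le_div_iff₀ (by positivity)]
      exact hlt.le
  have hTopen : IsOpen T := by
    rw [← isClosed_compl_iff]
    apply IsSeqClosed.isClosed
    intro vj v hvj hlim hvT
    choose w hw1 hw2 hw3 using fun j => hnotT (vj j) (hvj j)
    obtain ⟨W, hWs, φ, hφ, hφlim⟩ := (isCompact_sphere (0 : E) 1).tendsto_subseq
      (x := w) (fun j => by simp [hw1 j])
    have hW1 : ‖W‖ = 1 := by simpa using hWs
    have hlim' : Tendsto (fun j => vj (φ j)) atTop (𝓝 v) := hlim.comp hφ.tendsto_atTop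
    have hlim'' : Tendsto (fun j => (vj (φ j)).1) atTop (𝓝 v.1) :=
      (continuous_subtype_val.tendsto v).comp hlim'
    have hWv : ⟪W, v.1⟫ = 0 := by
      have h5 : Tendsto (fun j => ⟪w (φ j), (vj (φ j)).1⟫) atTop (𝓝 ⟪W, v.1⟫) :=
        hφlim.inner hlim''
      have h6 : Tendsto (fun j => ⟪w (φ j), (vj (φ j)).1⟫) atTop (𝓝 0) := by
        simp only [hw2]
        exact tendsto_const_nhds
      exact tendsto_nhds_unique h5 h6
    have hK1 : Tendsto (fun j => K (n (vj (φ j)).1)) atTop (𝓝 (K (n v.1))) :=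
      ((K.continuous.comp hnc).tendsto v).comp hlim'
    have hform : Tendsto (fun j => ⟪K (n (vj (φ j)).1) (w (φ j)), w (φ j)⟫) atTop
        (𝓝 ⟪K (n v.1) W, W⟫) := by
      have h19 : Tendsto (fun j => K (n (vj (φ j)).1) (w (φ j))) atTop (𝓝 (K (n v.1) W)) :=
        ((isBoundedBilinearMap_apply (𝕜 := ℝ) (E := E) (F := E)).continuous.tendsto
          (K (n v.1), W)).comp (hK1.prodMk_nhds hφlim)
      exact h19.inner hφlim
    have hmulim : Tendsto (fun j => mu n K (vj (φ j)).1) atTop (𝓝 (mu n K v.1)) :=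
      (hmuc.tendsto v).comp hlim'
    have hge : mu n K v.1 ≤ ⟪K (n v.1) W, W⟫ :=
      le_of_tendsto_of_tendsto hmulim hform (Eventually.of_forall fun j => hw3 (φ j))
    have hle := hvT W
    rw [hW1] at hle
    have heq : ⟪K (n v.1) W, W⟫ = mu n K v.1 := by linarith
    -- the maximiser is an eigenvector
    set B : E →L[ℝ] E := mu n K v.1 • ContinuousLinearMap.id ℝ E - K (n v.1) with hB
    have hBa : ∀ u, B u = mu n K v.1 • u - K (n v.1) u := by
      intro u; simp [hB]
    have hBs : ∀ u u', ⟪B u, u'⟫ = ⟪u, B u'⟫ := by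
      intro u u'
      rw [hBa, hBa, inner_sub_left, inner_sub_right, inner_smul_left, inner_smul_right, hK.self]
      simp
    have hBp : ∀ u, 0 ≤ ⟪B u, u⟫ := by
      intro u
      rw [hBa, inner_sub_left, inner_smul_left, real_inner_self_eq_norm_sq]
      simp only [conj_trivial]
      linarith [hvT u]
    have hBW : ⟪B W, W⟫ = 0 := by
      rw [hBa, inner_sub_left, inner_smul_left, real_inner_self_eq_norm_sq, hW1, heq]
      simp
    have hBW0 := eq_zero_of_form_zero B hBs hBp hBW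
    rw [hBa, sub_eq_zero] at hBW0
    have hW0 : W ≠ 0 := by
      intro h; rw [h, norm_zero] at hW1; exact zero_ne_one hW1
    exact hA7 v.2 (eig_mu hK v.2) (fun u => hvT u) hW0 hBW0.symm hWv hpos
  -- connectedness
  have hrank : 1 < Module.rank ℝ E := by
    rw [← Module.finrank_eq_rank]
    exact_mod_cast hdim
  have hconn : IsPreconnected ({0}ᶜ : Set E) :=
    (isConnected_compl_singleton_of_one_lt_rank hrank 0).isPreconnected
  have : PreconnectedSpace {v : E // v ≠ 0} := by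
    have := isPreconnected_iff_preconnectedSpace.1 hconn
    exact this
  have hmu0 : mu n K V0 = c * κ := by
    unfold mu
    rw [hn, map_smul, _root_.smul_apply, h2, inner_smul_left, inner_smul_left,
      real_inner_self_eq_norm_sq, h1]
    simp
  have hV0T : (⟨V0, hV0⟩ : {v : E // v ≠ 0}) ∈ T := by
    rw [hT, Set.mem_ofPred_eq]
    intro w
    simp only
    rw [hmu0, hn, map_smul, _root_.smul_apply, inner_smul_left]
    simp only [conj_trivial]
    set a := ⟪w, V0⟫ with ha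
    set u := w - a • V0 with hu
    have huv : ⟪u, V0⟫ = 0 := by
      rw [hu, inner_sub_left, inner_smul_left, real_inner_self_eq_norm_sq, h1, ha]
      simp
    have hvu : ⟪V0, u⟫ = 0 := by rw [real_inner_comm]; exact huv
    have hwu : w = a • V0 + u := by rw [hu]; abel
    have hKuv : ⟪K V0 u, V0⟫ = 0 := by
      rw [hK.self, h2, inner_smul_right, huv, mul_zero]
    have hform : ⟪K V0 w, w⟫ = a ^ 2 * κ + ⟪K V0 u, u⟫ := by
      rw [hwu, map_add, map_smul, h2]
      simp only [inner_add_left, inner_add_right, inner_smul_left, inner_smul_right, conj_trivial,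
        hvu, hKuv, real_inner_self_eq_norm_sq, h1]
      ring
    have hnorm : ‖w‖ ^ 2 = a ^ 2 + ‖u‖ ^ 2 := by
      rw [← real_inner_self_eq_norm_sq w, hwu]
      simp only [inner_add_left, inner_add_right, inner_smul_left, inner_smul_right, conj_trivial,
        hvu, huv, real_inner_self_eq_norm_sq, h1]
      ring
    rw [hform, hnorm, mul_assoc]
    apply mul_le_mul_of_nonneg_left _ hc.le
    have := h3 u huv
    have h8 : 0 ≤ κ * ‖u‖ ^ 2 := by positivity
    nlinarith
  have huniv : T = Set.univ := IsClopen.eq_univ ⟨hTclosed, hTopen⟩ ⟨_, hV0T⟩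
  have hneg : (⟨-V0, neg_ne_zero.2 hV0⟩ : {v : E // v ≠ 0}) ∈ T := by rw [huniv]; trivial
  -- a nonzero vector orthogonal to `V0`
  obtain ⟨U, hU0, hUV⟩ : ∃ U : E, U ≠ 0 ∧ ⟪U, V0⟫ = 0 := by
    by_contra hcon
    push Not at hcon
    have htop : (ℝ ∙ V0)ᗮ = ⊥ := by
      rw [Submodule.eq_bot_iff]
      intro x hx
      by_contra hx0
      apply hcon x hx0
      rw [Submodule.mem_orthogonal_singleton_iff_inner_left] at hx
      exact hx
    have h9 : Module.finrank ℝ (ℝ ∙ V0) = 1 := finrank_span_singleton hV0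
    have h10 := Submodule.finrank_add_finrank_orthogonal (ℝ ∙ V0)
    rw [htop, h9, finrank_bot] at h10
    omega
  have hmu1 : mu n K (-V0) = -(c * κ) := by
    have h17 : K (n (-V0)) (-V0) = (c * κ) • V0 := by
      rw [h.n_neg hV0, hn]
      simp [h2, smul_smul]
    unfold mu
    rw [h17, inner_neg_right, inner_smul_left, real_inner_self_eq_norm_sq, norm_neg, h1]
    simp
  have h18 : K (n (-V0)) U = -(c • K V0 U) := by
    rw [h.n_neg hV0, hn]
    simp
  have h11 : ⟪K (n (-V0)) U, U⟫ ≤ mu n K (-V0) * ‖U‖ ^ 2 := hneg U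
  rw [hmu1, h18, inner_neg_left, inner_smul_left] at h11
  simp only [conj_trivial] at h11
  have h12 := h3 U hUV
  have h13 : 0 < ‖U‖ := norm_pos_iff.2 hU0
  have h14 : 0 < κ * ‖U‖ ^ 2 := by positivity
  have h15 : c * ⟪K V0 U, U⟫ ≤ c * (κ / 2 * ‖U‖ ^ 2) := mul_le_mul_of_nonneg_left h12 hc.le
  have h16 : 0 < c * (κ * ‖U‖ ^ 2) := mul_pos hc h14
  nlinarith

end Vale.Agent.H11.TS.A8
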