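import Vale.Agent.H11.TS.DefsB

namespace Vale.Agent.H11.TS

open Filter Topology Metric
open scoped RealInnerProductSpace

variable {X Y : Type*} [NormedAddCommGroup X] [NormedSpace ℝ X]
    [NormedAddCommGroup Y] [NormedSpace ℝ Y]

theorem SphMap.map_zero {Φ : X → Y} (h : SphMap Φ) : Φ 0 = 0 := by
  rw [← norm_eq_zero, h.norm, norm_zero]

theorem SphMap.unit {Φ : X → Y} (h : SphMap Φ) {x : X} (hx : ‖x‖ = 1) : ‖Φ x‖ = 1 := by
  rw [h.norm, hx]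

theorem SphMap.eq_norm_smul {Φ : X → Y} (h : SphMap Φ) (x : X) :
    Φ x = ‖x‖ • Φ (‖x‖⁻¹ • x) := by
  rcases eq_or_ne x 0 with rfl | hx
  · simp [h.map_zero]
  · rw [← h.smul _ (norm_nonneg x), smul_smul, mul_inv_cancel₀ (norm_ne_zero_iff.2 hx), one_smul]

theorem exists_sphMap (f : sphere (0 : X) 1 → sphere (0 : Y) 1) (hf : Isometry f)
    (hs : Function.Surjective f) :
    ∃ Φ : X → Y, SphMap Φ ∧ ∀ x : sphere (0 : X) 1, Φ x = f x := by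
  classical
  have hmem : ∀ x : X, x ≠ 0 → ‖x‖⁻¹ • x ∈ sphere (0 : X) 1 := fun x hx => by
    rw [mem_sphere_zero_iff_norm]; exact norm_smul_inv_norm (𝕜 := ℝ) hx
  let Φ : X → Y := fun x => if hx : x ≠ 0 then ‖x‖ • (f ⟨‖x‖⁻¹ • x, hmem x hx⟩ : Y) else 0
  have hΦ : ∀ x (hx : x ≠ 0), Φ x = ‖x‖ • (f ⟨‖x‖⁻¹ • x, hmem x hx⟩ : Y) := fun x hx => by
    simp only [Φ]; rw [dif_pos hx]
  have hΦ0 : Φ 0 = 0 := by simp [Φ]
  have hΦ1 : ∀ x : sphere (0 : X) 1, Φ x = f x := by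
    intro x
    have hx1 : ‖(x : X)‖ = 1 := mem_sphere_zero_iff_norm.1 x.2
    have hx : (x : X) ≠ 0 := by
      rw [← norm_ne_zero_iff, hx1]; norm_num
    rw [hΦ x hx]
    have : (⟨‖(x : X)‖⁻¹ • (x : X), hmem x hx⟩ : sphere (0 : X) 1) = x := by
      ext; simp [hx1]
    rw [this, hx1, one_smul]
  refine ⟨Φ, ⟨?_, ?_, ?_, ?_⟩, hΦ1⟩
  · intro t ht x
    rcases eq_or_ne x 0 with rfl | hx
    · simp [hΦ0]
    rcases eq_or_lt_of_le ht with rfl | ht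
    · simp [hΦ0]
    have htx : t • x ≠ 0 := smul_ne_zero ht.ne' hx
    rw [hΦ _ htx, hΦ _ hx]
    have h1 : ‖t • x‖ = t * ‖x‖ := by rw [norm_smul, Real.norm_of_nonneg ht.le]
    have : (⟨‖t • x‖⁻¹ • (t • x), hmem _ htx⟩ : sphere (0 : X) 1) = ⟨‖x‖⁻¹ • x, hmem x hx⟩ := by
      ext
      simp only
      rw [h1, smul_smul, mul_inv, mul_assoc, mul_comm (‖x‖⁻¹) t, ← mul_assoc,
        inv_mul_cancel₀ ht.ne', one_mul]
    rw [this, h1, mul_smul]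
  · intro x
    rcases eq_or_ne x 0 with rfl | hx
    · simp [hΦ0]
    rw [hΦ x hx, norm_smul, norm_norm, mem_sphere_zero_iff_norm.1 (f _).2, mul_one]
  · intro x z hx hz
    have h1 := hΦ1 ⟨x, mem_sphere_zero_iff_norm.2 hx⟩
    have h2 := hΦ1 ⟨z, mem_sphere_zero_iff_norm.2 hz⟩
    simp only at h1 h2
    rw [h1, h2]
    have := hf.dist_eq ⟨x, mem_sphere_zero_iff_norm.2 hx⟩ ⟨z, mem_sphere_zero_iff_norm.2 hz⟩
    rw [Subtype.dist_eq, Subtype.dist_eq, dist_eq_norm, dist_eq_norm] at this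
    exact this
  · intro y
    rcases eq_or_ne y 0 with rfl | hy
    · exact ⟨0, hΦ0⟩
    obtain ⟨x, hx⟩ := hs ⟨‖y‖⁻¹ • y, by
      rw [mem_sphere_zero_iff_norm]; exact norm_smul_inv_norm (𝕜 := ℝ) hy⟩
    have hx1 : ‖(x : X)‖ = 1 := mem_sphere_zero_iff_norm.1 x.2
    have hx0 : (x : X) ≠ 0 := by
      rw [← norm_ne_zero_iff, hx1]; norm_num
    have hy0 : ‖y‖ ≠ 0 := norm_ne_zero_iff.2 hy
    have hyx : ‖y‖ • (x : X) ≠ 0 := smul_ne_zero hy0 hx0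
    refine ⟨‖y‖ • (x : X), ?_⟩
    rw [hΦ _ hyx]
    have h1 : ‖‖y‖ • (x : X)‖ = ‖y‖ := by rw [norm_smul, norm_norm, hx1, mul_one]
    have : (⟨‖‖y‖ • (x : X)‖⁻¹ • (‖y‖ • (x : X)), hmem _ hyx⟩ : sphere (0 : X) 1) = x := by
      ext
      simp only
      rw [h1, smul_smul, inv_mul_cancel₀ hy0, one_smul]
    rw [this, hx, h1]
    simp only
    rw [smul_smul, mul_inv_cancel₀ hy0, one_smul]

theorem SphMap.injective {Φ : X → Y} (h : SphMap Φ) : Function.Injective Φ := by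
  intro x z hxz
  have hn : ‖x‖ = ‖z‖ := by rw [← h.norm x, hxz, h.norm z]
  rcases eq_or_ne z 0 with rfl | hz
  · rw [norm_zero, norm_eq_zero] at hn; exact hn
  have hz' : ‖z‖ ≠ 0 := norm_ne_zero_iff.2 hz
  have hx : x ≠ 0 := by rw [← norm_ne_zero_iff, hn]; exact hz'
  have h1 := h.iso (‖x‖⁻¹ • x) (‖z‖⁻¹ • z) (norm_smul_inv_norm (𝕜 := ℝ) hx)
    (norm_smul_inv_norm (𝕜 := ℝ) hz)
  rw [h.smul _ (by positivity), h.smul _ (by positivity), hxz, hn, sub_self, norm_zero] at h1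
  have h2 := sub_eq_zero.1 (norm_eq_zero.1 h1.symm)
  exact smul_right_injective _ (inv_ne_zero hz') h2

theorem SphMap.exists_inverse {Φ : X → Y} (h : SphMap Φ) :
    ∃ Ψ : Y → X, SphMap Ψ ∧ (∀ x, Ψ (Φ x) = x) ∧ ∀ y, Φ (Ψ y) = y := by
  obtain ⟨Ψ, hΨ⟩ := h.surj.hasRightInverse
  have hΨ' : ∀ x, Ψ (Φ x) = x := fun x => h.injective (hΨ _)
  refine ⟨Ψ, ⟨?_, ?_, ?_, ?_⟩, hΨ', hΨ⟩
  · intro t ht y
    apply h.injective
    rw [hΨ, h.smul t ht, hΨ]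
  · intro y; rw [← h.norm, hΨ]
  · intro y w hy hw
    rw [← h.iso (Ψ y) (Ψ w) (by rw [← h.norm, hΨ, hy]) (by rw [← h.norm, hΨ, hw]), hΨ, hΨ]
  · intro x; exact ⟨Φ x, hΨ' x⟩

theorem SphMap.neg [StrictConvexSpace ℝ X] {Φ : X → Y} (h : SphMap Φ) (x : X) :
    Φ (-x) = -Φ x := by
  obtain ⟨Ψ, hΨ, hl, hr⟩ := h.exists_inverse
  have key : ∀ x : X, ‖x‖ = 1 → Φ (-x) = -Φ x := by
    intro x hx
    have h1 : ‖Φ x‖ = 1 := h.unit hx
    have h2 : ‖Ψ (-Φ x) - Ψ (Φ x)‖ = 2 := by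
      rw [hΨ.iso _ _ (by rw [norm_neg, h1]) h1]
      have : -Φ x - Φ x = (-2 : ℝ) • Φ x := by module
      rw [this, norm_smul, h1]; norm_num
    rw [hl] at h2
    have h3 : ‖Ψ (-Φ x)‖ = 1 := hΨ.unit (by rw [norm_neg, h1])
    have h4 : ‖Ψ (-Φ x) + -x‖ = ‖Ψ (-Φ x)‖ + ‖-x‖ := by
      rw [← sub_eq_add_neg, h2, h3, norm_neg, hx]; norm_num
    have h5 := (sameRay_iff_norm_add.2 h4)
    have h6 : Ψ (-Φ x) = -x := by
      have := h5.norm_smul_eq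
      rw [h3, norm_neg, hx, one_smul, one_smul] at this
      exact this.symm
    rw [← h6, hr]
  rcases eq_or_ne x 0 with rfl | hx
  · simp [h.map_zero]
  have hx' : ‖x‖ ≠ 0 := norm_ne_zero_iff.2 hx
  have h1 : x = ‖x‖ • (‖x‖⁻¹ • x) := by rw [smul_smul, mul_inv_cancel₀ hx', one_smul]
  have h2 := key (‖x‖⁻¹ • x) (norm_smul_inv_norm (𝕜 := ℝ) hx)
  rw [h1, ← smul_neg, h.smul _ (norm_nonneg _), h.smul _ (norm_nonneg _), h2, smul_neg]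

theorem SphMap.strictConvex [StrictConvexSpace ℝ X] {Φ : X → Y} (h : SphMap Φ) :
    StrictConvexSpace ℝ Y := by
  obtain ⟨Ψ, hΨ, hl, hr⟩ := h.exists_inverse
  refine StrictConvexSpace.of_norm_add_ne_two fun a b ha hb hab => ?_
  intro h2
  apply hab
  have h3 : ‖Ψ a - Ψ (-b)‖ = 2 := by
    rw [hΨ.iso _ _ ha (by rw [norm_neg, hb]), sub_neg_eq_add, h2]
  have hneg : Ψ (-b) = -Ψ b := by
    apply h.injective
    rw [hr, h.neg, hr]
  rw [hneg, sub_neg_eq_add] at h3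
  have h4 : ‖Ψ a + Ψ b‖ = ‖Ψ a‖ + ‖Ψ b‖ := by
    rw [h3, hΨ.unit ha, hΨ.unit hb]; norm_num
  have h5 := (sameRay_iff_norm_add.2 h4).norm_smul_eq
  rw [hΨ.unit ha, hΨ.unit hb, one_smul, one_smul] at h5
  have h6 := congrArg Φ h5
  rw [hr, hr] at h6
  exact h6.symm

theorem SphMap.lipschitz {Φ : X → Y} (h : SphMap Φ) : LipschitzWith 3 Φ := by
  refine LipschitzWith.of_dist_le_mul fun x z => ?_
  rw [dist_eq_norm, dist_eq_norm]
  push_cast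
  rcases eq_or_ne z 0 with rfl | hz
  · rw [h.map_zero, sub_zero, sub_zero, h.norm]
    nlinarith [norm_nonneg x]
  rcases eq_or_ne x 0 with rfl | hx
  · rw [h.map_zero, zero_sub, zero_sub, norm_neg, norm_neg, h.norm]
    nlinarith [norm_nonneg z]
  have hx' : ‖x‖ ≠ 0 := norm_ne_zero_iff.2 hx
  have hz' : ‖z‖ ≠ 0 := norm_ne_zero_iff.2 hz
  set p := ‖x‖⁻¹ • x with hp
  set q := ‖z‖⁻¹ • z with hq
  have hp1 : ‖p‖ = 1 := norm_smul_inv_norm (𝕜 := ℝ) hx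
  have hq1 : ‖q‖ = 1 := norm_smul_inv_norm (𝕜 := ℝ) hz
  have h1 : Φ x = ‖x‖ • Φ p := h.eq_norm_smul x
  have h2 : Φ z = ‖z‖ • Φ q := h.eq_norm_smul z
  have hxp : x = ‖x‖ • p := by rw [hp, smul_smul, mul_inv_cancel₀ hx', one_smul]
  have hzq : z = ‖z‖ • q := by rw [hq, smul_smul, mul_inv_cancel₀ hz', one_smul]
  have h3 : Φ x - Φ z = (‖x‖ - ‖z‖) • Φ p + ‖z‖ • (Φ p - Φ q) := by
    rw [h1, h2]; module
  have h4 : ‖z‖ • (p - q) = (x - z) - (‖x‖ - ‖z‖) • p := by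
    have e1 : (x - z) - (‖x‖ - ‖z‖) • p = (x - ‖x‖ • p) - (z - ‖z‖ • q) + ‖z‖ • (p - q) := by
      module
    rw [e1, ← hxp, ← hzq]
    simp
  have h5 : |‖x‖ - ‖z‖| ≤ ‖x - z‖ := abs_norm_sub_norm_le x z
  have h6 : ‖z‖ * ‖p - q‖ ≤ 2 * ‖x - z‖ := by
    calc ‖z‖ * ‖p - q‖ = ‖‖z‖ • (p - q)‖ := by rw [norm_smul, norm_norm]
      _ = ‖(x - z) - (‖x‖ - ‖z‖) • p‖ := by rw [h4]
      _ ≤ ‖x - z‖ + ‖(‖x‖ - ‖z‖) • p‖ := norm_sub_le _ _
      _ = ‖x - z‖ + |‖x‖ - ‖z‖| := by rw [norm_smul, hp1, mul_one, Real.norm_eq_abs]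
      _ ≤ 2 * ‖x - z‖ := by linarith
  calc ‖Φ x - Φ z‖ ≤ ‖(‖x‖ - ‖z‖) • Φ p‖ + ‖‖z‖ • (Φ p - Φ q)‖ := by
        rw [h3]; exact norm_add_le _ _
    _ = |‖x‖ - ‖z‖| + ‖z‖ * ‖p - q‖ := by
        rw [norm_smul, norm_smul, h.unit hp1, mul_one, Real.norm_eq_abs, norm_norm,
          h.iso p q hp1 hq1]
    _ ≤ 3 * ‖x - z‖ := by linarith

/-! ## dimensions -/

theorem SphMap.finiteDimensional [FiniteDimensional ℝ X] {Φ : X → Y} (h : SphMap Φ) :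
    FiniteDimensional ℝ Y := by
  obtain ⟨Ψ, hΨ, hl, hr⟩ := h.exists_inverse
  let e : X ≃ₜ Y :=
    { toFun := Φ
      invFun := Ψ
      left_inv := hl
      right_inv := hr
      continuous_toFun := h.lipschitz.continuous
      continuous_invFun := hΨ.lipschitz.continuous }
  have : ProperSpace X := FiniteDimensional.proper ℝ X
  have : LocallyCompactSpace Y := e.symm.isClosedEmbedding.locallyCompactSpace
  exact FiniteDimensional.of_locallyCompactSpace ℝ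

theorem SphMap.finrank_le [FiniteDimensional ℝ X] [FiniteDimensional ℝ Y] {Φ : X → Y}
    (h : SphMap Φ) : Module.finrank ℝ Y ≤ Module.finrank ℝ X := by
  have h1 := h.lipschitz.dimH_range_le
  rw [h.surj.range_eq, Real.dimH_univ_eq_finrank, Real.dimH_univ_eq_finrank] at h1
  exact_mod_cast h1

theorem SphMap.finrank_eq [FiniteDimensional ℝ X] [FiniteDimensional ℝ Y] {Φ : X → Y}
    (h : SphMap Φ) : Module.finrank ℝ Y = Module.finrank ℝ X := by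
  obtain ⟨Ψ, hΨ, hl, hr⟩ := h.exists_inverse
  exact le_antisymm h.finrank_le hΨ.finrank_le

end Vale.Agent.H11.TS
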