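import Vale.Agent.H11.TS.DefsB

namespace Vale.Agent.H11.TS

open Filter Topology Metric
open scoped RealInnerProductSpace

variable {X Y : Type*} [NormedAddCommGroup X] [NormedSpace ℝ X]
    [NormedAddCommGroup Y] [NormedSpace ℝ Y]

theorem N1_self {x : X} (hx : DifferentiableAt ℝ (fun y : X => ‖y‖) x) : N1 X x x = ‖x‖ := by
  exact hx.fderiv_norm_self

theorem N1_smul (x : X) {t : ℝ} (ht : 0 < t) : N1 X (t • x) = N1 X x := by
  exact fderiv_norm_smul_pos ht

theorem N1_neg (x : X) : N1 X (-x) = -N1 X x := by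
  have := fderiv_norm_smul (E := X) x (-1)
  simpa using this

theorem N1_le (x v : X) : |N1 X x v| ≤ ‖v‖ := by
  have h1 : ‖N1 X x‖ ≤ 1 := by
    have := norm_fderiv_le_of_lipschitz ℝ (x₀ := x) (lipschitzWith_one_norm (E := X))
    simpa using this
  calc |N1 X x v| = ‖N1 X x v‖ := rfl
    _ ≤ ‖N1 X x‖ * ‖v‖ := (N1 X x).le_opNorm v
    _ ≤ 1 * ‖v‖ := by gcongr
    _ = ‖v‖ := one_mul _

theorem N2_smul (x : X) {t : ℝ} (ht : 0 < t) : N2 X (t • x) = t⁻¹ • N2 X x := by
  have h1 : (fun y : X => N1 X (t • y)) = N1 X := by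
    funext y; exact N1_smul y ht
  have h2 := fderiv_comp_smul (𝕜 := ℝ) (f := N1 X) (x := x) t
  have h3 : N2 X x = t • N2 X (t • x) := by
    rw [← h2, h1]
  rw [h3, smul_smul, inv_mul_cancel₀ ht.ne', one_smul]

theorem N2_self {x : X} (hx : ContDiffAt ℝ 2 (fun y : X => ‖y‖) x) : N2 X x x = 0 := by
  have h1 : ContDiffAt ℝ 1 (N1 X) x := hx.fderiv_right (by norm_num)
  have h2 : HasFDerivAt (N1 X) (N2 X x) x := (h1.differentiableAt (by norm_num)).hasFDerivAt
  have h3 : HasDerivAt (fun s : ℝ => (1 + s) • x) x 0 := by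
    have := ((hasDerivAt_id (0 : ℝ)).const_add 1).smul_const x
    simpa using this
  have h4 : HasDerivAt (fun s : ℝ => N1 X ((1 + s) • x)) (N2 X x x) 0 := by
    have h5 : HasFDerivAt (N1 X) (N2 X x) ((1 + (0:ℝ)) • x) := by simpa using h2
    exact h5.comp_hasDerivAt (0 : ℝ) h3
  have h6 : (fun s : ℝ => N1 X ((1 + s) • x)) =ᶠ[𝓝 0] fun _ => N1 X x := by
    have : ∀ᶠ s : ℝ in 𝓝 0, -1 < s := lt_mem_nhds (by norm_num)
    filter_upwards [this] with s hs
    exact N1_smul x (by linarith)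
  have h7 : HasDerivAt (fun s : ℝ => N1 X ((1 + s) • x)) 0 0 :=
    (hasDerivAt_const (0 : ℝ) (N1 X x)).congr_of_eventuallyEq h6
  exact h4.unique h7

theorem N2_symm {x : X} (hx : ContDiffAt ℝ 2 (fun y : X => ‖y‖) x) (u v : X) :
    N2 X x u v = N2 X x v u :=
  (hx.isSymmSndFDerivAt (by simp)).eq u v

theorem norm_line_eq_one {v w : X} (hv : ‖v‖ = 1) (hw : ‖w‖ = 1)
    (hvw : ‖(1 / 2 : ℝ) • (v + w)‖ = 1) {t : ℝ} (ht : |t| ≤ 1 / 2) :
    ‖(1 / 2 : ℝ) • (v + w) + t • (w - v)‖ = 1 := by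
  have hle : ∀ s : ℝ, |s| ≤ 1 / 2 → ‖(1 / 2 : ℝ) • (v + w) + s • (w - v)‖ ≤ 1 := by
    intro s hs
    have h1 : (1 / 2 : ℝ) • (v + w) + s • (w - v) = (1 / 2 - s) • v + (1 / 2 + s) • w := by module
    rw [h1]
    have hs1 := abs_le.1 hs
    calc ‖(1 / 2 - s) • v + (1 / 2 + s) • w‖ ≤ ‖(1 / 2 - s) • v‖ + ‖(1 / 2 + s) • w‖ :=
          norm_add_le _ _
      _ = (1 / 2 - s) + (1 / 2 + s) := by
          rw [norm_smul, norm_smul, hv, hw, mul_one, mul_one, Real.norm_of_nonneg (by linarith [hs1.2]),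
            Real.norm_of_nonneg (by linarith [hs1.1])]
      _ = 1 := by ring
  refine le_antisymm (hle t ht) ?_
  have h2 := hle (-t) (by simpa using ht)
  have h3 : (1 / 2 : ℝ) • (v + w) + (1 / 2 : ℝ) • (v + w) =
      ((1 / 2 : ℝ) • (v + w) + t • (w - v)) + ((1 / 2 : ℝ) • (v + w) + (-t) • (w - v)) := by module
  have h4 : ‖(1 / 2 : ℝ) • (v + w) + (1 / 2 : ℝ) • (v + w)‖ = 2 := by
    rw [← two_smul ℝ ((1 / 2 : ℝ) • (v + w)), norm_smul, hvw]; norm_num
  rw [h3] at h4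
  have h5 := norm_add_le ((1 / 2 : ℝ) • (v + w) + t • (w - v))
    ((1 / 2 : ℝ) • (v + w) + (-t) • (w - v))
  linarith

theorem SmoothStrong.strictConvex (hX : SmoothStrong X) : StrictConvexSpace ℝ X := by
  refine StrictConvexSpace.of_norm_combo_ne_one fun v w hv hw hne => ?_
  refine ⟨1 / 2, 1 / 2, by norm_num, by norm_num, by norm_num, ?_⟩
  rw [← smul_add]
  intro hvw
  set m := (1 / 2 : ℝ) • (v + w) with hm
  have hm0 : m ≠ 0 := by
    intro h0; rw [h0, norm_zero] at hvw; norm_num at hvw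
  have hc : ContDiffAt ℝ 3 (fun y : X => ‖y‖) m :=
    hX.smooth.contDiffAt (isOpen_compl_singleton.mem_nhds hm0)
  have hN1 : ContDiffAt ℝ 2 (N1 X) m := hc.fderiv_right (by norm_num)
  -- the function is constant along the line
  have hev : ∀ᶠ t : ℝ in 𝓝 0, |t| < 1 / 2 := by
    have : Tendsto (fun t : ℝ => |t|) (𝓝 0) (𝓝 |0|) := continuous_abs.continuousAt
    rw [abs_zero] at this
    exact this.eventually_lt_const (by norm_num)
  have hline : ∀ t : ℝ, HasDerivAt (fun t : ℝ => m + t • (w - v)) (w - v) t := by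
    intro t
    have := ((hasDerivAt_id t).smul_const (w - v)).const_add m
    simpa using this
  have hne0 : ∀ t : ℝ, |t| < 1 / 2 → m + t • (w - v) ≠ 0 := by
    intro t ht h0
    have := norm_line_eq_one hv hw hvw ht.le
    rw [← hm, h0, norm_zero] at this; norm_num at this
  have h1 : ∀ t : ℝ, |t| < 1 / 2 → N1 X (m + t • (w - v)) (w - v) = 0 := by
    intro t ht
    have hd : HasFDerivAt (fun y : X => ‖y‖) (N1 X (m + t • (w - v))) (m + t • (w - v)) :=
      ((hX.smooth.contDiffAt (isOpen_compl_singleton.mem_nhds (hne0 t ht))).differentiableAt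
        (by norm_num)).hasFDerivAt
    have h2 := hd.comp_hasDerivAt t (hline t)
    have h3 : (fun s : ℝ => ‖m + s • (w - v)‖) =ᶠ[𝓝 t] fun _ => (1 : ℝ) := by
      have : ∀ᶠ s : ℝ in 𝓝 t, |s| < 1 / 2 := continuous_abs.continuousAt.eventually_lt_const ht
      filter_upwards [this] with s hs
      exact norm_line_eq_one hv hw hvw hs.le
    have h4 : HasDerivAt (fun s : ℝ => ‖m + s • (w - v)‖) 0 t :=
      (hasDerivAt_const t (1 : ℝ)).congr_of_eventuallyEq h3
    exact h2.unique h4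
  have h2 : HasDerivAt (fun t : ℝ => N1 X (m + t • (w - v)) (w - v)) (N2 X m (w - v) (w - v)) 0 := by
    have hd : HasFDerivAt (N1 X) (N2 X m) (m + (0 : ℝ) • (w - v)) := by
      simpa using (hN1.differentiableAt (by norm_num)).hasFDerivAt
    have h3 := hd.comp_hasDerivAt 0 (hline 0)
    exact (((ContinuousLinearMap.apply ℝ ℝ (w - v)).hasFDerivAt).comp_hasDerivAt 0 h3)
  have h3 : HasDerivAt (fun t : ℝ => N1 X (m + t • (w - v)) (w - v)) 0 0 :=
    (hasDerivAt_const (0 : ℝ) (0 : ℝ)).congr_of_eventuallyEq (hev.mono fun t ht => h1 t ht)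
  have h4 : N2 X m (w - v) (w - v) = 0 := h2.unique h3
  have h5 : w - v ∈ Submodule.span ℝ {m} := by
    by_contra hmem
    exact (hX.pos m hm0 _ hmem).ne' h4
  rw [Submodule.mem_span_singleton] at h5
  obtain ⟨c, hc⟩ := h5
  have h6 : (1 + c / 2) • v = (1 - c / 2) • w := by
    have h7 : w - v = (c / 2) • (v + w) := by rw [← hc, hm]; module
    have h8 : w - v - (c / 2) • (v + w) = 0 := by rw [h7]; simp
    have h9 : (1 - c / 2) • w - (1 + c / 2) • v = 0 := by rw [← h8]; module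
    exact (sub_eq_zero.1 h9).symm
  have h7 : |1 + c / 2| = |1 - c / 2| := by
    have := congrArg norm h6
    rwa [norm_smul, norm_smul, hv, hw, mul_one, mul_one] at this
  have h8 : c = 0 := by
    have := congrArg (· ^ 2) h7
    simp only [sq_abs] at this
    nlinarith
  rw [h8, zero_smul] at hc
  exact hne (sub_eq_zero.1 hc.symm).symm

end Vale.Agent.H11.TS
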