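import Vale.Agent.H11.TS.DefsB

namespace Vale.Agent.H11.TS

open Filter Topology Metric

namespace H22B3

variable {X Y : Type*} [NormedAddCommGroup X] [NormedSpace ℝ X]
    [NormedAddCommGroup Y] [NormedSpace ℝ Y]

/-- The functionals on `Y` which are derivatives at `y0` of functions `ψ` which are `C^k` at `y0`
and whose composition with `g` is `C^k` at `x`. -/
def testSpace (k : ℕ) (hk : 1 ≤ k) (g : X → Y) (x : X) (y0 : Y) :
    Submodule ℝ (Module.Dual ℝ Y) where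
  carrier := {l | ∃ ψ : Y → ℝ, ContDiffAt ℝ k ψ y0 ∧ (∀ v, fderiv ℝ ψ y0 v = l v) ∧
    ContDiffAt ℝ k (fun z => ψ (g z)) x}
  add_mem' := by
    rintro l1 l2 ⟨ψ1, h1, h2, h3⟩ ⟨ψ2, h4, h5, h6⟩
    refine ⟨fun y => ψ1 y + ψ2 y, h1.add h4, fun v => ?_, h3.add h6⟩
    have hk' : (k : WithTop ℕ∞) ≠ 0 := by
      exact_mod_cast Nat.one_le_iff_ne_zero.mp hk
    rw [fderiv_fun_add (h1.differentiableAt hk') (h4.differentiableAt hk')]
    simp [h2 v, h5 v]
  zero_mem' := by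
    refine ⟨fun _ => 0, contDiffAt_const, fun v => by simp, contDiffAt_const⟩
  smul_mem' := by
    rintro c l ⟨ψ, h1, h2, h3⟩
    refine ⟨fun y => c * ψ y, contDiffAt_const.mul h1, fun v => ?_, contDiffAt_const.mul h3⟩
    have hk' : (k : WithTop ℕ∞) ≠ 0 := by
      exact_mod_cast Nat.one_le_iff_ne_zero.mp hk
    rw [fderiv_const_mul (h1.differentiableAt hk')]
    simp [h2 v]

/-- If the test space is everything and `g` is continuous at `x`, then `g` is `C^k` at `x`. -/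
theorem contDiffAt_of_testSpace [FiniteDimensional ℝ Y] {k : ℕ} (hk : 1 ≤ k) {g : X → Y} {x : X}
    (hg : ContinuousAt g x) (hS : testSpace k hk g x (g x) = ⊤) : ContDiffAt ℝ k g x := by
  have hk' : (k : WithTop ℕ∞) ≠ 0 := by
    exact_mod_cast Nat.one_le_iff_ne_zero.mp hk
  let b := Module.finBasis ℝ Y
  have hc : ∀ i, ∃ ψ : Y → ℝ, ContDiffAt ℝ k ψ (g x) ∧ (∀ v, fderiv ℝ ψ (g x) v = b.coord i v) ∧
      ContDiffAt ℝ k (fun z => ψ (g z)) x := by
    intro i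
    have : b.coord i ∈ testSpace k hk g x (g x) := by rw [hS]; trivial
    exact this
  choose ψ h1 h2 h3 using hc
  let Ψ : Y → Y := fun y => ∑ i, ψ i y • b i
  have hΨ : ContDiffAt ℝ k Ψ (g x) :=
    ContDiffAt.sum fun i _ => (h1 i).smul contDiffAt_const
  have hΨg : ContDiffAt ℝ k (fun z => Ψ (g z)) x :=
    ContDiffAt.sum fun i _ => (h3 i).smul contDiffAt_const
  have hd : HasFDerivAt Ψ ((ContinuousLinearEquiv.refl ℝ Y : Y ≃L[ℝ] Y) : Y →L[ℝ] Y) (g x) := by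
    have h4 : HasFDerivAt Ψ (∑ i, (fderiv ℝ (ψ i) (g x)).smulRight (b i)) (g x) := by
      apply HasFDerivAt.fun_sum
      intro i _
      exact ((h1 i).differentiableAt hk').hasFDerivAt.smul_const (b i)
    convert h4 using 1
    ext v
    simp only [ContinuousLinearEquiv.coe_refl, ContinuousLinearMap.coe_id', id_eq,
      FunLike.coe_sum, Finset.sum_apply, ContinuousLinearMap.smulRight_apply, h2]
    exact (b.sum_repr v).symm
  have h5 : ContDiffAt ℝ k (hΨ.localInverse hd hk') (Ψ (g x)) := hΨ.to_localInverse hd hk'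
  have h6 : ContDiffAt ℝ k (fun z => hΨ.localInverse hd hk' (Ψ (g z))) x :=
    ContDiffAt.comp x h5 hΨg
  refine h6.congr_of_eventuallyEq ?_
  have h7 : ∀ᶠ y in 𝓝 (g x), hΨ.localInverse hd hk' (Ψ y) = y :=
    (hΨ.hasStrictFDerivAt' hd hk').eventually_left_inverse
  filter_upwards [hg.eventually h7] with z hz using hz.symm

variable {Φ : X → Y}

theorem norm_pi {z : X} (hz : z ≠ 0) : ‖‖z‖⁻¹ • z‖ = 1 := by
  rw [norm_smul, norm_inv, norm_norm, inv_mul_cancel₀ (norm_ne_zero_iff.mpr hz)]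

theorem g_continuousAt (hΦ : SphMap Φ) {x : X} (hx : x ≠ 0) :
    ContinuousAt (fun z : X => Φ (‖z‖⁻¹ • z)) x := by
  have hπ : ContinuousAt (fun z : X => ‖z‖⁻¹ • z) x :=
    (continuous_norm.continuousAt.inv₀ (norm_ne_zero_iff.mpr hx)).smul continuousAt_id
  rw [Metric.continuousAt_iff] at hπ ⊢
  intro ε hε
  obtain ⟨δ, hδ, h⟩ := hπ ε hε
  refine ⟨min δ ‖x‖, lt_min hδ (norm_pos_iff.mpr hx), fun z hz => ?_⟩
  have hz0 : z ≠ 0 := by
    rintro rfl
    have := lt_of_lt_of_le hz (min_le_right _ _)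
    rw [dist_zero_left] at this
    exact lt_irrefl _ this
  rw [dist_eq_norm, hΦ.iso _ _ (norm_pi hz0) (norm_pi hx), ← dist_eq_norm]
  exact h (lt_of_lt_of_le hz (min_le_left _ _))

theorem g_norm (hΦ : SphMap Φ) {z : X} (hz : z ≠ 0) : ‖Φ (‖z‖⁻¹ • z)‖ = 1 := by
  rw [hΦ.norm, norm_pi hz]

theorem testSpace_eq_top [FiniteDimensional ℝ Y] {k : ℕ} (hk : 1 ≤ k)
    (hX : ∀ x : X, x ≠ 0 → ContDiffAt ℝ k (fun y : X => ‖y‖) x)
    (hY : ∀ y : Y, y ≠ 0 → ContDiffAt ℝ k (fun y : Y => ‖y‖) y)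
    (hΦ : SphMap Φ) {x : X} (hx : x ≠ 0) :
    testSpace k hk (fun z : X => Φ (‖z‖⁻¹ • z)) x (Φ (‖x‖⁻¹ • x)) = ⊤ := by
  have hk' : (k : WithTop ℕ∞) ≠ 0 := by
    exact_mod_cast Nat.one_le_iff_ne_zero.mp hk
  set g : X → Y := fun z => Φ (‖z‖⁻¹ • z) with hg
  set y0 : Y := Φ (‖x‖⁻¹ • x) with hy0
  have hy1 : ‖y0‖ = 1 := g_norm hΦ hx
  have hy00 : y0 ≠ 0 := by
    intro h
    rw [h, norm_zero] at hy1
    exact zero_ne_one hy1
  have hnorm : ∀ y : Y, y ≠ 0 → DifferentiableAt ℝ (fun y : Y => ‖y‖) y :=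
    fun y hy => (hY y hy).differentiableAt hk'
  -- first family
  have hm0 : ((N1 Y y0 : Y →L[ℝ] ℝ) : Y →ₗ[ℝ] ℝ) ∈ testSpace k hk g x y0 := by
    refine ⟨fun y => ‖y‖, hY y0 hy00, fun v => rfl, ?_⟩
    have : (fun z => ‖g z‖) =ᶠ[𝓝 x] fun _ => (1 : ℝ) := by
      filter_upwards [isOpen_ne.mem_nhds hx] with z hz
      exact g_norm hΦ hz
    exact contDiffAt_const.congr_of_eventuallyEq this
  -- second family
  have hm1 : ∀ q : Y, ‖q‖ = 1 → q ≠ y0 →
      ((N1 Y (y0 - q) : Y →L[ℝ] ℝ) : Y →ₗ[ℝ] ℝ) ∈ testSpace k hk g x y0 := by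
    intro q hq hqy
    have hqy' : y0 - q ≠ 0 := sub_ne_zero.mpr (Ne.symm hqy)
    obtain ⟨p, rfl⟩ := hΦ.surj q
    have hp : ‖p‖ = 1 := by rw [← hΦ.norm p, hq]
    refine ⟨fun y => ‖y - Φ p‖, ?_, fun v => ?_, ?_⟩
    · exact ContDiffAt.comp y0 (g := fun y : Y => ‖y‖) (hY _ hqy')
        (contDiffAt_id.sub contDiffAt_const)
    · have h1 : HasFDerivAt (fun y => ‖y - Φ p‖) (N1 Y (y0 - Φ p)) y0 := by
        have h2 := (hnorm _ hqy').hasFDerivAt.comp y0 ((hasFDerivAt_id y0).sub_const (Φ p))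
        rw [ContinuousLinearMap.comp_id] at h2
        exact h2
      rw [h1.fderiv]
      rfl
    · have h1 : (fun z => ‖g z - Φ p‖) =ᶠ[𝓝 x] fun z => ‖‖z‖⁻¹ • z - p‖ := by
        filter_upwards [isOpen_ne.mem_nhds hx] with z hz
        exact hΦ.iso _ _ (norm_pi hz) hp
      have h2 : ‖x‖⁻¹ • x - p ≠ 0 := by
        intro h
        apply hqy
        rw [hy0, sub_eq_zero.mp h]
      have h3 : ContDiffAt ℝ k (fun z : X => ‖z‖⁻¹ • z - p) x :=
        (((hX x hx).inv (norm_ne_zero_iff.mpr hx)).smul contDiffAt_id).sub contDiffAt_const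
      exact (ContDiffAt.comp x (g := fun y : X => ‖y‖) (hX _ h2) h3).congr_of_eventuallyEq h1
  -- separation of points
  have hsep : (testSpace k hk g x y0).dualCoannihilator = ⊥ := by
    rw [eq_bot_iff]
    intro w hw
    rw [Submodule.mem_dualCoannihilator] at hw
    rw [Submodule.mem_bot]
    by_contra hw0
    have hw1 : N1 Y y0 w = 0 := hw _ hm0
    have hw2 : ∀ q : Y, ‖q‖ = 1 → q ≠ y0 → N1 Y (y0 - q) w = 0 := fun q h1 h2 => hw _ (hm1 q h1 h2)
    -- the curve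
    let q : ℝ → Y := fun s => ‖y0 + s • w‖⁻¹ • (y0 + s • w)
    have hr : HasDerivAt (fun s : ℝ => y0 + s • w) w 0 := by
      simpa using ((hasDerivAt_id (0 : ℝ)).smul_const w).const_add y0
    have hnd : HasDerivAt (fun s : ℝ => ‖y0 + s • w‖) (N1 Y y0 w) 0 := by
      have h1 : HasFDerivAt (fun y : Y => ‖y‖) (N1 Y y0) (y0 + (0 : ℝ) • w) := by
        rw [zero_smul, add_zero]
        exact (hnorm _ hy00).hasFDerivAt
      exact h1.comp_hasDerivAt (0 : ℝ) hr
    rw [hw1] at hnd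
    have hqd : HasDerivAt q w 0 := by
      have h1 : ‖y0 + (0 : ℝ) • w‖ ≠ 0 := by
        rw [zero_smul, add_zero, hy1]; exact one_ne_zero
      have h2 := (hnd.fun_inv h1).fun_smul hr
      simp only [zero_smul, add_zero, hy1, neg_zero, zero_div, inv_one, one_smul] at h2
      exact h2
    have hq0 : q 0 = y0 := by simp [q, hy1]
    have hlim : Tendsto (fun s : ℝ => s⁻¹ • (y0 - q s)) (𝓝[>] 0) (𝓝 (-w)) := by
      have h1 := hasDerivAt_iff_tendsto_slope.mp hqd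
      have h2 : Tendsto (slope q 0) (𝓝[>] 0) (𝓝 w) :=
        h1.mono_left (nhdsWithin_mono _ (fun s hs => ne_of_gt hs))
      refine h2.neg.congr fun s => ?_
      rw [slope_def_module, hq0, sub_zero, ← smul_neg, neg_sub]
    have hcont : ContinuousAt (N1 Y) (-w) := by
      have h1 : ContDiffAt ℝ 1 (fun y : Y => ‖y‖) (-w) :=
        (hY _ (neg_ne_zero.mpr hw0)).of_le (by exact_mod_cast hk)
      exact (h1.fderiv_right (m := 0) (by norm_num)).continuousAt
    have hlim2 : Tendsto (fun s : ℝ => N1 Y (s⁻¹ • (y0 - q s)) w) (𝓝[>] 0) (𝓝 (N1 Y (-w) w)) := by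
      have h1 : Tendsto (fun s : ℝ => N1 Y (s⁻¹ • (y0 - q s))) (𝓝[>] 0) (𝓝 (N1 Y (-w))) :=
        hcont.tendsto.comp hlim
      exact ((ContinuousLinearMap.apply ℝ ℝ w).continuous.tendsto _).comp h1
    have hzero : ∀ᶠ s : ℝ in 𝓝[>] 0, N1 Y (s⁻¹ • (y0 - q s)) w = 0 := by
      have h1 : ∀ᶠ s : ℝ in 𝓝[>] 0, y0 + s • w ≠ 0 := by
        have h2 : ContinuousAt (fun s : ℝ => y0 + s • w) 0 := hr.continuousAt
        have h3 : ∀ᶠ s : ℝ in 𝓝 0, y0 + s • w ≠ 0 := by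
          apply h2.eventually_ne
          simpa using hy00
        exact h3.filter_mono nhdsWithin_le_nhds
      filter_upwards [h1, self_mem_nhdsWithin] with s hs hs0
      have hs0' : (0 : ℝ) < s := hs0
      rw [N1, fderiv_norm_smul_pos (inv_pos.mpr hs0')]
      apply hw2
      · simp only [q]
        rw [norm_smul, norm_inv, norm_norm, inv_mul_cancel₀ (norm_ne_zero_iff.mpr hs)]
      · intro h
        simp only [q] at h
        -- y0 + s w = c y0
        have h2 : y0 + s • w = ‖y0 + s • w‖ • y0 := by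
          have h2a := congrArg (fun y => ‖y0 + s • w‖ • y) h
          simp only [smul_smul, mul_inv_cancel₀ (norm_ne_zero_iff.mpr hs), one_smul] at h2a
          exact h2a
        have h3 : N1 Y y0 (y0 + s • w) = N1 Y y0 (‖y0 + s • w‖ • y0) := congrArg _ h2
        have h4 : N1 Y y0 y0 = 1 := by
          rw [N1, (hnorm _ hy00).fderiv_norm_self, hy1]
        rw [map_add, map_smul, map_smul, hw1, h4] at h3
        simp only [smul_eq_mul, mul_zero, add_zero, mul_one] at h3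
        rw [← h3, one_smul] at h2
        have h5 : s • w = 0 := by simpa using h2
        rcases smul_eq_zero.mp h5 with h6 | h6
        · exact hs0'.ne' h6
        · exact hw0 h6
    have hfin : N1 Y (-w) w = 0 := by
      refine tendsto_nhds_unique (hlim2.congr' hzero) tendsto_const_nhds
    have h9 : N1 Y (-w) (-w) = ‖-w‖ := by
      rw [N1, (hnorm _ (neg_ne_zero.mpr hw0)).fderiv_norm_self]
    rw [map_neg, hfin, neg_zero, norm_neg] at h9
    exact hw0 (norm_eq_zero.mp h9.symm)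
  rw [← Subspace.dualCoannihilator_dualAnnihilator_eq (W := testSpace k hk g x y0), hsep,
    Submodule.dualAnnihilator_bot]

end H22B3

variable {X Y : Type*} [NormedAddCommGroup X] [NormedSpace ℝ X]
    [NormedAddCommGroup Y] [NormedSpace ℝ Y]

theorem SphMap.contDiffAt [FiniteDimensional ℝ Y] {k : ℕ} (hk : 1 ≤ k)
    (hX : ∀ x : X, x ≠ 0 → ContDiffAt ℝ k (fun y : X => ‖y‖) x)
    (hY : ∀ y : Y, y ≠ 0 → ContDiffAt ℝ k (fun y : Y => ‖y‖) y)
    {Φ : X → Y} (hΦ : SphMap Φ) {x : X} (hx : x ≠ 0) : ContDiffAt ℝ k Φ x := by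
  have hg : ContDiffAt ℝ k (fun z : X => Φ (‖z‖⁻¹ • z)) x :=
    H22B3.contDiffAt_of_testSpace hk (H22B3.g_continuousAt hΦ hx)
      (H22B3.testSpace_eq_top hk hX hY hΦ hx)
  refine ((hX x hx).smul hg).congr_of_eventuallyEq ?_
  filter_upwards [isOpen_ne.mem_nhds hx] with z hz
  have h1 : z = ‖z‖ • (‖z‖⁻¹ • z) := by
    rw [smul_smul, mul_inv_cancel₀ (norm_ne_zero_iff.mpr hz), one_smul]
  conv_lhs => rw [h1]
  rw [hΦ.smul _ (norm_nonneg z)]
  rfl

end Vale.Agent.H11.TS
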