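import Vale.Agent.H11.TS.B2

namespace Vale.Agent.H11.TS

open Filter Topology Metric
open scoped RealInnerProductSpace

variable {X Y : Type*} [NormedAddCommGroup X] [NormedSpace ℝ X]
    [NormedAddCommGroup Y] [NormedSpace ℝ Y]

theorem SphMap.norm_sub_norm {Φ : X → Y} (hΦ : SphMap Φ) {x z : X} (hx : x ≠ 0) (hz : z ≠ 0) :
    ‖‖x‖⁻¹ • Φ x - ‖z‖⁻¹ • Φ z‖ = ‖‖x‖⁻¹ • x - ‖z‖⁻¹ • z‖ := by
  rw [← hΦ.smul _ (by positivity), ← hΦ.smul _ (by positivity)]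
  exact hΦ.iso _ _ (norm_smul_inv_norm (𝕜 := ℝ) hx) (norm_smul_inv_norm (𝕜 := ℝ) hz)

theorem norm_deriv_eq {V W : Type*} [NormedAddCommGroup V] [NormedSpace ℝ V]
    [NormedAddCommGroup W] [NormedSpace ℝ W] {f : ℝ → V} {g : ℝ → W} {f' : V} {g' : W}
    (hf : HasDerivAt f f' 0) (hg : HasDerivAt g g' 0)
    (h : ∀ᶠ t in 𝓝 (0 : ℝ), ‖f t - f 0‖ = ‖g t - g 0‖) : ‖f'‖ = ‖g'‖ := by
  have h1 := (hasDerivAt_iff_tendsto_slope.1 hf).norm
  have h2 := (hasDerivAt_iff_tendsto_slope.1 hg).norm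
  refine tendsto_nhds_unique h1 (h2.congr' ?_)
  filter_upwards [h.filter_mono nhdsWithin_le_nhds] with t ht
  rw [slope_def_module, slope_def_module, norm_smul, norm_smul, ht]

/-- derivative of `‖z‖⁻¹ • F z` along a line -/
theorem hasDerivAt_inv_norm_smul {F : X → Y} {x : X} (hx : x ≠ 0)
    (hN : DifferentiableAt ℝ (fun y : X => ‖y‖) x) {F' : X →L[ℝ] Y} (hF : HasFDerivAt F F' x)
    (v : X) :
    HasDerivAt (fun t : ℝ => ‖x + t • v‖⁻¹ • F (x + t • v))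
      (‖x‖⁻¹ • (F' v - (N1 X x v / ‖x‖) • F x)) 0 := by
  have hline : HasDerivAt (fun t : ℝ => x + t • v) v 0 := by
    have := ((hasDerivAt_id (0 : ℝ)).smul_const v).const_add x
    simpa using this
  have h1 : HasDerivAt (fun t : ℝ => ‖x + t • v‖) (N1 X x v) 0 := by
    have : HasFDerivAt (fun y : X => ‖y‖) (N1 X x) (x + (0 : ℝ) • v) := by
      simpa using hN.hasFDerivAt
    exact this.comp_hasDerivAt 0 hline
  have h2 : HasDerivAt (fun t : ℝ => F (x + t • v)) (F' v) 0 := by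
    have : HasFDerivAt F F' (x + (0 : ℝ) • v) := by simpa using hF
    exact this.comp_hasDerivAt 0 hline
  have hx' : ‖x‖ ≠ 0 := norm_ne_zero_iff.2 hx
  have h3 := (h1.inv (by simpa using hx')).smul h2
  refine h3.congr_deriv ?_
  show ‖x + (0 : ℝ) • v‖⁻¹ • F' v + (-(N1 X x) v / ‖x + (0 : ℝ) • v‖ ^ 2) • F (x + (0 : ℝ) • v) = _
  simp only [zero_smul, add_zero, smul_sub, smul_smul]
  rw [sub_eq_add_neg, ← neg_smul]
  congr 2
  field_simp

theorem SphMap.norm_fderiv {Φ : X → Y} (hΦ : SphMap Φ) {x : X} (hx : x ≠ 0)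
    (hN : DifferentiableAt ℝ (fun y : X => ‖y‖) x) (hd : DifferentiableAt ℝ Φ x) (v : X) :
    ‖fderiv ℝ Φ x v - (N1 X x v / ‖x‖) • Φ x‖ = ‖v - (N1 X x v / ‖x‖) • x‖ := by
  have h1 := hasDerivAt_inv_norm_smul hx hN hd.hasFDerivAt v
  have h2 := hasDerivAt_inv_norm_smul (F := fun y : X => y) hx hN (hasFDerivAt_id x) v
  have hx' : 0 < ‖x‖ := norm_pos_iff.2 hx
  have hne : ∀ᶠ t : ℝ in 𝓝 0, x + t • v ≠ 0 := by
    have hc : ContinuousAt (fun t : ℝ => x + t • v) 0 := by fun_prop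
    apply hc.eventually_ne
    simpa using hx
  have h3 := norm_deriv_eq h1 h2 (by
    filter_upwards [hne] with t ht
    have := hΦ.norm_sub_norm ht hx
    simpa using this)
  rw [norm_smul, norm_smul] at h3
  have h4 := mul_left_cancel₀ (norm_ne_zero_iff.2 (inv_ne_zero hx'.ne') : ‖‖x‖⁻¹‖ ≠ 0) h3
  simpa using h4

theorem SphMap.fderiv_self {Φ : X → Y} (hΦ : SphMap Φ) {x : X}
    (hd : DifferentiableAt ℝ Φ x) : fderiv ℝ Φ x x = Φ x := by
  have h3 : HasDerivAt (fun s : ℝ => (1 + s) • x) x 0 := by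
    have := ((hasDerivAt_id (0 : ℝ)).const_add 1).smul_const x
    simpa using this
  have h4 : HasDerivAt (fun s : ℝ => Φ ((1 + s) • x)) (fderiv ℝ Φ x x) 0 := by
    have h5 : HasFDerivAt Φ (fderiv ℝ Φ x) ((1 + (0:ℝ)) • x) := by simpa using hd.hasFDerivAt
    exact h5.comp_hasDerivAt (0 : ℝ) h3
  have h6 : (fun s : ℝ => Φ ((1 + s) • x)) =ᶠ[𝓝 0] fun s => (1 + s) • Φ x := by
    have : ∀ᶠ s : ℝ in 𝓝 0, -1 < s := lt_mem_nhds (by norm_num)
    filter_upwards [this] with s hs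
    exact hΦ.smul _ (by linarith) x
  have h7 : HasDerivAt (fun s : ℝ => (1 + s) • Φ x) (Φ x) 0 := by
    have := ((hasDerivAt_id (0 : ℝ)).const_add 1).smul_const (Φ x)
    simpa using this
  exact h4.unique (h7.congr_of_eventuallyEq h6)

theorem SphMap.norming_fderiv {Φ : X → Y} (hΦ : SphMap Φ) {x : X}
    (hN : DifferentiableAt ℝ (fun y : X => ‖y‖) x) (hd : DifferentiableAt ℝ Φ x)
    (φ : Y →L[ℝ] ℝ) (hφ : ∀ y, φ y ≤ ‖y‖) (hφx : φ (Φ x) = ‖Φ x‖) (v : X) :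
    φ (fderiv ℝ Φ x v) = N1 X x v := by
  have h1 : IsLocalMin (fun z : X => ‖z‖ - φ (Φ z)) x := by
    refine Filter.Eventually.of_forall fun z => ?_
    have h2 := hφ (Φ z)
    rw [hΦ.norm] at h2
    simp only [hφx, hΦ.norm, sub_self]
    linarith
  have h3 : HasFDerivAt (fun z : X => ‖z‖ - φ (Φ z)) (N1 X x - φ ∘L fderiv ℝ Φ x) x :=
    hN.hasFDerivAt.sub (φ.hasFDerivAt.comp x hd.hasFDerivAt)
  have h4 := h1.hasFDerivAt_eq_zero h3
  have h5 := DFunLike.congr_fun h4 v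
  have h6 : N1 X x v - φ (fderiv ℝ Φ x v) = 0 := h5
  linarith

theorem SphMap.fderiv2_self {Φ : X → Y} (hΦ : SphMap Φ) {x : X}
    (hs : ContDiffAt ℝ 2 Φ x) : fderiv ℝ (fderiv ℝ Φ) x x = 0 := by
  have h0 : ∀ s : ℝ, 0 < s → fderiv ℝ Φ (s • x) = fderiv ℝ Φ x := by
    intro s hs
    have h1 : (fun y : X => Φ (s • y)) = s • Φ := by
      funext y; exact hΦ.smul s hs.le y
    have h2 := fderiv_comp_smul (𝕜 := ℝ) (f := Φ) (x := x) s
    rw [h1] at h2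
    rw [fderiv_const_smul_field] at h2
    exact (smul_right_injective _ hs.ne' h2).symm
  have h2 : HasFDerivAt (fderiv ℝ Φ) (fderiv ℝ (fderiv ℝ Φ) x) x :=
    ((hs.fderiv_right (m := 1) (by norm_num)).differentiableAt (by norm_num)).hasFDerivAt
  have h3 : HasDerivAt (fun s : ℝ => (1 + s) • x) x 0 := by
    have := ((hasDerivAt_id (0 : ℝ)).const_add 1).smul_const x
    simpa using this
  have h4 : HasDerivAt (fun s : ℝ => fderiv ℝ Φ ((1 + s) • x)) (fderiv ℝ (fderiv ℝ Φ) x x) 0 := by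
    have h5 : HasFDerivAt (fderiv ℝ Φ) (fderiv ℝ (fderiv ℝ Φ) x) ((1 + (0:ℝ)) • x) := by
      simpa using h2
    exact h5.comp_hasDerivAt (0 : ℝ) h3
  have h6 : (fun s : ℝ => fderiv ℝ Φ ((1 + s) • x)) =ᶠ[𝓝 0] fun _ => fderiv ℝ Φ x := by
    have : ∀ᶠ s : ℝ in 𝓝 0, -1 < s := lt_mem_nhds (by norm_num)
    filter_upwards [this] with s hs
    exact h0 _ (by linarith)
  have h7 : HasDerivAt (fun s : ℝ => fderiv ℝ Φ ((1 + s) • x)) 0 0 :=
    (hasDerivAt_const (0 : ℝ) _).congr_of_eventuallyEq h6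
  exact h4.unique h7

end Vale.Agent.H11.TS
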