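import Vale.Agent.H11.TS.B0
import Vale.Agent.H11.TS.B4a

namespace Vale.Agent.H11.TS

open Filter Topology Metric
open scoped RealInnerProductSpace

variable {X Y : Type*} [NormedAddCommGroup X] [NormedSpace ℝ X]
    [NormedAddCommGroup Y] [NormedSpace ℝ Y]

theorem exists_norming {y : Y} (hy : y ≠ 0) :
    ∃ φ : Y →L[ℝ] ℝ, (∀ z, φ z ≤ ‖z‖) ∧ φ y = ‖y‖ := by
  obtain ⟨φ, h1, h2⟩ := exists_dual_vector ℝ y (norm_ne_zero_iff.2 hy)
  refine ⟨φ, fun z => ?_, by simpa using h2⟩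
  calc φ z ≤ |φ z| := le_abs_self _
    _ = ‖φ z‖ := rfl
    _ ≤ ‖φ‖ * ‖z‖ := φ.le_opNorm z
    _ = ‖z‖ := by rw [h1, one_mul]

theorem SphMap.ne_zero {Φ : X → Y} (hΦ : SphMap Φ) {x : X} (hx : x ≠ 0) : Φ x ≠ 0 := by
  rw [← norm_ne_zero_iff, hΦ.norm]; exact norm_ne_zero_iff.2 hx

theorem SphMap.fderiv_injective {Φ : X → Y} (hΦ : SphMap Φ) {x : X} (hx : x ≠ 0)
    (hN : DifferentiableAt ℝ (fun y : X => ‖y‖) x) (hd : DifferentiableAt ℝ Φ x) :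
    Function.Injective (fderiv ℝ Φ x) := by
  rw [injective_iff_map_eq_zero]
  intro v hv
  obtain ⟨φ, hφ, hφx⟩ := exists_norming (hΦ.ne_zero hx)
  have h1 := hΦ.norming_fderiv hN hd φ hφ hφx v
  rw [hv, _root_.map_zero] at h1
  have h2 := hΦ.norm_fderiv hx hN hd v
  rw [hv, ← h1] at h2
  simp only [zero_div, zero_smul, sub_zero, norm_zero] at h2
  exact norm_eq_zero.1 h2.symm

theorem SphMap.fderiv_bijective [FiniteDimensional ℝ X] [FiniteDimensional ℝ Y]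
    {Φ : X → Y} (hΦ : SphMap Φ) {x : X} (hx : x ≠ 0)
    (hN : DifferentiableAt ℝ (fun y : X => ‖y‖) x) (hd : DifferentiableAt ℝ Φ x) :
    Function.Bijective (fderiv ℝ Φ x) := by
  have h1 := hΦ.fderiv_injective hx hN hd
  refine ⟨h1, ?_⟩
  exact (LinearMap.injective_iff_surjective_of_finrank_eq_finrank
    (f := (fderiv ℝ Φ x : X →ₗ[ℝ] Y)) hΦ.finrank_eq.symm).1 h1

/-- all the smoothness that is used in rows B4 -/
structure Smooth3 (Φ : X → Y) : Prop where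
  nX : ∀ x : X, x ≠ 0 → ContDiffAt ℝ 3 (fun y : X => ‖y‖) x
  nY : ∀ y : Y, y ≠ 0 → ContDiffAt ℝ 3 (fun y : Y => ‖y‖) y
  map : ∀ x : X, x ≠ 0 → ContDiffAt ℝ 3 Φ x

theorem hasDerivAt_line (x v : X) (t : ℝ) : HasDerivAt (fun t : ℝ => x + t • v) v t := by
  have := ((hasDerivAt_id t).smul_const v).const_add x
  simpa using this

theorem sphMap_id : SphMap (fun x : X => x) :=
  ⟨fun _ _ _ => rfl, fun _ => rfl, fun _ _ _ _ => rfl, fun x => ⟨x, rfl⟩⟩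

/-- symmetrised isometry identity -/
theorem SphMap.norm_add_eq {Φ : X → Y} (hΦ : SphMap Φ) (hneg : ∀ x, Φ (-x) = -Φ x)
    {x z : X} (hx : x ≠ 0) (hz : z ≠ 0) :
    ‖‖z‖ • Φ x + ‖x‖ • Φ z‖ = ‖‖z‖ • x + ‖x‖ • z‖ := by
  have h1 := hΦ.norm_sub_norm hx (neg_ne_zero.2 hz)
  rw [hneg, norm_neg, smul_neg, smul_neg, sub_neg_eq_add, sub_neg_eq_add] at h1
  have hx' : ‖x‖ ≠ 0 := norm_ne_zero_iff.2 hx
  have hz' : ‖z‖ ≠ 0 := norm_ne_zero_iff.2 hz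
  have h4 : ‖x‖ * ‖z‖ * ‖x‖⁻¹ = ‖z‖ := by field_simp
  have h5 : ‖x‖ * ‖z‖ * ‖z‖⁻¹ = ‖x‖ := by field_simp
  have e1 : ‖z‖ • Φ x + ‖x‖ • Φ z = (‖x‖ * ‖z‖) • (‖x‖⁻¹ • Φ x + ‖z‖⁻¹ • Φ z) := by
    rw [smul_add, smul_smul, smul_smul, h4, h5]
  have e2 : ‖z‖ • x + ‖x‖ • z = (‖x‖ * ‖z‖) • (‖x‖⁻¹ • x + ‖z‖⁻¹ • z) := by
    rw [smul_add, smul_smul, smul_smul, h4, h5]
  rw [e1, e2, norm_smul, norm_smul, h1]

/-- first derivative of the symmetrised expression -/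
theorem SphMap.hasDerivAt_first {Θ : X → Y} {x z : X}
    (hN : DifferentiableAt ℝ (fun y : X => ‖y‖) x) (hd : DifferentiableAt ℝ Θ x)
    (hY : DifferentiableAt ℝ (fun y : Y => ‖y‖) (‖z‖ • Θ x + ‖x‖ • Θ z)) (u : X) :
    HasDerivAt (fun t : ℝ => ‖‖z‖ • Θ (x + t • u) + ‖x + t • u‖ • Θ z‖)
      (N1 Y (‖z‖ • Θ x + ‖x‖ • Θ z) (‖z‖ • fderiv ℝ Θ x u + N1 X x u • Θ z)) 0 := by
  have h1 : HasDerivAt (fun t : ℝ => Θ (x + t • u)) (fderiv ℝ Θ x u) 0 := by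
    have : HasFDerivAt Θ (fderiv ℝ Θ x) (x + (0 : ℝ) • u) := by simpa using hd.hasFDerivAt
    exact this.comp_hasDerivAt 0 (hasDerivAt_line x u 0)
  have h2 : HasDerivAt (fun t : ℝ => ‖x + t • u‖) (N1 X x u) 0 := by
    have : HasFDerivAt (fun y : X => ‖y‖) (N1 X x) (x + (0 : ℝ) • u) := by
      simpa using hN.hasFDerivAt
    exact this.comp_hasDerivAt 0 (hasDerivAt_line x u 0)
  have h3 : HasDerivAt (fun t : ℝ => ‖z‖ • Θ (x + t • u) + ‖x + t • u‖ • Θ z)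
      (‖z‖ • fderiv ℝ Θ x u + N1 X x u • Θ z) 0 := (h1.const_smul ‖z‖).add (h2.smul_const (Θ z))
  have h4 : HasFDerivAt (fun y : Y => ‖y‖) (N1 Y (‖z‖ • Θ x + ‖x‖ • Θ z))
      (‖z‖ • Θ (x + (0 : ℝ) • u) + ‖x + (0 : ℝ) • u‖ • Θ z) := by simpa using hY.hasFDerivAt
  exact h4.comp_hasDerivAt 0 h3

/-- second derivative of the symmetrised expression -/
theorem SphMap.hasDerivAt_second {Θ : X → Y} (hΘ : SphMap Θ) {x : X} (hx : x ≠ 0)
    (hN : DifferentiableAt ℝ (fun y : X => ‖y‖) x) (hd : DifferentiableAt ℝ Θ x)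
    (hY : ContDiffAt ℝ 2 (fun y : Y => ‖y‖) (Θ x)) (u w : X) :
    HasDerivAt (fun s : ℝ => N1 Y (‖x + s • w‖ • Θ x + ‖x‖ • Θ (x + s • w))
        (‖x + s • w‖ • fderiv ℝ Θ x u + N1 X x u • Θ (x + s • w)))
      (‖x‖ / 2 * N2 Y (Θ x) (fderiv ℝ Θ x w) (fderiv ℝ Θ x u) + 2 * (N1 X x w * N1 X x u)) 0 := by
  have hx' : 0 < ‖x‖ := norm_pos_iff.2 hx
  have hN1Y : DifferentiableAt ℝ (N1 Y) (Θ x) :=
    (hY.fderiv_right (m := 1) (by norm_num)).differentiableAt (by norm_num)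
  have h1 : HasDerivAt (fun t : ℝ => Θ (x + t • w)) (fderiv ℝ Θ x w) 0 := by
    have : HasFDerivAt Θ (fderiv ℝ Θ x) (x + (0 : ℝ) • w) := by simpa using hd.hasFDerivAt
    exact this.comp_hasDerivAt 0 (hasDerivAt_line x w 0)
  have h2 : HasDerivAt (fun t : ℝ => ‖x + t • w‖) (N1 X x w) 0 := by
    have : HasFDerivAt (fun y : X => ‖y‖) (N1 X x) (x + (0 : ℝ) • w) := by
      simpa using hN.hasFDerivAt
    exact this.comp_hasDerivAt 0 (hasDerivAt_line x w 0)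
  have h3 : HasDerivAt (fun s : ℝ => ‖x + s • w‖ • Θ x + ‖x‖ • Θ (x + s • w))
      (N1 X x w • Θ x + ‖x‖ • fderiv ℝ Θ x w) 0 := (h2.smul_const _).add (h1.const_smul _)
  have h4 : HasDerivAt (fun s : ℝ => ‖x + s • w‖ • fderiv ℝ Θ x u + N1 X x u • Θ (x + s • w))
      (N1 X x w • fderiv ℝ Θ x u + N1 X x u • fderiv ℝ Θ x w) 0 :=
    (h2.smul_const _).add (h1.const_smul _)
  have h5 : N2 Y ((2 * ‖x‖) • Θ x) = (2 * ‖x‖)⁻¹ • N2 Y (Θ x) := N2_smul _ (by positivity)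
  have h5' : N1 Y ((2 * ‖x‖) • Θ x) = N1 Y (Θ x) := N1_smul _ (by positivity)
  have h6 : HasFDerivAt (N1 Y) ((2 * ‖x‖)⁻¹ • N2 Y (Θ x))
      (‖x + (0 : ℝ) • w‖ • Θ x + ‖x‖ • Θ (x + (0 : ℝ) • w)) := by
    have e1 : ‖x + (0 : ℝ) • w‖ • Θ x + ‖x‖ • Θ (x + (0 : ℝ) • w) = (2 * ‖x‖) • Θ x := by
      simp only [zero_smul, add_zero]; module
    rw [e1, ← h5]
    have e2 : (fun y : Y => N1 Y ((2 * ‖x‖)⁻¹ • y)) = N1 Y := by
      funext y; exact N1_smul y (by positivity)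
    have e3 : DifferentiableAt ℝ (N1 Y) ((2 * ‖x‖)⁻¹ • ((2 * ‖x‖) • Θ x)) := by
      rw [smul_smul, inv_mul_cancel₀ (by positivity), one_smul]; exact hN1Y
    have e4 : DifferentiableAt ℝ (fun y : Y => N1 Y ((2 * ‖x‖)⁻¹ • y)) ((2 * ‖x‖) • Θ x) :=
      e3.comp ((2 * ‖x‖) • Θ x) (by fun_prop)
    rw [e2] at e4
    exact e4.hasFDerivAt
  have h7 := h6.comp_hasDerivAt 0 h3
  have h8 := HasDerivAt.clm_apply h7 h4
  refine h8.congr_deriv ?_
  have hself : N2 Y (Θ x) (Θ x) = 0 := N2_self hY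
  have hself' : ∀ v, N2 Y (Θ x) v (Θ x) = 0 := fun v => by
    rw [N2_symm hY, hself]; rfl
  have hn : ∀ v, N1 Y (Θ x) (fderiv ℝ Θ x v) = N1 X x v := fun v =>
    hΘ.norming_fderiv hN hd _ (fun y => (le_abs_self _).trans (N1_le _ _))
      (N1_self (hY.differentiableAt (by norm_num))) v
  have e5 : ‖x + (0 : ℝ) • w‖ • Θ x + ‖x‖ • Θ (x + (0 : ℝ) • w) = (2 * ‖x‖) • Θ x := by
    simp only [zero_smul, add_zero]; module
  show ((2 * ‖x‖)⁻¹ • N2 Y (Θ x)) (N1 X x w • Θ x + ‖x‖ • fderiv ℝ Θ x w)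
      (‖x + (0 : ℝ) • w‖ • fderiv ℝ Θ x u + N1 X x u • Θ (x + (0 : ℝ) • w)) +
      N1 Y (‖x + (0 : ℝ) • w‖ • Θ x + ‖x‖ • Θ (x + (0 : ℝ) • w))
        (N1 X x w • fderiv ℝ Θ x u + N1 X x u • fderiv ℝ Θ x w) = _
  rw [e5, h5']
  have e6 : x + (0 : ℝ) • w = x := by simp
  rw [e6]
  have e7 : ((2 * ‖x‖)⁻¹ • N2 Y (Θ x)) (N1 X x w • Θ x + ‖x‖ • fderiv ℝ Θ x w)
      (‖x‖ • fderiv ℝ Θ x u + N1 X x u • Θ x) =
      (2 * ‖x‖)⁻¹ * (N2 Y (Θ x) (N1 X x w • Θ x + ‖x‖ • fderiv ℝ Θ x w)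
      (‖x‖ • fderiv ℝ Θ x u + N1 X x u • Θ x)) := rfl
  have e8 : N2 Y (Θ x) (N1 X x w • Θ x + ‖x‖ • fderiv ℝ Θ x w) =
      ‖x‖ • N2 Y (Θ x) (fderiv ℝ Θ x w) := by
    rw [map_add, map_smul, map_smul, hself, smul_zero, zero_add]
  have e9 : (‖x‖ • N2 Y (Θ x) (fderiv ℝ Θ x w)) (‖x‖ • fderiv ℝ Θ x u + N1 X x u • Θ x) =
      ‖x‖ * (‖x‖ * N2 Y (Θ x) (fderiv ℝ Θ x w) (fderiv ℝ Θ x u)) := by
    show ‖x‖ * (N2 Y (Θ x) (fderiv ℝ Θ x w)) (‖x‖ • fderiv ℝ Θ x u + N1 X x u • Θ x) = _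
    rw [map_add, map_smul, map_smul, hself', smul_zero, add_zero, smul_eq_mul]
  rw [e7, e8, e9, map_add, map_smul, map_smul, hn, hn, smul_eq_mul, smul_eq_mul]
  field_simp
  ring

theorem SphMap.N2_fderiv {Φ : X → Y} (hΦ : SphMap Φ) (hneg : ∀ x, Φ (-x) = -Φ x)
    (hs : Smooth3 Φ) {x : X} (hx : x ≠ 0) (u w : X) :
    N2 Y (Φ x) (fderiv ℝ Φ x u) (fderiv ℝ Φ x w) = N2 X x u w := by
  have hx' : 0 < ‖x‖ := norm_pos_iff.2 hx
  have hN : DifferentiableAt ℝ (fun y : X => ‖y‖) x :=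
    (hs.nX x hx).differentiableAt (by norm_num)
  have hd : DifferentiableAt ℝ Φ x := (hs.map x hx).differentiableAt (by norm_num)
  have hdi : DifferentiableAt ℝ (fun y : X => y) x := differentiableAt_id
  have h1 := hΦ.hasDerivAt_second hx hN hd ((hs.nY _ (hΦ.ne_zero hx)).of_le (by norm_num)) w u
  have h2 := (sphMap_id (X := X)).hasDerivAt_second hx hN hdi
    ((hs.nX x hx).of_le (by norm_num)) w u
  have hcont : ContinuousAt (fun s : ℝ => x + s • u) 0 := by fun_prop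
  have hne : ∀ᶠ s : ℝ in 𝓝 0, x + s • u ≠ 0 := by
    apply hcont.eventually_ne
    simpa using hx
  have hne2 : ∀ᶠ s : ℝ in 𝓝 0, ‖x + s • u‖ • x + ‖x‖ • (x + s • u) ≠ 0 := by
    have hc : ContinuousAt (fun s : ℝ => ‖x + s • u‖ • x + ‖x‖ • (x + s • u)) 0 := by fun_prop
    apply hc.eventually_ne
    simp only [zero_smul, add_zero]
    rw [← add_smul]
    exact smul_ne_zero (by positivity) hx
  have h3 : (fun s : ℝ => N1 Y (‖x + s • u‖ • Φ x + ‖x‖ • Φ (x + s • u))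
        (‖x + s • u‖ • fderiv ℝ Φ x w + N1 X x w • Φ (x + s • u))) =ᶠ[𝓝 0]
      (fun s : ℝ => N1 X (‖x + s • u‖ • x + ‖x‖ • (x + s • u))
        (‖x + s • u‖ • fderiv ℝ (fun y : X => y) x w + N1 X x w • (x + s • u))) := by
    filter_upwards [hne, hne2] with s hs1 hs2
    have hs3 : ‖x + s • u‖ • Φ x + ‖x‖ • Φ (x + s • u) ≠ 0 := by
      rw [← norm_ne_zero_iff, hΦ.norm_add_eq hneg hx hs1]
      exact norm_ne_zero_iff.2 hs2
    have a1 := SphMap.hasDerivAt_first (Θ := Φ) (z := x + s • u) hN hd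
      ((hs.nY _ hs3).differentiableAt (by norm_num)) w
    have a2 := SphMap.hasDerivAt_first (Θ := fun y : X => y) (z := x + s • u) hN hdi
      ((hs.nX _ hs2).differentiableAt (by norm_num)) w
    have hcont' : ContinuousAt (fun s : ℝ => x + s • w) 0 := by fun_prop
    have hne' : ∀ᶠ t : ℝ in 𝓝 0, x + t • w ≠ 0 := by
      apply hcont'.eventually_ne
      simpa using hx
    have a3 : (fun t : ℝ => ‖‖x + s • u‖ • Φ (x + t • w) + ‖x + t • w‖ • Φ (x + s • u)‖) =ᶠ[𝓝 0]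
        (fun t : ℝ => ‖‖x + s • u‖ • (x + t • w) + ‖x + t • w‖ • (x + s • u)‖) := by
      filter_upwards [hne'] with t ht
      exact hΦ.norm_add_eq hneg ht hs1
    exact (a1.congr_of_eventuallyEq a3.symm).unique a2
  have h4 := (h1.congr_of_eventuallyEq h3.symm).unique h2
  have h5 : fderiv ℝ (fun y : X => y) x = ContinuousLinearMap.id ℝ X := fderiv_id
  rw [h5] at h4
  simp only [ContinuousLinearMap.id_apply] at h4
  have h6 : ‖x‖ / 2 * N2 Y (Φ x) (fderiv ℝ Φ x u) (fderiv ℝ Φ x w) = ‖x‖ / 2 * N2 X x u w := by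
    linarith
  exact mul_left_cancel₀ (by positivity) h6

theorem SphMap.N1_fderiv {Φ : X → Y} (hΦ : SphMap Φ)
    (hs : Smooth3 Φ) {x : X} (hx : x ≠ 0) (w : X) :
    N1 Y (Φ x) (fderiv ℝ Φ x w) = N1 X x w := by
  have hN : DifferentiableAt ℝ (fun y : X => ‖y‖) x :=
    (hs.nX x hx).differentiableAt (by norm_num)
  have hd : DifferentiableAt ℝ Φ x := (hs.map x hx).differentiableAt (by norm_num)
  have hN' : DifferentiableAt ℝ (fun y : Y => ‖y‖) (Φ x) :=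
    (hs.nY _ (hΦ.ne_zero hx)).differentiableAt (by norm_num)
  exact hΦ.norming_fderiv hN hd _ (fun y => (le_abs_self _).trans (N1_le _ _)) (N1_self hN') w

theorem SphMap.N1_fderiv2 {Φ : X → Y} (hΦ : SphMap Φ) (hneg : ∀ x, Φ (-x) = -Φ x)
    (hs : Smooth3 Φ) {x : X} (hx : x ≠ 0) (u w : X) :
    N1 Y (Φ x) (fderiv ℝ (fderiv ℝ Φ) x u w) = 0 := by
  have hxo : {y : X | y ≠ 0} ∈ 𝓝 x := isOpen_ne.mem_nhds hx
  have h1 : (fun z : X => N1 Y (Φ z) (fderiv ℝ Φ z w)) =ᶠ[𝓝 x] fun z => N1 X z w := by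
    filter_upwards [hxo] with z hz
    exact hΦ.N1_fderiv hs hz w
  have hN1X : HasFDerivAt (N1 X) (N2 X x) x :=
    (((hs.nX x hx).fderiv_right (m := 2) (by norm_num)).differentiableAt (by norm_num)).hasFDerivAt
  have hN1Y : HasFDerivAt (N1 Y) (N2 Y (Φ x)) (Φ x) :=
    (((hs.nY _ (hΦ.ne_zero hx)).fderiv_right (m := 2) (by norm_num)).differentiableAt
      (by norm_num)).hasFDerivAt
  have hd : HasFDerivAt Φ (fderiv ℝ Φ x) x :=
    ((hs.map x hx).differentiableAt (by norm_num)).hasFDerivAt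
  have hd2 : HasFDerivAt (fderiv ℝ Φ) (fderiv ℝ (fderiv ℝ Φ) x) x :=
    (((hs.map x hx).fderiv_right (m := 2) (by norm_num)).differentiableAt (by norm_num)).hasFDerivAt
  have h2 := (hN1Y.comp x hd).clm_apply (hd2.clm_apply (hasFDerivAt_const w x))
  have h3 := (hN1X.clm_apply (hasFDerivAt_const w x)).congr_of_eventuallyEq h1
  have h4 := DFunLike.congr_fun (h2.unique h3) u
  simp at h4
  have h5 := hΦ.N2_fderiv hneg hs hx u w
  linarith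

theorem SphMap.N1_fderiv_tangent {Φ : X → Y} (hΦ : SphMap Φ)
    (hs : Smooth3 Φ) {x : X} (hx : x ≠ 0) {v w : X} (hv0 : v ≠ 0) (hv : N1 X x v = 0)
    (hw : N1 X x w = 0) :
    N1 Y (fderiv ℝ Φ x v) (fderiv ℝ Φ x w) = N1 X v w := by
  have hN : DifferentiableAt ℝ (fun y : X => ‖y‖) x :=
    (hs.nX x hx).differentiableAt (by norm_num)
  have hd : DifferentiableAt ℝ Φ x := (hs.map x hx).differentiableAt (by norm_num)
  have h1 : ∀ t : ℝ, ‖fderiv ℝ Φ x v + t • fderiv ℝ Φ x w‖ = ‖v + t • w‖ := by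
    intro t
    have := hΦ.norm_fderiv hx hN hd (v + t • w)
    have h0 : N1 X x (v + t • w) = 0 := by rw [map_add, map_smul, hv, hw]; simp
    rw [h0, map_add, map_smul] at this
    simpa using this
  have hne : fderiv ℝ Φ x v ≠ 0 := by
    have := h1 0
    rw [zero_smul, zero_smul, add_zero, add_zero] at this
    rw [← norm_ne_zero_iff, this]; exact norm_ne_zero_iff.2 hv0
  have h2 : HasDerivAt (fun t : ℝ => ‖fderiv ℝ Φ x v + t • fderiv ℝ Φ x w‖)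
      (N1 Y (fderiv ℝ Φ x v) (fderiv ℝ Φ x w)) 0 := by
    have : HasFDerivAt (fun y : Y => ‖y‖) (N1 Y (fderiv ℝ Φ x v))
        (fderiv ℝ Φ x v + (0 : ℝ) • fderiv ℝ Φ x w) := by
      simpa using ((hs.nY _ hne).differentiableAt (by norm_num)).hasFDerivAt
    exact this.comp_hasDerivAt 0 (hasDerivAt_line _ _ 0)
  have h3 : HasDerivAt (fun t : ℝ => ‖v + t • w‖) (N1 X v w) 0 := by
    have : HasFDerivAt (fun y : X => ‖y‖) (N1 X v) (v + (0 : ℝ) • w) := by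
      simpa using ((hs.nX _ hv0).differentiableAt (by norm_num)).hasFDerivAt
    exact this.comp_hasDerivAt 0 (hasDerivAt_line _ _ 0)
  have h4 : (fun t : ℝ => ‖fderiv ℝ Φ x v + t • fderiv ℝ Φ x w‖) = fun t : ℝ => ‖v + t • w‖ :=
    funext h1
  rw [h4] at h2
  exact h2.unique h3

theorem hasDerivAt_tangential {Θ : X → Y} {x : X} (hx : x ≠ 0)
    (hX : ContDiffAt ℝ 3 (fun y : X => ‖y‖) x) (hΘ : ContDiffAt ℝ 3 Θ x) {v : X}
    (hv : N1 X x v = 0) (u : X) :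
    HasDerivAt (fun t : ℝ => fderiv ℝ Θ (x + t • u) v -
        (N1 X (x + t • u) v / ‖x + t • u‖) • Θ (x + t • u))
      (fderiv ℝ (fderiv ℝ Θ) x u v - (N2 X x u v / ‖x‖) • Θ x) 0 := by
  have hx' : ‖x‖ ≠ 0 := norm_ne_zero_iff.2 hx
  have h1 : HasDerivAt (fun t : ℝ => fderiv ℝ Θ (x + t • u)) (fderiv ℝ (fderiv ℝ Θ) x u) 0 := by
    have : HasFDerivAt (fderiv ℝ Θ) (fderiv ℝ (fderiv ℝ Θ) x) (x + (0 : ℝ) • u) := by
      simpa using ((hΘ.fderiv_right (m := 2) (by norm_num)).differentiableAt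
        (by norm_num)).hasFDerivAt
    exact this.comp_hasDerivAt 0 (hasDerivAt_line x u 0)
  have h2 : HasDerivAt (fun t : ℝ => N1 X (x + t • u)) (N2 X x u) 0 := by
    have : HasFDerivAt (N1 X) (N2 X x) (x + (0 : ℝ) • u) := by
      simpa using ((hX.fderiv_right (m := 2) (by norm_num)).differentiableAt
        (by norm_num)).hasFDerivAt
    exact this.comp_hasDerivAt 0 (hasDerivAt_line x u 0)
  have h3 : HasDerivAt (fun t : ℝ => ‖x + t • u‖) (N1 X x u) 0 := by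
    have : HasFDerivAt (fun y : X => ‖y‖) (N1 X x) (x + (0 : ℝ) • u) := by
      simpa using (hX.differentiableAt (by norm_num)).hasFDerivAt
    exact this.comp_hasDerivAt 0 (hasDerivAt_line x u 0)
  have h4 : HasDerivAt (fun t : ℝ => Θ (x + t • u)) (fderiv ℝ Θ x u) 0 := by
    have : HasFDerivAt Θ (fderiv ℝ Θ x) (x + (0 : ℝ) • u) := by
      simpa using (hΘ.differentiableAt (by norm_num)).hasFDerivAt
    exact this.comp_hasDerivAt 0 (hasDerivAt_line x u 0)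
  have h5 := h1.clm_apply (hasDerivAt_const (0 : ℝ) v)
  have h6 := (h2.clm_apply (hasDerivAt_const (0 : ℝ) v)).div h3 (by simpa using hx')
  have h7 := h5.sub (h6.smul h4)
  refine h7.congr_deriv ?_
  simp [hv]
  field_simp

theorem SphMap.exists_mu {Φ : X → Y} (hΦ : SphMap Φ)
    (hs : Smooth3 Φ) {x : X} (hx : x ≠ 0) {v : X} (hv0 : v ≠ 0) (hv : N1 X x v = 0) :
    ∃ μ : ℝ, ∀ u, N1 Y (fderiv ℝ Φ x v) (fderiv ℝ (fderiv ℝ Φ) x u v) = μ * N2 X x u v := by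
  refine ⟨(N1 Y (fderiv ℝ Φ x v) (Φ x) - N1 X v x) / ‖x‖, fun u => ?_⟩
  have hN : DifferentiableAt ℝ (fun y : X => ‖y‖) x :=
    (hs.nX x hx).differentiableAt (by norm_num)
  have hd : DifferentiableAt ℝ Φ x := (hs.map x hx).differentiableAt (by norm_num)
  have hx' : ‖x‖ ≠ 0 := norm_ne_zero_iff.2 hx
  have hnv : ‖fderiv ℝ Φ x v‖ = ‖v‖ := by
    have := hΦ.norm_fderiv hx hN hd v
    rw [hv] at this
    simpa using this
  have hne : fderiv ℝ Φ x v ≠ 0 := by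
    rw [← norm_ne_zero_iff, hnv]; exact norm_ne_zero_iff.2 hv0
  have h1 := hasDerivAt_tangential (Θ := Φ) hx (hs.nX x hx) (hs.map x hx) hv u
  have h2 := hasDerivAt_tangential (Θ := fun y : X => y) hx (hs.nX x hx) contDiffAt_id hv u
  have h3 : HasFDerivAt (fun y : Y => ‖y‖) (N1 Y (fderiv ℝ Φ x v))
      (fderiv ℝ Φ (x + (0 : ℝ) • u) v -
        (N1 X (x + (0 : ℝ) • u) v / ‖x + (0 : ℝ) • u‖) • Φ (x + (0 : ℝ) • u)) := by
    have e : fderiv ℝ Φ (x + (0 : ℝ) • u) v -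
        (N1 X (x + (0 : ℝ) • u) v / ‖x + (0 : ℝ) • u‖) • Φ (x + (0 : ℝ) • u) =
        fderiv ℝ Φ x v := by simp [hv]
    rw [e]
    exact ((hs.nY _ hne).differentiableAt (by norm_num)).hasFDerivAt
  have hfid : ∀ y : X, fderiv ℝ (fun y : X => y) y = ContinuousLinearMap.id ℝ X := fun y => fderiv_id
  have h4 : HasFDerivAt (fun y : X => ‖y‖) (N1 X v)
      (fderiv ℝ (fun y : X => y) (x + (0 : ℝ) • u) v -
        (N1 X (x + (0 : ℝ) • u) v / ‖x + (0 : ℝ) • u‖) • (x + (0 : ℝ) • u)) := by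
    have e : fderiv ℝ (fun y : X => y) (x + (0 : ℝ) • u) v -
        (N1 X (x + (0 : ℝ) • u) v / ‖x + (0 : ℝ) • u‖) • (x + (0 : ℝ) • u) = v := by
      simp [hv]
    rw [e]
    exact ((hs.nX _ hv0).differentiableAt (by norm_num)).hasFDerivAt
  have h5 := h3.comp_hasDerivAt 0 h1
  have h6 := h4.comp_hasDerivAt 0 h2
  have hcont' : ContinuousAt (fun s : ℝ => x + s • u) 0 := by fun_prop
  have hne' : ∀ᶠ t : ℝ in 𝓝 0, x + t • u ≠ 0 := by
    apply hcont'.eventually_ne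
    simpa using hx
  have h7 : ((fun y : Y => ‖y‖) ∘ fun t : ℝ => fderiv ℝ Φ (x + t • u) v -
        (N1 X (x + t • u) v / ‖x + t • u‖) • Φ (x + t • u)) =ᶠ[𝓝 0]
      ((fun y : X => ‖y‖) ∘ fun t : ℝ => fderiv ℝ (fun y : X => y) (x + t • u) v -
        (N1 X (x + t • u) v / ‖x + t • u‖) • (x + t • u)) := by
    filter_upwards [hne'] with t ht
    have := hΦ.norm_fderiv ht ((hs.nX _ ht).differentiableAt (by norm_num))
      ((hs.map _ ht).differentiableAt (by norm_num)) v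
    simpa using this
  have h8 := (h5.congr_of_eventuallyEq h7.symm).unique h6
  have e2 : fderiv ℝ (fderiv ℝ fun y : X => y) x = 0 := by
    have : (fderiv ℝ fun y : X => y) = fun _ => ContinuousLinearMap.id ℝ X := funext hfid
    rw [this]; simp
  rw [e2, map_sub, map_smul, map_sub, map_smul] at h8
  simp only [smul_eq_mul] at h8
  have h00 : (0 : X →L[ℝ] X →L[ℝ] X) u v = 0 := rfl
  rw [h00, _root_.map_zero] at h8
  field_simp at h8 ⊢
  linarith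

theorem SphMap.cubic_symm {Φ : X → Y} (hΦ : SphMap Φ) (hneg : ∀ x, Φ (-x) = -Φ x)
    (hs : Smooth3 Φ) {x : X} (hx : x ≠ 0) (u v w : X) :
    N2 Y (Φ x) (fderiv ℝ (fderiv ℝ Φ) x u v) (fderiv ℝ Φ x w) =
      N2 Y (Φ x) (fderiv ℝ (fderiv ℝ Φ) x w v) (fderiv ℝ Φ x u) := by
  have hxo : {y : X | y ≠ 0} ∈ 𝓝 x := isOpen_ne.mem_nhds hx
  have hN2X : HasFDerivAt (N2 X) (fderiv ℝ (N2 X) x) x :=
    ((((hs.nX x hx).fderiv_right (m := 2) (by norm_num)).fderiv_right (m := 1)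
      (by norm_num)).differentiableAt (by norm_num)).hasFDerivAt
  have hN2Y : HasFDerivAt (N2 Y) (fderiv ℝ (N2 Y) (Φ x)) (Φ x) :=
    ((((hs.nY _ (hΦ.ne_zero hx)).fderiv_right (m := 2) (by norm_num)).fderiv_right (m := 1)
      (by norm_num)).differentiableAt (by norm_num)).hasFDerivAt
  have hd : HasFDerivAt Φ (fderiv ℝ Φ x) x :=
    ((hs.map x hx).differentiableAt (by norm_num)).hasFDerivAt
  have hd2 : HasFDerivAt (fderiv ℝ Φ) (fderiv ℝ (fderiv ℝ Φ) x) x :=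
    (((hs.map x hx).fderiv_right (m := 2) (by norm_num)).differentiableAt (by norm_num)).hasFDerivAt
  have hsX : ∀ p q, fderiv ℝ (N2 X) x p q = fderiv ℝ (N2 X) x q p := fun p q =>
    (((hs.nX x hx).fderiv_right (m := 2) (by norm_num)).isSymmSndFDerivAt (by simp)).eq p q
  have hsY : ∀ p q, fderiv ℝ (N2 Y) (Φ x) p q = fderiv ℝ (N2 Y) (Φ x) q p := fun p q =>
    (((hs.nY _ (hΦ.ne_zero hx)).fderiv_right (m := 2) (by norm_num)).isSymmSndFDerivAt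
      (by simp)).eq p q
  have hsΦ : ∀ p q, fderiv ℝ (fderiv ℝ Φ) x p q = fderiv ℝ (fderiv ℝ Φ) x q p := fun p q =>
    ((hs.map x hx).isSymmSndFDerivAt (by simp; norm_num)).eq p q
  have key : ∀ p a b : X,
      fderiv ℝ (N2 Y) (Φ x) (fderiv ℝ Φ x p) (fderiv ℝ Φ x a) (fderiv ℝ Φ x b) +
      N2 Y (Φ x) (fderiv ℝ (fderiv ℝ Φ) x p a) (fderiv ℝ Φ x b) +
      N2 Y (Φ x) (fderiv ℝ Φ x a) (fderiv ℝ (fderiv ℝ Φ) x p b) =
      fderiv ℝ (N2 X) x p a b := by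
    intro p a b
    have h1 : (fun z : X => N2 Y (Φ z) (fderiv ℝ Φ z a) (fderiv ℝ Φ z b)) =ᶠ[𝓝 x]
        fun z => N2 X z a b := by
      filter_upwards [hxo] with z hz
      exact hΦ.N2_fderiv hneg hs hz a b
    have a1 : HasFDerivAt (fun z => N2 Y (Φ z)) (fderiv ℝ (N2 Y) (Φ x) ∘L fderiv ℝ Φ x) x :=
      HasFDerivAt.comp (g := N2 Y) (f := Φ) x hN2Y hd
    have a2 := hd2.clm_apply (hasFDerivAt_const a x)
    have a3 := a1.clm_apply a2
    have a4 := hd2.clm_apply (hasFDerivAt_const b x)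
    have h2 := a3.clm_apply a4
    have b1 := hN2X.clm_apply (hasFDerivAt_const a x)
    have b2 := b1.clm_apply (hasFDerivAt_const b x)
    have h3 := b2.congr_of_eventuallyEq h1
    have h4 := DFunLike.congr_fun (h2.unique h3) p
    simp at h4
    linarith
  have hsN : ∀ a b, N2 Y (Φ x) a b = N2 Y (Φ x) b a := fun a b =>
    N2_symm ((hs.nY _ (hΦ.ne_zero hx)).of_le (by norm_num)) a b
  have k1 := key u w v
  have k2 := key w u v
  rw [hsY, hsX, hsΦ u w] at k1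
  have k3 := hsN (fderiv ℝ Φ x w) (fderiv ℝ (fderiv ℝ Φ) x u v)
  have k4 := hsN (fderiv ℝ Φ x u) (fderiv ℝ (fderiv ℝ Φ) x w v)
  linarith

end Vale.Agent.H11.TS
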