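import Vale.Agent.H11.TS.B4b

namespace Vale.Agent.H11.TS

open Filter Topology Metric
open scoped RealInnerProductSpace

variable {X Y : Type*} [NormedAddCommGroup X] [NormedSpace ℝ X]
    [NormedAddCommGroup Y] [NormedSpace ℝ Y]

/-! ## Row B1: orthonormal coordinates for a positive definite form -/

theorem exists_orthonormal_coords_aux {T : Type*} [AddCommGroup T] [Module ℝ T]
    [FiniteDimensional ℝ T] (b : T →ₗ[ℝ] T →ₗ[ℝ] ℝ) (hs : ∀ u v, b u v = b v u)
    (hp : ∀ u, u ≠ 0 → 0 < b u u) :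
    ∃ L : EuclideanSpace ℝ (Fin (Module.finrank ℝ T)) ≃ₗ[ℝ] T,
      ∀ u v, b (L u) (L v) = ⟪u, v⟫ := by
  let core : InnerProductSpace.Core ℝ T :=
    { inner := fun u v => b u v
      conj_inner_symm := fun u v => by simp [hs u v]
      re_inner_nonneg := fun u => by
        rcases eq_or_ne u 0 with rfl | hu
        · simp
        · exact (hp u hu).le
      add_left := fun u v w => by simp
      smul_left := fun u v c => by simp
      definite := fun u hu => by
        by_contra h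
        exact (hp u h).ne' hu }
  let i1 : NormedAddCommGroup T := core.toNormedAddCommGroup
  let i2 : InnerProductSpace ℝ T := InnerProductSpace.ofCore core.toCore
  let B := stdOrthonormalBasis ℝ T
  refine ⟨B.repr.symm.toLinearEquiv, fun u v => ?_⟩
  have := B.repr.symm.inner_map_map u v
  exact this

theorem exists_orthonormal_coords {T : Type*} [NormedAddCommGroup T] [NormedSpace ℝ T]
    [FiniteDimensional ℝ T] (b : T →L[ℝ] T →L[ℝ] ℝ) (hs : ∀ u v, b u v = b v u)
    (hp : ∀ u, u ≠ 0 → 0 < b u u) :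
    ∃ L : EuclideanSpace ℝ (Fin (Module.finrank ℝ T)) ≃L[ℝ] T,
      ∀ u v, b (L u) (L v) = ⟪u, v⟫ := by
  let b' : T →ₗ[ℝ] T →ₗ[ℝ] ℝ := LinearMap.mk₂ ℝ (fun u v => b u v) (by intros; simp)
    (by intros; simp) (by intros; simp) (by intros; simp)
  obtain ⟨L, hL⟩ := exists_orthonormal_coords_aux b' hs hp
  exact ⟨L.toContinuousLinearEquiv, hL⟩

/-! ## Row B6 -/

theorem SphMap.exists_linear [FiniteDimensional ℝ X]
    (hdim : 3 ≤ Module.finrank ℝ X) {Φ : X → Y} (hΦ : SphMap Φ)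
    (hs : ∀ x : X, x ≠ 0 → ContDiffAt ℝ 2 Φ x)
    (h0 : ∀ x : X, x ≠ 0 → fderiv ℝ (fderiv ℝ Φ) x = 0) :
    ∃ T : X ≃ₗᵢ[ℝ] Y, ∀ x, T x = Φ x := by
  have hrank : 1 < Module.rank ℝ X := by
    rw [← Module.finrank_eq_rank]; exact_mod_cast (by omega : 1 < Module.finrank ℝ X)
  have hconn := (isConnected_compl_singleton_of_one_lt_rank hrank (0 : X)).isPreconnected
  have hopen : IsOpen ({0}ᶜ : Set X) := isOpen_compl_singleton
  haveI : Nontrivial X := Module.nontrivial_of_finrank_pos (R := ℝ) (by omega)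
  obtain ⟨x0, hx0⟩ := exists_ne (0 : X)
  have hconst : ∀ x : X, x ≠ 0 → fderiv ℝ Φ x = fderiv ℝ Φ x0 := by
    intro x hx
    have hd : DifferentiableOn ℝ (fderiv ℝ Φ) ({0}ᶜ : Set X) := fun y hy =>
      (((hs y hy).fderiv_right (m := 1) (by norm_num)).differentiableAt
        (by norm_num)).differentiableWithinAt
    exact hopen.is_const_of_fderiv_eq_zero hconn hd (fun y hy => h0 y hy) hx hx0
  set L := fderiv ℝ Φ x0 with hL
  have hlin : ∀ x : X, Φ x = L x := by
    intro x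
    rcases eq_or_ne x 0 with rfl | hx
    · rw [hΦ.map_zero, _root_.map_zero]
    · rw [← hconst x hx, hΦ.fderiv_self ((hs x hx).differentiableAt (by norm_num))]
  let li : X →ₗᵢ[ℝ] Y := ⟨(L : X →ₗ[ℝ] Y), fun x => by
    have := hΦ.norm x
    rw [hlin] at this
    exact this⟩
  refine ⟨LinearIsometryEquiv.ofSurjective li ?_, fun x => ?_⟩
  · intro y
    obtain ⟨x, hx⟩ := hΦ.surj y
    exact ⟨x, by rw [← hx, hlin]; rfl⟩
  · rw [hlin]; rfl

end Vale.Agent.H11.TS
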