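import Mathlib

/-!
# Tingley's problem for smooth strongly convex norms: the algebraic lemma, definitions
-/

namespace Vale.Agent.H11.TS

open Filter Topology
open scoped RealInnerProductSpace

variable {E : Type*} [NormedAddCommGroup E] [InnerProductSpace ℝ E]

/-- `F` is a second, strictly convex norm on the inner product space `E`; off the origin it has
gradient `n`, and `n` has derivative `A` (the Hessian of `F`), which is symmetric and positive on
vectors that are not proportional to the base point. -/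
structure NormData (F : E → ℝ) (n : E → E) (A : E → E →L[ℝ] E) : Prop where
  cont : Continuous F
  smul : ∀ (t : ℝ) (v : E), F (t • v) = |t| * F v
  add_le : ∀ v w, F (v + w) ≤ F v + F w
  pos : ∀ v, v ≠ 0 → 0 < F v
  strict : ∀ v w, F v = 1 → F w = 1 → F ((1 / 2 : ℝ) • (v + w)) = 1 → v = w
  grad : ∀ v, v ≠ 0 → HasFDerivAt F (innerSL ℝ (n v)) v
  hess : ∀ v, v ≠ 0 → HasFDerivAt n (A v) v
  symm : ∀ v, v ≠ 0 → ∀ u w, ⟪A v u, w⟫ = ⟪u, A v w⟫
  hpos : ∀ v, v ≠ 0 → ∀ u, u ∉ Submodule.span ℝ {v} → 0 < ⟪A v u, u⟫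

/-- `K` is the operator form of a totally symmetric cubic form which satisfies the eigenvector
condition `K (n v) v ∥ v`. -/
structure CubicData (n : E → E) (K : E →L[ℝ] E →L[ℝ] E) : Prop where
  symm : ∀ u v, K u v = K v u
  self : ∀ u v w, ⟪K u v, w⟫ = ⟪v, K u w⟫
  eig : ∀ v, v ≠ 0 → ∃ μ : ℝ, K (n v) v = μ • v

end Vale.Agent.H11.TS
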