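import Mathlib

/-!
# Tingley's problem for smooth strongly convex norms: the calculus part, definitions
-/

namespace Vale.Agent.H11.TS

open Filter Topology Metric

/-- The norm of `X` is three times continuously differentiable off the origin, and its second
derivative at `x ≠ 0` is positive on every vector which is not a multiple of `x`. -/
structure SmoothStrong (X : Type*) [NormedAddCommGroup X] [NormedSpace ℝ X] : Prop where
  smooth : ContDiffOn ℝ 3 (fun x : X => ‖x‖) {0}ᶜ
  pos : ∀ x : X, x ≠ 0 → ∀ v : X, v ∉ Submodule.span ℝ {x} →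
    0 < fderiv ℝ (fderiv ℝ (fun y : X => ‖y‖)) x v v

/-- The derivative of the norm. -/
noncomputable abbrev N1 (X : Type*) [NormedAddCommGroup X] [NormedSpace ℝ X] :
    X → X →L[ℝ] ℝ := fderiv ℝ (fun y : X => ‖y‖)

/-- The second derivative of the norm. -/
noncomputable abbrev N2 (X : Type*) [NormedAddCommGroup X] [NormedSpace ℝ X] :
    X → X →L[ℝ] X →L[ℝ] ℝ := fderiv ℝ (N1 X)

/-- Positively homogeneous extension of a surjective isometry between unit spheres. -/
structure SphMap {X Y : Type*} [NormedAddCommGroup X] [NormedSpace ℝ X]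
    [NormedAddCommGroup Y] [NormedSpace ℝ Y] (Φ : X → Y) : Prop where
  smul : ∀ t : ℝ, 0 ≤ t → ∀ x, Φ (t • x) = t • Φ x
  norm : ∀ x, ‖Φ x‖ = ‖x‖
  iso : ∀ x z, ‖x‖ = 1 → ‖z‖ = 1 → ‖Φ x - Φ z‖ = ‖x - z‖
  surj : Function.Surjective Φ

end Vale.Agent.H11.TS
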