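import Vale.Agent.H11.TS.DefsB

/-!
# A norm with unique norming functionals is `C¹` off the origin
-/

namespace Vale.Agent.H11.TS

open Filter Topology Metric

namespace S0

variable {Y : Type*} [NormedAddCommGroup Y] [NormedSpace ℝ Y]

/-- a norming functional -/
theorem exists_norming (y : Y) : ∃ g : Y →L[ℝ] ℝ, ‖g‖ ≤ 1 ∧ g y = ‖y‖ := by
  obtain ⟨g, h1, h2⟩ := exists_dual_vector'' ℝ y
  exact ⟨g, h1, by simpa using h2⟩

noncomputable def nf (y : Y) : Y →L[ℝ] ℝ := (exists_norming y).choose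

theorem nf_norm (y : Y) : ‖nf y‖ ≤ 1 := (exists_norming y).choose_spec.1

theorem nf_self (y : Y) : nf y y = ‖y‖ := (exists_norming y).choose_spec.2

theorem le_norm_of_norm_le {g : Y →L[ℝ] ℝ} (hg : ‖g‖ ≤ 1) (y : Y) : g y ≤ ‖y‖ := by
  calc g y ≤ ‖g y‖ := Real.le_norm_self _
    _ ≤ ‖g‖ * ‖y‖ := g.le_opNorm y
    _ ≤ 1 * ‖y‖ := by gcongr
    _ = ‖y‖ := one_mul _

theorem nf_le (x y : Y) : nf x y ≤ ‖y‖ := le_norm_of_norm_le (nf_norm x) y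

theorem tendsto_nf_apply (w : Y) : Tendsto (fun y => nf y w) (𝓝 w) (𝓝 ‖w‖) := by
  rw [tendsto_iff_norm_sub_tendsto_zero]
  have h1 : Tendsto (fun y : Y => 2 * ‖y - w‖) (𝓝 w) (𝓝 0) := by
    have : Tendsto (fun y : Y => 2 * ‖y - w‖) (𝓝 w) (𝓝 (2 * ‖w - w‖)) := by
      apply Continuous.tendsto
      fun_prop
    simpa using this
  refine squeeze_zero (fun _ => norm_nonneg _) (fun y => ?_) h1
  have h2 : nf y w = ‖y‖ - nf y (y - w) := by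
    rw [map_sub, nf_self]; ring
  have h3 : |nf y (y - w)| ≤ ‖y - w‖ := by
    rw [abs_le]
    constructor
    · have := nf_le y (-(y - w))
      rw [map_neg, norm_neg] at this
      linarith
    · exact nf_le y _
  have h4 : |‖y‖ - ‖w‖| ≤ ‖y - w‖ := abs_norm_sub_norm_le y w
  rw [h2, Real.norm_eq_abs]
  have h5 : ‖y‖ - nf y (y - w) - ‖w‖ = (‖y‖ - ‖w‖) - nf y (y - w) := by ring
  rw [h5]
  calc |(‖y‖ - ‖w‖) - nf y (y - w)| ≤ |‖y‖ - ‖w‖| + |nf y (y - w)| := abs_sub _ _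
    _ ≤ 2 * ‖y - w‖ := by linarith

theorem tendsto_nf [FiniteDimensional ℝ Y] {w : Y}
    (h : ∀ φ ψ : Y →L[ℝ] ℝ, (∀ y, φ y ≤ ‖y‖) → (∀ y, ψ y ≤ ‖y‖) → φ w = ‖w‖ → ψ w = ‖w‖ → φ = ψ) :
    Tendsto (fun y => nf y) (𝓝 w) (𝓝 (nf w)) := by
  have hc : IsCompact (closedBall (0 : Y →L[ℝ] ℝ) 1) := isCompact_closedBall _ _
  refine hc.tendsto_nhds_of_unique_mapClusterPt ?_ ?_
  · exact Eventually.of_forall fun y => by simpa using nf_norm y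
  · intro ψ hψ hcl
    have hψ1 : ‖ψ‖ ≤ 1 := by simpa using hψ
    have h1 : MapClusterPt (ψ w) (𝓝 w) (fun y => nf y w) := by
      have hcont : ContinuousAt (fun g : Y →L[ℝ] ℝ => g w) ψ := by fun_prop
      exact hcl.continuousAt_comp hcont
    have h2 : ψ w = ‖w‖ := by
      have h3 := tendsto_nf_apply w
      have h4 : ClusterPt (ψ w) (𝓝 ‖w‖) := h1.clusterPt.mono h3
      exact eq_of_nhds_neBot h4
    exact h ψ (nf w) (le_norm_of_norm_le hψ1) (nf_le w) h2 (nf_self w)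

theorem hasFDerivAt_norm [FiniteDimensional ℝ Y] {w : Y}
    (h : ∀ φ ψ : Y →L[ℝ] ℝ, (∀ y, φ y ≤ ‖y‖) → (∀ y, ψ y ≤ ‖y‖) → φ w = ‖w‖ → ψ w = ‖w‖ → φ = ψ) :
    HasFDerivAt (fun y : Y => ‖y‖) (nf w) w := by
  rw [hasFDerivAt_iff_isLittleO]
  rw [Asymptotics.isLittleO_iff]
  intro c hc
  have h1 := tendsto_nf h
  rw [tendsto_iff_norm_sub_tendsto_zero] at h1
  have h2 : ∀ᶠ y in 𝓝 w, ‖nf y - nf w‖ < c := h1.eventually_lt_const hc
  filter_upwards [h2] with y hy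
  have h3 : 0 ≤ ‖y‖ - ‖w‖ - nf w (y - w) := by
    have := nf_le w y
    rw [map_sub, nf_self]
    linarith
  have h4 : ‖y‖ - ‖w‖ - nf w (y - w) ≤ (nf y - nf w) (y - w) := by
    have := nf_le y w
    rw [sub_apply, map_sub (nf y), nf_self y]
    linarith
  rw [Real.norm_of_nonneg h3]
  calc ‖y‖ - ‖w‖ - nf w (y - w) ≤ (nf y - nf w) (y - w) := h4
    _ ≤ ‖(nf y - nf w) (y - w)‖ := Real.le_norm_self _
    _ ≤ ‖nf y - nf w‖ * ‖y - w‖ := ContinuousLinearMap.le_opNorm _ _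
    _ ≤ c * ‖y - w‖ := by gcongr

end S0

variable {Y : Type*} [NormedAddCommGroup Y] [NormedSpace ℝ Y]

theorem differentiableAt_norm_of_unique [FiniteDimensional ℝ Y] {w : Y} (_hw : w ≠ 0)
    (h : ∀ φ ψ : Y →L[ℝ] ℝ, (∀ y, φ y ≤ ‖y‖) → (∀ y, ψ y ≤ ‖y‖) → φ w = ‖w‖ → ψ w = ‖w‖ → φ = ψ) :
    DifferentiableAt ℝ (fun y : Y => ‖y‖) w :=
  (S0.hasFDerivAt_norm h).differentiableAt

theorem contDiffAt_norm_of_unique [FiniteDimensional ℝ Y]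
    (h : ∀ w : Y, w ≠ 0 → ∀ φ ψ : Y →L[ℝ] ℝ, (∀ y, φ y ≤ ‖y‖) → (∀ y, ψ y ≤ ‖y‖) →
      φ w = ‖w‖ → ψ w = ‖w‖ → φ = ψ) {w : Y} (hw : w ≠ 0) :
    ContDiffAt ℝ 1 (fun y : Y => ‖y‖) w := by
  rw [contDiffAt_one_iff]
  refine ⟨S0.nf, {0}ᶜ, isOpen_compl_singleton.mem_nhds hw, ?_, ?_⟩
  · intro x hx
    exact (S0.tendsto_nf (h x hx)).mono_left nhdsWithin_le_nhds
  · intro x hx
    exact S0.hasFDerivAt_norm (h x hx)

end Vale.Agent.H11.TS
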