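import Vale.Agent.H11.TS.B0
import Vale.Agent.H11.TS.B2
import Vale.Agent.H11.TS.B4b

/-!
# Norming functionals of the target are unique (Rademacher)
-/

namespace Vale.Agent.H11.TS

open Filter Topology Metric

namespace S1

variable {X Y : Type*} [NormedAddCommGroup X] [NormedSpace ℝ X]
    [NormedAddCommGroup Y] [NormedSpace ℝ Y]

theorem dense_diff [FiniteDimensional ℝ X] [FiniteDimensional ℝ Y] {Φ : X → Y} {C : NNReal}
    (hΦ : LipschitzWith C Φ) : Dense {x | DifferentiableAt ℝ Φ x} := by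
  borelize X
  have : ProperSpace X := FiniteDimensional.proper_real X
  have h := hΦ.ae_differentiableAt (μ := (MeasureTheory.Measure.addHaar : MeasureTheory.Measure X))
  exact MeasureTheory.Measure.dense_of_ae h

theorem diff_smul {Φ : X → Y} (hΦ : SphMap Φ) {x : X} (hd : DifferentiableAt ℝ Φ x) {t : ℝ}
    (ht : 0 < t) : DifferentiableAt ℝ Φ (t • x) := by
  have h1 : Φ = fun y => t • Φ (t⁻¹ • y) := by
    funext y
    rw [hΦ.smul t⁻¹ (by positivity), smul_smul, mul_inv_cancel₀ ht.ne', one_smul]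
  rw [h1]
  have h2 : DifferentiableAt ℝ Φ (t⁻¹ • (t • x)) := by
    rwa [smul_smul, inv_mul_cancel₀ ht.ne', one_smul]
  have h3 : DifferentiableAt ℝ (fun y => Φ (t⁻¹ • y)) (t • x) :=
    DifferentiableAt.comp (t • x) h2 (by fun_prop)
  exact h3.const_smul t

/-- a unit point of differentiability close to the direction of `w` -/
theorem exists_point [FiniteDimensional ℝ X] [FiniteDimensional ℝ Y] {Φ : X → Y}
    (hΦ : SphMap Φ) (hl : Continuous Φ) (hD : Dense {x | DifferentiableAt ℝ Φ x}) {w : Y}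
    (hw : w ≠ 0) : ∃ x : X, ‖x‖ = 1 ∧ DifferentiableAt ℝ Φ x ∧ ‖Φ x - ‖w‖⁻¹ • w‖ < 1 := by
  obtain ⟨a, ha⟩ := hΦ.surj (‖w‖⁻¹ • w)
  have hwn : 0 < ‖w‖ := norm_pos_iff.mpr hw
  have ha1 : ‖a‖ = 1 := by
    rw [← hΦ.norm a, ha, norm_smul, norm_inv, norm_norm, inv_mul_cancel₀ hwn.ne']
  have ha0 : a ≠ 0 := by
    intro h
    rw [h, norm_zero] at ha1
    exact zero_ne_one ha1
  have hcont : ContinuousAt (fun x : X => ‖‖x‖⁻¹ • Φ x - ‖w‖⁻¹ • w‖) a := by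
    have h1 : ContinuousAt (fun x : X => ‖x‖⁻¹) a :=
      continuous_norm.continuousAt.inv₀ (by rw [ha1]; exact one_ne_zero)
    exact ((h1.smul hl.continuousAt).sub continuousAt_const).norm
  have hval : (fun x : X => ‖‖x‖⁻¹ • Φ x - ‖w‖⁻¹ • w‖) a < 1 := by
    simp [ha1, ha]
  have hev : ∀ᶠ x in 𝓝 a, ‖‖x‖⁻¹ • Φ x - ‖w‖⁻¹ • w‖ < 1 := hcont.eventually_lt_const hval
  have hev2 : ∀ᶠ x in 𝓝 a, x ≠ 0 := isOpen_compl_singleton.mem_nhds ha0
  obtain ⟨x, hx3, hx1, hx2⟩ := ((mem_closure_iff_frequently.mp (hD a)).and_eventually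
    (hev.and hev2)).exists
  have hxn : 0 < ‖x‖ := norm_pos_iff.mpr hx2
  refine ⟨‖x‖⁻¹ • x, ?_, ?_, ?_⟩
  · rw [norm_smul, norm_inv, norm_norm, inv_mul_cancel₀ hxn.ne']
  · exact diff_smul hΦ hx3 (by positivity)
  · rw [hΦ.smul _ (by positivity)]
    exact hx1

/-- the second unit point `q = p - t w` -/
theorem exists_t {p w : Y} (hp : ‖p‖ = 1) (hw : w ≠ 0) (h : ‖p - ‖w‖⁻¹ • w‖ < 1) :
    ∃ t : ℝ, 0 < t ∧ ‖p - t • w‖ = 1 := by
  have hwn : 0 < ‖w‖ := norm_pos_iff.mpr hw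
  have hle : ‖w‖⁻¹ ≤ 3 * ‖w‖⁻¹ := by
    have : 0 < ‖w‖⁻¹ := by positivity
    linarith
  have hc : ContinuousOn (fun t : ℝ => ‖p - t • w‖) (Set.Icc ‖w‖⁻¹ (3 * ‖w‖⁻¹)) := by
    fun_prop
  have h3 : 1 ≤ ‖p - (3 * ‖w‖⁻¹) • w‖ := by
    have h4 : ‖(3 * ‖w‖⁻¹) • w‖ = 3 := by
      rw [norm_smul, norm_mul, norm_inv, norm_norm, mul_assoc, inv_mul_cancel₀ hwn.ne']
      norm_num
    have h5 : ‖(3 * ‖w‖⁻¹) • w‖ - ‖p‖ ≤ ‖(3 * ‖w‖⁻¹) • w - p‖ := norm_sub_norm_le _ _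
    rw [norm_sub_rev, h4, hp] at h5
    linarith
  obtain ⟨t, ht, ht1⟩ := intermediate_value_Icc hle hc ⟨h.le, h3⟩
  exact ⟨t, lt_of_lt_of_le (by positivity) ht.1, ht1⟩

end S1

variable {X Y : Type*} [NormedAddCommGroup X] [NormedSpace ℝ X]
    [NormedAddCommGroup Y] [NormedSpace ℝ Y]

namespace S1

/-- key identity: a norming functional of `w` is determined on the range of the derivative of
`u ↦ Φ u / ‖u‖` -/
theorem deriv_eq (hX : ∀ x : X, x ≠ 0 → DifferentiableAt ℝ (fun y : X => ‖y‖) x)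
    {Φ : X → Y} (hΦ : SphMap Φ) {x z : X} (hx : ‖x‖ = 1) (hz : ‖z‖ = 1)
    (hne : x ≠ z) (hd : DifferentiableAt ℝ Φ x) (φ : Y →L[ℝ] ℝ) (hφ : ∀ y, φ y ≤ ‖y‖)
    (hφw : φ (Φ x - Φ z) = ‖Φ x - Φ z‖) {v : X} (hv : N1 X x v = 0) :
    φ (fderiv ℝ Φ x v) = N1 X (x - z) v := by
  have hx0 : x ≠ 0 := by
    intro h
    rw [h, norm_zero] at hx
    exact zero_ne_one hx
  -- the curve `u s = x + s v`
  let k : ℝ → ℝ := fun s => ‖‖x + s • v‖⁻¹ • (x + s • v) - z‖ -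
    φ (‖x + s • v‖⁻¹ • Φ (x + s • v) - Φ z)
  have hline : HasDerivAt (fun s : ℝ => x + s • v) v 0 := by
    have h1 : HasDerivAt (fun s : ℝ => s • v) ((1 : ℝ) • v) 0 := (hasDerivAt_id (0 : ℝ)).smul_const v
    rw [one_smul] at h1
    exact h1.const_add x
  have hx' : (fun s : ℝ => x + s • v) 0 = x := by simp
  have hnorm : HasDerivAt (fun s : ℝ => ‖x + s • v‖) 0 0 := by
    have h1 : HasFDerivAt (fun y : X => ‖y‖) (N1 X x) ((fun s : ℝ => x + s • v) 0) := by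
      rw [hx']; exact (hX x hx0).hasFDerivAt
    have h2 := h1.comp_hasDerivAt (0 : ℝ) hline
    rw [hv] at h2
    exact h2
  have hn0 : ‖x + (0 : ℝ) • v‖ = 1 := by simp [hx]
  have hinv : HasDerivAt (fun s : ℝ => ‖x + s • v‖⁻¹) 0 0 := by
    have h1 := hnorm.fun_inv (by rw [hn0]; exact one_ne_zero)
    simpa using h1
  have hpi : HasDerivAt (fun s : ℝ => ‖x + s • v‖⁻¹ • (x + s • v) - z) v 0 := by
    have h1 := (hinv.smul hline).sub_const z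
    simpa [hx] using h1
  have hPhi : HasDerivAt (fun s : ℝ => Φ (x + s • v)) (fderiv ℝ Φ x v) 0 := by
    have h1 : HasFDerivAt Φ (fderiv ℝ Φ x) ((fun s : ℝ => x + s • v) 0) := by
      rw [hx']; exact hd.hasFDerivAt
    exact h1.comp_hasDerivAt (0 : ℝ) hline
  have hg : HasDerivAt (fun s : ℝ => ‖x + s • v‖⁻¹ • Φ (x + s • v) - Φ z) (fderiv ℝ Φ x v) 0 := by
    have h1 := (hinv.smul hPhi).sub_const (Φ z)
    simpa [hx] using h1
  have hk : HasDerivAt k (N1 X (x - z) v - φ (fderiv ℝ Φ x v)) 0 := by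
    have h1 : HasFDerivAt (fun y : X => ‖y‖) (N1 X (x - z))
        ((fun s : ℝ => ‖x + s • v‖⁻¹ • (x + s • v) - z) 0) := by
      have h2 : (fun s : ℝ => ‖x + s • v‖⁻¹ • (x + s • v) - z) 0 = x - z := by simp [hx]
      rw [h2]
      exact (hX (x - z) (sub_ne_zero.mpr hne)).hasFDerivAt
    have h3 := h1.comp_hasDerivAt (0 : ℝ) hpi
    have h4 : HasDerivAt (fun s : ℝ => φ (‖x + s • v‖⁻¹ • Φ (x + s • v) - Φ z))
        (φ (fderiv ℝ Φ x v)) 0 := (φ.hasFDerivAt).comp_hasDerivAt (0 : ℝ) hg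
    exact h3.sub h4
  have hmin : IsLocalMin k 0 := by
    have hne0 : ∀ᶠ s in 𝓝 (0 : ℝ), ‖x + s • v‖ ≠ 0 :=
      hnorm.continuousAt.eventually_ne (by rw [hn0]; exact one_ne_zero)
    filter_upwards [hne0] with s hs
    have hk0 : k 0 = 0 := by
      simp only [k]
      simp only [zero_smul, add_zero, hx, inv_one, one_smul]
      rw [hφw, hΦ.iso x z hx hz, sub_self]
    rw [hk0]
    have hs' : 0 < ‖x + s • v‖ := lt_of_le_of_ne (norm_nonneg _) (Ne.symm hs)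
    have h1 : ‖‖x + s • v‖⁻¹ • (x + s • v)‖ = 1 := by
      rw [norm_smul, norm_inv, norm_norm, inv_mul_cancel₀ hs]
    have h2 := hΦ.iso _ z h1 hz
    rw [hΦ.smul _ (by positivity)] at h2
    have h3 := hφ (‖x + s • v‖⁻¹ • Φ (x + s • v) - Φ z)
    simp only [k]
    linarith
  have h0 := hmin.hasDerivAt_eq_zero hk
  linarith

end S1

theorem SphMap.unique_norming [FiniteDimensional ℝ X] [FiniteDimensional ℝ Y]
    [StrictConvexSpace ℝ X]
    (hX : ∀ x : X, x ≠ 0 → DifferentiableAt ℝ (fun y : X => ‖y‖) x)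
    {Φ : X → Y} (hΦ : SphMap Φ) (w : Y) (hw : w ≠ 0) (φ ψ : Y →L[ℝ] ℝ) (hφ : ∀ y, φ y ≤ ‖y‖)
    (hψ : ∀ y, ψ y ≤ ‖y‖) (hφw : φ w = ‖w‖) (hψw : ψ w = ‖w‖) : φ = ψ := by
  obtain ⟨x, hx1, hd, hxw⟩ := S1.exists_point hΦ hΦ.lipschitz.continuous
    (S1.dense_diff hΦ.lipschitz) hw
  have hx0 : x ≠ 0 := by
    intro h
    rw [h, norm_zero] at hx1
    exact zero_ne_one hx1
  have hp1 : ‖Φ x‖ = 1 := by rw [hΦ.norm, hx1]
  obtain ⟨t, ht, htq⟩ := S1.exists_t hp1 hw hxw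
  obtain ⟨z, hz⟩ := hΦ.surj (Φ x - t • w)
  have hz1 : ‖z‖ = 1 := by rw [← hΦ.norm z, hz, htq]
  have hpq : Φ x - Φ z = t • w := by rw [hz]; abel
  have htw : t • w ≠ 0 := smul_ne_zero ht.ne' hw
  have hne : x ≠ z := by
    intro h
    apply htw
    rw [← hpq, h, sub_self]
  have key : ∀ (χ : Y →L[ℝ] ℝ), (∀ y, χ y ≤ ‖y‖) → χ w = ‖w‖ → ∀ v, N1 X x v = 0 →
      χ (fderiv ℝ Φ x v) = N1 X (x - z) v := by
    intro χ hχ hχw v hv
    refine S1.deriv_eq hX hΦ hx1 hz1 hne hd χ hχ ?_ hv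
    rw [hpq, map_smul, hχw, norm_smul, Real.norm_of_nonneg ht.le, smul_eq_mul]
  -- the difference vanishes on the image of the kernel of `N1 X x`
  have hdiff : ∀ v, N1 X x v = 0 → (φ - ψ) (fderiv ℝ Φ x v) = 0 := by
    intro v hv
    rw [sub_apply, key φ hφ hφw v hv, key ψ hψ hψw v hv, sub_self]
  have hself : N1 X x x = 1 := by rw [N1_self (hX x hx0), hx1]
  have hLx : fderiv ℝ Φ x x = Φ x := hΦ.fderiv_self hd
  have hdec : ∀ v, (φ - ψ) (fderiv ℝ Φ x v) = N1 X x v * (φ - ψ) (Φ x) := by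
    intro v
    have h1 : N1 X x (v - N1 X x v • x) = 0 := by
      rw [map_sub, map_smul, hself, smul_eq_mul, mul_one, sub_self]
    have h2 := hdiff _ h1
    rw [map_sub, map_sub, map_smul, map_smul, hLx, smul_eq_mul] at h2
    linarith
  have hbij := hΦ.fderiv_bijective hx0 (hX x hx0) hd
  obtain ⟨u, hu⟩ := hbij.2 w
  -- `N1 X x u > 0`
  obtain ⟨g, hg1, hg2⟩ := exists_dual_vector'' ℝ (Φ x)
  have hg2' : g (Φ x) = ‖Φ x‖ := by simpa using hg2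
  have hgle : ∀ y, g y ≤ ‖y‖ := fun y => by
    calc g y ≤ ‖g y‖ := Real.le_norm_self _
      _ ≤ ‖g‖ * ‖y‖ := g.le_opNorm y
      _ ≤ 1 * ‖y‖ := by gcongr
      _ = ‖y‖ := one_mul _
  have hgu : g w = N1 X x u := by
    rw [← hu]
    exact hΦ.norming_fderiv (hX x hx0) hd g hgle hg2' u
  have hwn : 0 < ‖w‖ := norm_pos_iff.mpr hw
  have hgw : 0 < g w := by
    have h1 := hgle (Φ x - ‖w‖⁻¹ • w)
    rw [map_sub, hg2', hp1, map_smul, smul_eq_mul] at h1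
    have h2 : 0 < ‖w‖⁻¹ * g w := by linarith
    exact (pos_iff_pos_of_mul_pos h2).mp (by positivity)
  have hP : (φ - ψ) (Φ x) = 0 := by
    have h1 := hdec u
    rw [hu, sub_apply, hφw, hψw, sub_self] at h1
    have h2 : N1 X x u ≠ 0 := by rw [← hgu]; exact hgw.ne'
    rcases mul_eq_zero.mp h1.symm with h3 | h3
    · exact absurd h3 h2
    · exact h3
  have hall : ∀ y, (φ - ψ) y = 0 := by
    intro y
    obtain ⟨v, hv⟩ := hbij.2 y
    rw [← hv, hdec v, hP, mul_zero]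
  ext y
  have := hall y
  rw [sub_apply] at this
  linarith

end Vale.Agent.H11.TS
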