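import Vale.Agent.H11.TS.B0
import Vale.Agent.H11.TS.B2
import Vale.Agent.H11.TS.B4a
import Vale.Agent.H11.TS.B4b

/-!
# Row S2: smoothness of the target norm, bootstrap
-/

namespace Vale.Agent.H11.TS

open Filter Topology Metric

variable {X Y : Type*} [NormedAddCommGroup X] [NormedSpace ℝ X]
    [NormedAddCommGroup Y] [NormedSpace ℝ Y]

namespace S2

/-- the identity `N1 Y (P z) ∘ M z = N1 X (Q z) ∘ L z` -/
theorem identity {Φ : X → Y} (hΦ : SphMap Φ) (hneg : ∀ x, Φ (-x) = -Φ x) {x z : X}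
    (hx : x ≠ 0) (hz : z ≠ 0) (hN : DifferentiableAt ℝ (fun y : X => ‖y‖) x)
    (hd : DifferentiableAt ℝ Φ x)
    (hY : DifferentiableAt ℝ (fun y : Y => ‖y‖) (‖z‖ • Φ x + ‖x‖ • Φ z))
    (hQ : DifferentiableAt ℝ (fun y : X => ‖y‖) (‖z‖ • x + ‖x‖ • z)) (u : X) :
    N1 Y (‖z‖ • Φ x + ‖x‖ • Φ z) (‖z‖ • fderiv ℝ Φ x u + N1 X x u • Φ z)
      = N1 X (‖z‖ • x + ‖x‖ • z) (‖z‖ • u + N1 X x u • z) := by
  have h1 := SphMap.hasDerivAt_first (Θ := Φ) (z := z) hN hd hY u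
  have h2 := SphMap.hasDerivAt_first (Θ := fun y : X => y) (z := z) hN differentiableAt_id hQ u
  have hc : ContinuousAt (fun t : ℝ => x + t • u) 0 := by fun_prop
  have hne : ∀ᶠ t : ℝ in 𝓝 0, x + t • u ≠ 0 := by
    apply hc.eventually_ne
    simpa using hx
  have h3 : (fun t : ℝ => ‖‖z‖ • Φ (x + t • u) + ‖x + t • u‖ • Φ z‖)
      =ᶠ[𝓝 0] fun t : ℝ => ‖‖z‖ • (x + t • u) + ‖x + t • u‖ • z‖ := by
    filter_upwards [hne] with t ht
    exact hΦ.norm_add_eq hneg ht hz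
  have h4 := h1.unique (h2.congr_of_eventuallyEq h3)
  rw [h4]
  have : fderiv ℝ (fun y : X => y) x u = u := by simp
  rw [this]

end S2

theorem SphMap.contDiffAt_norm_succ [FiniteDimensional ℝ X] [FiniteDimensional ℝ Y]
    [StrictConvexSpace ℝ X] {k : ℕ} (hk : 1 ≤ k)
    (hX : ∀ x : X, x ≠ 0 → ContDiffAt ℝ (k + 1 : ℕ) (fun y : X => ‖y‖) x)
    (hY : ∀ y : Y, y ≠ 0 → ContDiffAt ℝ k (fun y : Y => ‖y‖) y)
    {Φ : X → Y} (hΦ : SphMap Φ) (hΦk : ∀ x : X, x ≠ 0 → ContDiffAt ℝ k Φ x)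
    {w : Y} (hw : w ≠ 0) : ContDiffAt ℝ (k + 1 : ℕ) (fun y : Y => ‖y‖) w := by
  have : CompleteSpace X := FiniteDimensional.complete ℝ X
  have : CompleteSpace Y := FiniteDimensional.complete ℝ Y
  have hneg := hΦ.neg
  have hk0 : ((k : ℕ) : WithTop ℕ∞) ≠ 0 := by
    have : k ≠ 0 := by omega
    exact_mod_cast this
  have hk1 : (1 : WithTop ℕ∞) ≤ ((k : ℕ) : WithTop ℕ∞) := by exact_mod_cast hk
  obtain ⟨x1, hx1⟩ := hΦ.surj w
  have hwn : 0 < ‖w‖ := norm_pos_iff.2 hw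
  have hx1n : ‖x1‖ = ‖w‖ := by rw [← hx1, hΦ.norm]
  set s : ℝ := (Real.sqrt (2 * ‖w‖))⁻¹ with hs
  have hs0 : 0 < s := by positivity
  have hs2 : s * s * (2 * ‖w‖) = 1 := by
    rw [hs, ← mul_inv, Real.mul_self_sqrt (by positivity)]
    field_simp
  set x0 : X := s • x1 with hx0
  have hx00 : x0 ≠ 0 := by
    rw [hx0, ← norm_ne_zero_iff, norm_smul, hx1n, Real.norm_of_nonneg hs0.le]
    positivity
  have hΦx0 : Φ x0 = s • w := by rw [hx0, hΦ.smul s hs0.le, hx1]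
  have hnx0 : ‖x0‖ = s * ‖w‖ := by
    rw [hx0, norm_smul, hx1n, Real.norm_of_nonneg hs0.le]
  have hdX : ∀ x : X, x ≠ 0 → DifferentiableAt ℝ (fun y : X => ‖y‖) x := fun x hx =>
    (hX x hx).differentiableAt (by simp)
  have hdY : ∀ y : Y, y ≠ 0 → DifferentiableAt ℝ (fun y : Y => ‖y‖) y := fun y hy =>
    (hY y hy).differentiableAt hk0
  have hdΦ : ∀ x : X, x ≠ 0 → DifferentiableAt ℝ Φ x := fun x hx =>
    (hΦk x hx).differentiableAt hk0
  set D := fderiv ℝ Φ x0 with hD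
  set ν := N1 X x0 with hν
  let P : X → Y := fun z => ‖z‖ • Φ x0 + ‖x0‖ • Φ z
  let Q : X → X := fun z => ‖z‖ • x0 + ‖x0‖ • z
  let M : X → X →L[ℝ] Y := fun z => ‖z‖ • D + ContinuousLinearMap.smulRightL ℝ X Y ν (Φ z)
  let L : X → X →L[ℝ] X := fun z => ‖z‖ • ContinuousLinearMap.id ℝ X
    + ContinuousLinearMap.smulRightL ℝ X X ν z
  have hMa : ∀ z u, M z u = ‖z‖ • D u + ν u • Φ z := by
    intro z u
    simp [M, ContinuousLinearMap.smulRightL]
  have hLa : ∀ z u, L z u = ‖z‖ • u + ν u • z := by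
    intro z u
    simp [L, ContinuousLinearMap.smulRightL]
  have hP0 : P x0 = w := by
    show ‖x0‖ • Φ x0 + ‖x0‖ • Φ x0 = w
    rw [hΦx0, hnx0, ← add_smul, smul_smul]
    have : (s * ‖w‖ + s * ‖w‖) * s = 1 := by linarith
    rw [this, one_smul]
  have hQ0 : Q x0 ≠ 0 := by
    show ‖x0‖ • x0 + ‖x0‖ • x0 ≠ 0
    rw [← add_smul]
    apply smul_ne_zero _ hx00
    have := norm_pos_iff.2 hx00
    positivity
  -- smoothness
  have hNk : ContDiffAt ℝ k (fun y : X => ‖y‖) x0 :=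
    (hX x0 hx00).of_le (by exact_mod_cast Nat.le_succ k)
  have hΦ0 := hΦk x0 hx00
  have hPk : ContDiffAt ℝ k P x0 := (hNk.smul contDiffAt_const).add (hΦ0.const_smul ‖x0‖)
  have hQk : ContDiffAt ℝ k Q x0 :=
    (hNk.smul contDiffAt_const).add (contDiffAt_id.const_smul ‖x0‖)
  have hMk : ContDiffAt ℝ k M x0 :=
    (hNk.smul contDiffAt_const).add
      ((ContinuousLinearMap.smulRightL ℝ X Y ν).contDiff.contDiffAt.comp x0 hΦ0)
  have hLk : ContDiffAt ℝ k L x0 :=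
    (hNk.smul contDiffAt_const).add
      ((ContinuousLinearMap.smulRightL ℝ X X ν).contDiff.contDiffAt)
  have hNQ : ContDiffAt ℝ k (fun z => N1 X (Q z)) x0 := by
    have h1 : ContDiffAt ℝ k (N1 X) (Q x0) :=
      (hX (Q x0) hQ0).fderiv_right (by exact_mod_cast le_refl (k + 1))
    exact h1.comp x0 hQk
  have hβk : ContDiffAt ℝ k (fun z => (N1 X (Q z)).comp (L z)) x0 := hNQ.clm_comp hLk
  -- the derivative of `P`
  have hP' : HasFDerivAt P (M x0) x0 := by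
    have h1 : HasFDerivAt P (ν.smulRight (Φ x0) + ‖x0‖ • D) x0 :=
      ((hdX x0 hx00).hasFDerivAt.smul_const (Φ x0)).add
        ((hdΦ x0 hx00).hasFDerivAt.const_smul ‖x0‖)
    have h2 : M x0 = ν.smulRight (Φ x0) + ‖x0‖ • D := by
      ext u
      rw [hMa]
      simp [add_comm]
    rw [h2]
    exact h1
  have hinj : Function.Injective (M x0) := by
    rw [injective_iff_map_eq_zero]
    intro v hv
    rw [hMa, ← hΦ.fderiv_self (hdΦ x0 hx00), ← hD, ← map_smul, ← map_smul, ← map_add] at hv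
    have h1 := (hΦ.fderiv_bijective hx00 (hdX x0 hx00) (hdΦ x0 hx00)).1
    have h2 : ‖x0‖ • v + ν v • x0 = 0 := by
      apply h1
      rw [← hD, hv, _root_.map_zero]
    have h3 : ν (‖x0‖ • v + ν v • x0) = 0 := by rw [h2, _root_.map_zero]
    have h4 : ν x0 = ‖x0‖ := N1_self (hdX x0 hx00)
    rw [map_add, map_smul, map_smul, h4, smul_eq_mul, smul_eq_mul] at h3
    have h5 : 0 < ‖x0‖ := norm_pos_iff.2 hx00
    have h6 : ν v = 0 := by
      have : 2 * ‖x0‖ * ν v = 0 := by linarith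
      rcases mul_eq_zero.1 this with h | h
      · linarith
      · exact h
    rw [h6, zero_smul, add_zero] at h2
    exact (smul_eq_zero.1 h2).resolve_left h5.ne'
  have hsurj : Function.Surjective (M x0) :=
    (LinearMap.injective_iff_surjective_of_finrank_eq_finrank
      (f := (M x0 : X →ₗ[ℝ] Y)) hΦ.finrank_eq.symm).1 hinj
  let e : X ≃L[ℝ] Y := ContinuousLinearEquiv.ofBijective (M x0)
    (LinearMap.ker_eq_bot.2 hinj) (LinearMap.range_eq_top.2 hsurj)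
  have he : (e : X →L[ℝ] Y) = M x0 := ContinuousLinearEquiv.coe_ofBijective _ _ _
  have hinvk : ContDiffAt ℝ k (fun z => ContinuousLinearMap.inverse (M z)) x0 := by
    have h1 : ContDiffAt ℝ k (ContinuousLinearMap.inverse : (X →L[ℝ] Y) → Y →L[ℝ] X) (M x0) := by
      rw [← he]
      exact contDiffAt_map_inverse e
    exact h1.comp x0 hMk
  have hαk : ContDiffAt ℝ k (fun z => ((N1 X (Q z)).comp (L z)).comp
      (ContinuousLinearMap.inverse (M z))) x0 := hβk.clm_comp hinvk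
  have hev : ∀ᶠ z in 𝓝 x0, N1 Y (P z)
      = ((N1 X (Q z)).comp (L z)).comp (ContinuousLinearMap.inverse (M z)) := by
    have h1 : ∀ᶠ z in 𝓝 x0, z ≠ 0 := eventually_ne_nhds hx00
    have h2 : ∀ᶠ z in 𝓝 x0, P z ≠ 0 := by
      apply hPk.continuousAt.eventually_ne
      rw [hP0]; exact hw
    have h3 : ∀ᶠ z in 𝓝 x0, Q z ≠ 0 := hQk.continuousAt.eventually_ne hQ0
    have h4 : ∀ᶠ z in 𝓝 x0, M z ∈ Set.range (fun e : X ≃L[ℝ] Y => (e : X →L[ℝ] Y)) := by
      have h5 : Set.range (fun e : X ≃L[ℝ] Y => (e : X →L[ℝ] Y)) ∈ 𝓝 (M x0) := by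
        rw [← he]
        exact ContinuousLinearEquiv.nhds e
      exact hMk.continuousAt h5
    filter_upwards [h1, h2, h3, h4] with z hz hPz hQz hMz
    obtain ⟨ez, hez⟩ := hMz
    have h6 : (N1 Y (P z)).comp (M z) = (N1 X (Q z)).comp (L z) := by
      ext u
      rw [ContinuousLinearMap.comp_apply, ContinuousLinearMap.comp_apply, hMa, hLa]
      exact S2.identity hΦ hneg hx00 hz (hdX x0 hx00) (hdΦ x0 hx00) (hdY _ hPz) (hdX _ hQz) u
    rw [← h6]
    simp only at hez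
    rw [← hez, ContinuousLinearMap.inverse_equiv]
    ext y
    simp
  -- inverse function theorem
  have hP'' : HasFDerivAt P (e : X →L[ℝ] Y) x0 := by rw [he]; exact hP'
  have hinv := hPk.to_localInverse hP'' hk0
  have hright := (hPk.hasStrictFDerivAt' hP'' hk0).eventually_right_inverse
  set inv := hPk.localInverse hP'' hk0 with hinvdef
  have hinv0 : inv (P x0) = x0 := hPk.localInverse_apply_image hP'' hk0
  rw [hP0] at hinv hinv0 hright
  have hev2 : ∀ᶠ y in 𝓝 w, N1 Y y = ((N1 X (Q (inv y))).comp (L (inv y))).comp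
      (ContinuousLinearMap.inverse (M (inv y))) := by
    have h7 : Tendsto inv (𝓝 w) (𝓝 x0) := by
      have := hinv.continuousAt
      rw [ContinuousAt, hinv0] at this
      exact this
    filter_upwards [h7.eventually hev, hright] with y hy1 hy2
    have h8 : P (inv y) = y := hy2
    rw [h8] at hy1
    exact hy1
  have hN1k : ContDiffAt ℝ k (N1 Y) w := by
    have h9 : ContDiffAt ℝ k (fun z => ((N1 X (Q z)).comp (L z)).comp
      (ContinuousLinearMap.inverse (M z))) (inv w) := by rw [hinv0]; exact hαk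
    exact (h9.comp w hinv).congr_of_eventuallyEq hev2
  have hfin : ContDiffAt ℝ ((k : WithTop ℕ∞) + 1) (fun y : Y => ‖y‖) w := by
    rw [contDiffAt_succ_iff_hasFDerivAt]
    refine ⟨N1 Y, ⟨{0}ᶜ, isOpen_compl_singleton.mem_nhds hw, ?_⟩, hN1k⟩
    intro y hy
    exact (hdY y hy).hasFDerivAt
  exact_mod_cast hfin

end Vale.Agent.H11.TS
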